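import Vale.Agent.P088.R2.H464.B.Skz

/-!
# P088: the exact identity in a cell, true against model, assembly
-/

open Set Filter
open scoped ContDiff Topology

noncomputable section

set_option linter.unusedSectionVars false

namespace Vale.Agent.P088.R2.H464.B

open Vale.Agent.P088.R2.H961.GW Vale.Agent.P088.R2.H644

variable {α ι E : Type*} [NormedAddCommGroup E] [NormedSpace ℝ E] [Fintype ι] [DecidableEq ι]
  {G : Ge α ι E} {e r t δ κ : α → E → ℝ} {s d : ι → ι → α → E → ℝ}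
  {W W₀ L L' f g β γ : α → E → ℝ} {u w : ι → α → E → ℝ}

/-- `D_j^* f`. -/
def Dst (G : Ge α ι E) (W f : α → E → ℝ) (j : ι) : α → E → ℝ := fun x z =>
  f x z * G.da j W x z - G.da j f x z

/-- `K_j^* f`. -/
def Kst (G : Ge α ι E) (W f : α → E → ℝ) (j : ι) : α → E → ℝ := fun x z =>
  f x z * G.db j W x z - G.db j f x z

/-- `D_j f`. -/
def Dun (G : Ge α ι E) (W f : α → E → ℝ) (j : ι) : α → E → ℝ := fun x z =>
  f x z * G.da j W x z + G.da j f x z

/-- `K_j f`. -/
def Kun (G : Ge α ι E) (W f : α → E → ℝ) (j : ι) : α → E → ℝ := fun x z =>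
  f x z * G.db j W x z + G.db j f x z

/-- `X^* a₁ - Y^* a₂`. -/
def Yf (G : Ge α ι E) (W β γ : α → E → ℝ) (j : ι) : α → E → ℝ := fun x z =>
  2 * Dst G W β j x z + Kst G W γ j x z

/-- `(X^* a₁ + Y^* a₂) / 2`. -/
def Pf (G : Ge α ι E) (W β γ : α → E → ℝ) (j : ι) : α → E → ℝ := fun x z =>
  Dst G W γ j x z + 1 / 2 * Kst G W β j x z

section cell

variable (sβ : G.Sm β) (sγ : G.Sm γ) (x : α) {z : E} (hz : z ∈ G.Z x)
include sβ sγ hz

theorem XX_x (W : α → E → ℝ) : Ch.XX (SX G s d x) (W x) (fun z => β x z + γ x z) z =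
    fun i => Pf G W β γ i x z + 1 / 2 * Yf G W β γ i x z := by
  funext i
  have e1 : (SX G s d x).D i (W x) z = Dx G i W x z := congrFun (SX_D x i W) z
  have e2 : (SX G s d x).D i (fun z => β x z + γ x z) z = Dx G i (fun x z => β x z + γ x z) x z :=
    congrFun (SX_D x i fun x z => β x z + γ x z) z
  unfold Ch.XX
  rw [e1, e2]
  simp only [Dx, da_add sβ sγ i x hz, db_add sβ sγ i x hz, Pf, Yf, Dst, Kst]
  ring

theorem XX_y (W : α → E → ℝ) : Ch.XX (SY G s d x) (W x) (fun z => β x z - γ x z) z =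
    fun i => Pf G W β γ i x z - 1 / 2 * Yf G W β γ i x z := by
  funext i
  have e1 : (SY G s d x).D i (W x) z = Dy G i W x z := congrFun (SY_D x i W) z
  have e2 : (SY G s d x).D i (fun z => β x z - γ x z) z = Dy G i (fun x z => β x z - γ x z) x z :=
    congrFun (SY_D x i fun x z => β x z - γ x z) z
  unfold Ch.XX
  rw [e1, e2]
  simp only [Dy, da_sub sβ sγ i x hz, db_sub sβ sγ i x hz, Pf, Yf, Dst, Kst]
  ring

end cell

/-- The Hessian form. -/
def th (G : Ge α ι E) (s d : ι → ι → α → E → ℝ) (W β γ : α → E → ℝ) : α → E → ℝ := fun x z =>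
  Ch.TH (SX G s d x) (SY G s d x) (W x) z (Ch.XX (SX G s d x) (W x) (fun z => β x z + γ x z) z)
    (Ch.XX (SY G s d x) (W x) (fun z => β x z - γ x z) z)

/-- The skew form. -/
def skf (G : Ge α ι E) (s d : ι → ι → α → E → ℝ) (W β γ : α → E → ℝ) : α → E → ℝ := fun x z =>
  sk (SX G s d x) (SY G s d x) (W x) (fun z => β x z + γ x z) (fun z => β x z - γ x z) z

/-- The density of `T - SQ`. -/
def cd (G : Ge α ι E) (s d : ι → ι → α → E → ℝ) (W β γ : α → E → ℝ) : α → E → ℝ := fun x z =>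
  8 * th G s d W β γ x z + 4 * skf G s d W β γ x z + zo G s d W (β x z) (γ x z) x z

theorem Yr_zr (Y P : ι → α → E → ℝ) : Yr zr zr Y P = Y := by
  funext j x z
  simp [Yr, zr]

theorem Pr_zr (Y P : ι → α → E → ℝ) : Pr zr zr Y P = P := by
  funext j x z
  simp [Pr, zr]

theorem hs_zr : Hs G zr zr where
  ss := sm_zr
  sd := sm_zr
  ys _ _ _ _ := rfl
  yd _ _ _ _ := rfl
  xy x z hz i k l := by
    have e : (sY zr zr k l : α → E → ℝ) = fun _ _ => if k = l then 1 else 0 := by
      funext x z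
      simp [sY, tS, zr, idn]
    unfold Dx Ge.da Ge.db
    rw [e]; simp
  yx x z hz i k l := by
    have e : (sX zr zr k l : α → E → ℝ) = fun _ _ => if k = l then 1 else 0 := by
      funext x z
      simp [sX, tS, zr, idn]
    unfold Dy Ge.da Ge.db
    rw [e]; simp

theorem Ch_zr (W : α → E → ℝ) (A B : ι → α → E → ℝ) (x : α) (z : E) : Ch G zr zr W A B x z = 0 := by
  have ex : ∀ j k l : ι, Dx G j (sX zr zr k l) x z = 0 := by
    intro j k l
    have e : (sX zr zr k l : α → E → ℝ) = fun _ _ => if k = l then 1 else 0 := by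
      funext x z
      simp [sX, tS, zr, idn]
    unfold Dx Ge.da Ge.db
    rw [e]; simp
  have ey : ∀ j k l : ι, Dy G j (sY zr zr k l) x z = 0 := by
    intro j k l
    have e : (sY zr zr k l : α → E → ℝ) = fun _ _ => if k = l then 1 else 0 := by
      funext x z
      simp [sY, tS, zr, idn]
    unfold Dy Ge.da Ge.db
    rw [e]; simp
  unfold Ch Cx Cy
  simp [ex, ey]

section size

variable (H : Hy G e r t δ s d W W₀) (H₀ : Hy G e r t δ zr zr W₀ W₀) (hm : Hm G r κ s d)
  (h : Hs G s d) (sβ : G.Sm β) (sγ : G.Sm γ)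
include H H₀ hm h sβ sγ

omit H₀ hm h in
/-- Change of the arguments. -/
theorem YP_dif {b c : α → E → ℝ} (nb : G.Nn b) (nc : G.Nn c) (hb : G.O b β) (hc : G.O c γ) :
    (∀ j, G.O (fun x z => δ x z * e x z * r x z * (b x z + r x z * c x z))
      (fun x z => Yf G W β γ j x z - Yf G W₀ β γ j x z)) ∧
    ∀ j, G.O (fun x z => δ x z * e x z * r x z * (c x z + r x z * b x z))
      (fun x z => Pf G W β γ j x z - Pf G W₀ β γ j x z) := by
  have nr : G.Nn r := fun x z h => (H.sz.r0 x z h).le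
  have ne : G.Nn e := fun x z h => (H.sz.e0 x z h).le
  have nd : G.Nn δ := H.sz.d0
  -- change of the arguments
  have da1 : ∀ j, G.O (fun x z => δ x z * e x z * r x z)
      (fun x z => G.da j W x z - G.da j W₀ x z) := fun j => by
    obtain ⟨C, hC⟩ := (H.hD.2.1 j).zero_of
    refine ⟨C, fun x z hz => ?_⟩
    have := hC x z hz
    rw [da_sub H.sW H.sW₀ j x hz] at this
    simpa [ms, mn, x3] using this
  have db1 : ∀ j, G.O (fun x z => δ x z * e x z * r x z ^ 2)
      (fun x z => G.db j W x z - G.db j W₀ x z) := fun j => by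
    obtain ⟨C, hC⟩ := (H.hD.2.2 j).zero_of
    refine ⟨C, fun x z hz => ?_⟩
    have := hC x z hz
    rw [db_sub H.sW H.sW₀ j x hz] at this
    simpa [ms, mn, x3] using this
  have n1 : G.Nn fun x z => δ x z * e x z * r x z := fun x z h =>
    mul_nonneg (mul_nonneg (nd x z h) (ne x z h)) (nr x z h)
  have n2 : G.Nn fun x z => δ x z * e x z * r x z ^ 2 := fun x z h =>
    mul_nonneg (mul_nonneg (nd x z h) (ne x z h)) (sq_nonneg _)
  have dY : ∀ j, G.O (fun x z => δ x z * e x z * r x z * (b x z + r x z * c x z))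
      (fun x z => Yf G W β γ j x z - Yf G W₀ β γ j x z) := fun j => by
    have a1 := ((hb.mul nb (da1 j)).cmul (fun x z h => mul_nonneg (nb x z h) (n1 x z h)) 2).mono
      (fun x z h => mul_nonneg (nb x z h) (n1 x z h))
      (g' := fun x z => δ x z * e x z * r x z * (b x z + r x z * c x z)) (A := 1) fun x z h => by
        have h1 : 0 ≤ δ x z * e x z * r x z * (r x z * c x z) :=
          mul_nonneg (n1 x z h) (mul_nonneg (nr x z h) (nc x z h))
        have h2 : δ x z * e x z * r x z * (b x z + r x z * c x z) =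
          b x z * (δ x z * e x z * r x z) + δ x z * e x z * r x z * (r x z * c x z) := by ring
        rw [h2]; linarith
    have a2 := (hc.mul nc (db1 j)).mono (fun x z h => mul_nonneg (nc x z h) (n2 x z h))
      (g' := fun x z => δ x z * e x z * r x z * (b x z + r x z * c x z)) (A := 1) fun x z h => by
        have h1 : 0 ≤ δ x z * e x z * r x z * b x z := mul_nonneg (n1 x z h) (nb x z h)
        have h2 : δ x z * e x z * r x z * (b x z + r x z * c x z) =
          δ x z * e x z * r x z * b x z + c x z * (δ x z * e x z * r x z ^ 2) := by ring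
        rw [h2]; linarith
    refine (a1.add a2).congr fun x z _ => ?_
    simp only [Yf, Dst, Kst]
    ring
  have dP : ∀ j, G.O (fun x z => δ x z * e x z * r x z * (c x z + r x z * b x z))
      (fun x z => Pf G W β γ j x z - Pf G W₀ β γ j x z) := fun j => by
    have a1 := (hc.mul nc (da1 j)).mono (fun x z h => mul_nonneg (nc x z h) (n1 x z h))
      (g' := fun x z => δ x z * e x z * r x z * (c x z + r x z * b x z)) (A := 1) fun x z h => by
        have h1 : 0 ≤ δ x z * e x z * r x z * (r x z * b x z) :=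
          mul_nonneg (n1 x z h) (mul_nonneg (nr x z h) (nb x z h))
        have h2 : δ x z * e x z * r x z * (c x z + r x z * b x z) =
          c x z * (δ x z * e x z * r x z) + δ x z * e x z * r x z * (r x z * b x z) := by ring
        rw [h2]; linarith
    have a2 := ((hb.mul nb (db1 j)).cmul (fun x z h => mul_nonneg (nb x z h) (n2 x z h)) (1 / 2)).mono
      (fun x z h => mul_nonneg (nb x z h) (n2 x z h))
      (g' := fun x z => δ x z * e x z * r x z * (c x z + r x z * b x z)) (A := 1) fun x z h => by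
        have h1 : 0 ≤ δ x z * e x z * r x z * c x z := mul_nonneg (n1 x z h) (nc x z h)
        have h2 : δ x z * e x z * r x z * (c x z + r x z * b x z) =
          δ x z * e x z * r x z * c x z + b x z * (δ x z * e x z * r x z ^ 2) := by ring
        rw [h2]; linarith
    refine (a1.add a2).congr fun x z _ => ?_
    simp only [Pf, Dst, Kst]
    ring
  exact ⟨dY, dP⟩

omit H₀ in
/-- **The Hessian form.** -/
theorem th_O {y p b c : α → E → ℝ} (ny : G.Nn y) (np : G.Nn p) (nb : G.Nn b) (nc : G.Nn c)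
    (hY : ∀ j, G.O y (Yf G W β γ j)) (hP : ∀ j, G.O p (Pf G W β γ j))
    (hY₀ : ∀ j, G.O y (Yf G W₀ β γ j)) (hP₀ : ∀ j, G.O p (Pf G W₀ β γ j))
    (hb : G.O b β) (hc : G.O c γ) :
    G.O (fun x z => κ x z * (e x z * (y x z + r x z * p x z) ^ 2 +
        e x z * r x z * t x z * p x z ^ 2) +
      δ x z * (e x z * (y x z + r x z * p x z) ^ 2 +
        e x z ^ 3 * r x z ^ 2 * (b x z ^ 2 + t x z ^ 2 * c x z ^ 2)))
      (fun x z => th G s d W β γ x z - th G zr zr W₀ β γ x z) := by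
  have nr : G.Nn r := fun x z h => (H.sz.r0 x z h).le
  have ne : G.Nn e := fun x z h => (H.sz.e0 x z h).le
  have nt : G.Nn t := fun x z h => (nr x z h).trans (H.sz.rt x z h)
  have nd : G.Nn δ := H.sz.d0
  have nk := hm.k0
  have sD := H.sW.sub H.sW₀
  obtain ⟨dY, dP⟩ := YP_dif H sβ sγ nb nc hb hc
  have c1 := met_O H hm ny np hY hP
  have c2 := dW_O H ny np hY hP
  have c3 := dA_O H ny np nb nc hY hP hY₀ hP₀ dY dP
  have c4 := Ch_O H hm ny np hY hP
  set g1 : α → E → ℝ := fun x z => κ x z * (e x z * (y x z + r x z * p x z) ^ 2 +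
        e x z * r x z * t x z * p x z ^ 2) with hg1
  set g2 : α → E → ℝ := fun x z => δ x z * (e x z * (y x z + r x z * p x z) ^ 2 +
        e x z ^ 3 * r x z ^ 2 * (b x z ^ 2 + t x z ^ 2 * c x z ^ 2)) with hg2
  have m1 : G.Nn g1 := fun x z h => by
    have := nk x z h; have := ne x z h; have := nr x z h; have := nt x z h
    simp only [hg1]; positivity
  have m2 : G.Nn g2 := fun x z h => by
    have := nd x z h; have := ne x z h
    simp only [hg2]; positivity
  have f1 := c1.mono m1 (g' := fun x z => g1 x z + g2 x z) (A := 1) fun x z h => by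
    have := m2 x z h; linarith
  have f4 := c4.mono m1 (g' := fun x z => g1 x z + g2 x z) (A := 1) fun x z h => by
    have := m2 x z h; linarith
  have f3 := c3.mono m2 (g' := fun x z => g1 x z + g2 x z) (A := 1) fun x z h => by
    have := m1 x z h; linarith
  have f2 := c2.mono (fun x z h => by
      have := nd x z h; have := ne x z h; positivity)
    (g' := fun x z => g1 x z + g2 x z) (A := 1) fun x z h => by
    have h1 := m1 x z h
    have h2 : 0 ≤ δ x z * (e x z ^ 3 * r x z ^ 2 * (b x z ^ 2 + t x z ^ 2 * c x z ^ 2)) := by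
      have := nd x z h; have := ne x z h; positivity
    simp only [hg2]
    linarith [mul_add (δ x z) (e x z * (y x z + r x z * p x z) ^ 2)
      (e x z ^ 3 * r x z ^ 2 * (b x z ^ 2 + t x z ^ 2 * c x z ^ 2))]
  refine (((f1.add f2).add f3).add f4).congr fun x z hz => ?_
  have k1 := TH_qp h H.sW x hz (Yf G W β γ) (Pf G W β γ)
  have k2 := TH_qp (s := zr) (d := zr) hs_zr H.sW₀ x hz (Yf G W₀ β γ) (Pf G W₀ β γ)
  rw [Ch_zr, Yr_zr, Pr_zr, add_zero] at k2
  simp only [th]
  rw [XX_x sβ sγ x hz W, XX_y sβ sγ x hz W, XX_x sβ sγ x hz W₀, XX_y sβ sγ x hz W₀, k1, k2]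
  ring

/-- **The skew form.** -/
theorem sk_O {gu : α → E → ℝ} (nu : G.Nn gu) (hu : ∀ j, G.O gu (uv G β γ j))
    (hw : ∀ j, G.O gu (wv G β γ j)) :
    G.O (fun x z => δ x z * (e x z * gu x z))
      (fun x z => skf G s d W β γ x z - skf G zr zr W₀ β γ x z) := by
  have ne : G.Nn e := fun x z h => (H.sz.e0 x z h).le
  have nd : G.Nn δ := H.sz.d0
  have nde : G.Nn fun x z => δ x z * e x z := fun x z h => mul_nonneg (nd x z h) (ne x z h)
  have n1 : G.Nn fun _ _ => (1 : ℝ) := fun _ _ _ => zero_le_one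
  obtain ⟨⟨fp, fm⟩, dp, dm⟩ := H.f_cls
  have sLp := Ge.Sm.Lp (G := G) (tS_sm H.ss) H.sd H.sW
  have sLm := Ge.Sm.Lm (G := G) (tS_sm H.ss) H.sd H.sW
  have sLp0 := Ge.Sm.Lp (G := G) sm_idn sm_zr H.sW₀
  have sLm0 := Ge.Sm.Lm (G := G) sm_idn sm_zr H.sW₀
  -- coefficients
  have os : ∀ i j, G.O δ (s i j) := fun i j => by
    obtain ⟨C, hC⟩ := (H.hs i j).zero_of
    exact ⟨C, fun x z hz => by simpa [ms, mn, x3] using hC x z hz⟩
  have od : ∀ i j, G.O δ (d i j) := fun i j => by
    obtain ⟨C, hC0, hC⟩ := Ge.O.nn (H.hd i j).zero_of (ms_nn H.sz _ _ _ _ _)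
    refine ⟨C, fun x z hz => (hC x z hz).trans (mul_le_mul_of_nonneg_left ?_ hC0)⟩
    simp only [ms, mn, x3, pow_one, pow_zero, mul_one]
    exact mul_le_of_le_one_right (nd x z hz) ((H.sz.rt x z hz).trans (H.sz.t1 x z hz))
  have cls : ∀ {L : α → E → ℝ} {k K : ℕ}, G.Gc (K + 1) (ms e r t δ k 1 (x3 0 0 0) (x3 0 0 0)) L →
      (∀ i, G.O (fun x z => δ x z ^ k * e x z) (G.da i L)) ∧
      ∀ i, G.O (fun x z => δ x z ^ k * e x z) (G.db i L) := by
    intro L k K hL
    constructor <;> intro i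
    · obtain ⟨C, hC⟩ := (hL.2.1 i).zero_of
      exact ⟨C, fun x z hz => by simpa [ms, mn, x3] using hC x z hz⟩
    · obtain ⟨C, hC⟩ := (hL.2.2 i).zero_of
      exact ⟨C, fun x z hz => by simpa [ms, mn, x3] using hC x z hz⟩
  have l1 := cls fp
  have l2 := cls fm
  have l3 := cls (K := 0) dp
  have l4 := cls (K := 0) dm
  simp only [pow_zero, one_mul] at l1 l2
  simp only [pow_one] at l3 l4
  have a1 := GpV_O nd ne nu os od l2.1 l2.2 hu hw
  have a2 := GpV_O nd ne nu od os l1.1 l1.2 hu hw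
  have oi : ∀ i j : ι, G.O (fun _ _ => (1 : ℝ)) (idn i j) := fun i j => ⟨1, fun x z _ => by
    unfold idn; split <;> simp⟩
  have oz : ∀ i j : ι, G.O (fun _ _ => (1 : ℝ)) (zr i j) := fun i j => Ge.O.zero _
  have a3 := GpV_O n1 nde nu oi oz l4.1 l4.2 hu hw
  have a4 := GpV_O n1 nde nu oz oi l3.1 l3.2 hu hw
  simp only [one_mul] at a3 a4
  have a3' := a3.mono (fun x z h => mul_nonneg (nde x z h) (nu x z h))
    (g' := fun x z => δ x z * (e x z * gu x z)) (A := 1) fun x z _ => le_of_eq (by ring)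
  have a4' := a4.mono (fun x z h => mul_nonneg (nde x z h) (nu x z h))
    (g' := fun x z => δ x z * (e x z * gu x z)) (A := 1) fun x z _ => le_of_eq (by ring)
  have nn : G.Nn fun x z => δ x z * (e x z * gu x z) := fun x z h =>
    mul_nonneg (nd x z h) (mul_nonneg (ne x z h) (nu x z h))
  refine (((a2.add a4').sub (a1.add a3') nn)).congr fun x z hz => ?_
  simp only [skf]
  rw [sk_eq h H.sW x hz sβ sγ, sk_eq hs_zr H.sW₀ x hz sβ sγ, tS_zr,
    GpV_sub sLm sLm0 x hz, GpV_sub sLp sLp0 x hz]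
  have e1 : GpV G (tS s) d (G.Lm (tS s) d W) (uv G β γ) (wv G β γ) x z =
      GpV G idn zr (G.Lm (tS s) d W) (uv G β γ) (wv G β γ) x z +
      GpV G s d (G.Lm (tS s) d W) (uv G β γ) (wv G β γ) x z := by
    rw [← GpV_add_s, zr_add]; rfl
  have e2 : GpV G d (tS s) (G.Lp (tS s) d W) (uv G β γ) (wv G β γ) x z =
      GpV G zr idn (G.Lp (tS s) d W) (uv G β γ) (wv G β γ) x z +
      GpV G d s (G.Lp (tS s) d W) (uv G β γ) (wv G β γ) x z := by
    rw [← GpV_add_s, zr_add]; rfl
  rw [e1, e2]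
  ring

omit hm in
/-- **The zero order form.** -/
theorem zo_O {b c : α → E → ℝ} (nb : G.Nn b) (nc : G.Nn c) (hb : G.O b β) (hc : G.O c γ) :
    G.O (fun x z => δ x z * (e x z ^ 2 * (b x z ^ 2 + r x z * (b x z * c x z) +
        r x z * t x z * c x z ^ 2)) + e x z * (b x z ^ 2 + c x z ^ 2))
      (fun x z => zo G s d W (β x z) (γ x z) x z - zo G zr zr W₀ (β x z) (γ x z) x z) := by
  have nr : G.Nn r := fun x z h => (H.sz.r0 x z h).le
  have ne : G.Nn e := fun x z h => (H.sz.e0 x z h).le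
  have nt : G.Nn t := fun x z h => (nr x z h).trans (H.sz.rt x z h)
  have nd : G.Nn δ := H.sz.d0
  have nbb : G.Nn fun x z => b x z * b x z := fun x z h => mul_nonneg (nb x z h) (nb x z h)
  have nbc : G.Nn fun x z => b x z * c x z := fun x z h => mul_nonneg (nb x z h) (nc x z h)
  have ncc : G.Nn fun x z => c x z * c x z := fun x z h => mul_nonneg (nc x z h) (nc x z h)
  set g : α → E → ℝ := fun x z => δ x z * (e x z ^ 2 * (b x z ^ 2 + r x z * (b x z * c x z) +
        r x z * t x z * c x z ^ 2)) + e x z * (b x z ^ 2 + c x z ^ 2) with hg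
  have num : ∀ x, ∀ z ∈ G.Z x, 0 ≤ δ x z ∧ 0 ≤ e x z ∧ 0 ≤ r x z ∧ 0 ≤ t x z ∧ 0 ≤ b x z ∧
      0 ≤ c x z := fun x z h => ⟨nd x z h, ne x z h, nr x z h, nt x z h, nb x z h, nc x z h⟩
  have m : ∀ {q f v g' : α → E → ℝ}, G.Nn q → G.O q f → G.Nn v → G.O v g' →
      (∀ x, ∀ z ∈ G.Z x, v x z * q x z ≤ 1 * g x z) → G.O g fun x z => g' x z * f x z :=
    fun nq hf nv hv hh => (hv.mul nv hf).mono (fun x z h => mul_nonneg (nv x z h) (nq x z h)) hh
  have oBB := hb.mul nb hb
  have oBC := hb.mul nb hc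
  have oCC := hc.mul nc hc
  have q1 := m (mn_nn H.sz 1 2 0 0) H.LpFp nbb oBB (fun x z h => by
    obtain ⟨h1, h2, h3, h4, h5, h6⟩ := num x z h
    have k1 : 0 ≤ δ x z * (e x z ^ 2 * (r x z * (b x z * c x z) + r x z * t x z * c x z ^ 2)) +
      e x z * (b x z ^ 2 + c x z ^ 2) := by positivity
    simp only [hg, mn_val, pow_one, pow_zero, mul_one]
    nlinarith)
  have q2 := m (mn_nn H.sz 1 2 1 0) H.LpFm nbc oBC (fun x z h => by
    obtain ⟨h1, h2, h3, h4, h5, h6⟩ := num x z h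
    have k1 : 0 ≤ δ x z * (e x z ^ 2 * (b x z ^ 2 + r x z * t x z * c x z ^ 2)) +
      e x z * (b x z ^ 2 + c x z ^ 2) := by positivity
    simp only [hg, mn_val, pow_one, pow_zero, mul_one]
    nlinarith)
  have q3 := m (mn_nn H.sz 1 2 1 0) H.LmFp nbc oBC (fun x z h => by
    obtain ⟨h1, h2, h3, h4, h5, h6⟩ := num x z h
    have k1 : 0 ≤ δ x z * (e x z ^ 2 * (b x z ^ 2 + r x z * t x z * c x z ^ 2)) +
      e x z * (b x z ^ 2 + c x z ^ 2) := by positivity
    simp only [hg, mn_val, pow_one, pow_zero, mul_one]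
    nlinarith)
  have q4 := m (mn_nn H.sz 1 2 1 1) H.LmFm ncc oCC (fun x z h => by
    obtain ⟨h1, h2, h3, h4, h5, h6⟩ := num x z h
    have k1 : 0 ≤ δ x z * (e x z ^ 2 * (b x z ^ 2 + r x z * (b x z * c x z))) +
      e x z * (b x z ^ 2 + c x z ^ 2) := by positivity
    simp only [hg, mn_val, pow_one, pow_zero, mul_one]
    nlinarith)
  have low : ∀ {v : α → E → ℝ}, (∀ x, ∀ z ∈ G.Z x, v x z * 1 ≤ b x z ^ 2 + c x z ^ 2) →
      ∀ x, ∀ z ∈ G.Z x, v x z * mn e r t δ 0 1 0 0 x z ≤ 1 * g x z := by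
    intro v hv x z h
    obtain ⟨h1, h2, h3, h4, h5, h6⟩ := num x z h
    have k1 : 0 ≤ δ x z * (e x z ^ 2 * (b x z ^ 2 + r x z * (b x z * c x z) +
        r x z * t x z * c x z ^ 2)) := by positivity
    have k2 := mul_le_mul_of_nonneg_right (hv x z h) h2
    simp only [hg, mn_val, pow_one, pow_zero, mul_one, one_mul] at k2 ⊢
    linarith [mul_comm (e x z) (b x z ^ 2 + c x z ^ 2)]
  have lb := low (v := fun x z => b x z * b x z) fun x z h => by nlinarith [sq_nonneg (c x z)]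
  have lbc := low (v := fun x z => b x z * c x z) fun x z h => by
    nlinarith [sq_nonneg (b x z - c x z), sq_nonneg (b x z + c x z)]
  have lc := low (v := fun x z => c x z * c x z) fun x z h => by nlinarith [sq_nonneg (b x z)]
  obtain ⟨L1, L2, L3, L4⟩ := H.LL
  obtain ⟨M1, M2, M3, M4⟩ := H₀.LL
  have w0 := mn_nn H.sz 0 1 0 0
  have r1 := m w0 L1 nbb oBB lb
  have r2 := m w0 L2 nbc oBC lbc
  have r3 := m w0 L3 nbc oBC lbc
  have r4 := m w0 L4 ncc oCC lc
  have t1 := m w0 M1 nbb oBB lb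
  have t2 := m w0 M2 nbc oBC lbc
  have t3 := m w0 M3 nbc oBC lbc
  have t4 := m w0 M4 ncc oCC lc
  have ng : G.Nn g := fun x z h => by
    obtain ⟨h1, h2, h3, h4, h5, h6⟩ := num x z h
    simp only [hg]; positivity
  have A1 := ((q1.add q2).add (q3.add q4)).cmul ng (-4)
  have A2 := (((r1.add r2).add (r3.add r4)).sub ((t1.add t2).add (t3.add t4)) ng).cmul ng (-2)
  refine (A1.add A2).congr fun x z hz => ?_
  have e0 : ∀ (f : α → E → ℝ), G.Lp (tS zr) zr f = G.Lp idn zr f := fun f => by rw [tS_zr]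
  have e0' : ∀ (f : α → E → ℝ), G.Lm (tS zr) zr f = G.Lm idn zr f := fun f => by rw [tS_zr]
  have f0 : Fp G zr zr W₀ = Fp0 G W₀ := by unfold Fp Fp0; rw [tS_zr]
  have f1 : Fm G zr zr W₀ = Fm0 G W₀ := by unfold Fm Fm0; rw [tS_zr]
  rw [zo_eq h H.sW x hz, zo_eq hs_zr H.sW₀ x hz, f0, f1]
  simp only [e0, e0']
  ring

end size

end Vale.Agent.P088.R2.H464.B
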