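import Vale.Agent.P088.R2.H464.B.Fd
import Mathlib.Analysis.Calculus.MeanValue
import Mathlib.Analysis.SpecialFunctions.ExpDeriv

/-!
# P088: composition in the graded classes
-/

open Set Filter
open scoped ContDiff Topology

noncomputable section

set_option linter.unusedSectionVars false

namespace Vale.Agent.P088.R2.H464.B

variable {α ι E : Type*} [NormedAddCommGroup E] [NormedSpace ℝ E] [Fintype ι]
  {G : Ge α ι E} {e r t δ : α → E → ℝ} {u v f g : α → E → ℝ}

/-- A chain of derivatives. -/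
structure Cn (F : ℕ → α → ℝ → ℝ) : Prop where
  sm : ∀ k x, ContDiff ℝ ∞ (F k x)
  dv : ∀ k x s, HasDerivAt (F k x) (F (k + 1) x s) s

theorem Cn.sh {F : ℕ → α → ℝ → ℝ} (h : Cn F) : Cn fun k => F (k + 1) :=
  ⟨fun k => h.sm (k + 1), fun k => h.dv (k + 1)⟩

theorem Cn.smc {F : ℕ → α → ℝ → ℝ} (h : Cn F) (su : G.Sm u) (k : ℕ) :
    G.Sm fun x z => F k x (u x z) := fun x => (h.sm k x).comp_contDiffOn (su x)

theorem Cn.fd {F : ℕ → α → ℝ → ℝ} (h : Cn F) (su : G.Sm u) (k : ℕ) (x : α) {z : E}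
    (hz : z ∈ G.Z x) (w : E) : fderiv ℝ (fun z => F k x (u x z)) z w =
      F (k + 1) x (u x z) * fderiv ℝ (u x) z w := by
  have h1 := (h.dv k x (u x z)).comp_hasFDerivAt z (su.at x hz).hasFDerivAt
  have h2 : HasFDerivAt (fun z => F k x (u x z)) (F (k + 1) x (u x z) • fderiv ℝ (u x) z) z := h1
  rw [h2.fderiv]
  simp

/-- Products of a class with constant profile. -/
theorem Ge.Gc.mulc {K : ℕ} {p : ℕ → α → E → ℝ} (hf : G.Gc K (fun _ => g) f) {f' : α → E → ℝ}
    (hf' : G.Gc K p f') (n0 : G.Nn g) (n1 : ∀ j ≤ K, G.Nn (p j)) (sf : G.Sm f) (sf' : G.Sm f')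
    (hp : ∀ i j, i ≤ j → j ≤ K → ∀ x, ∀ z ∈ G.Z x, p i x z ≤ p j x z) :
    G.Gc K (fun j x z => g x z * p j x z) fun x z => f x z * f' x z := by
  refine (hf.mul hf' (fun _ _ => n0) n1 sf sf').mono (cv_nn (fun _ _ => n0) n1)
    fun j hj => ⟨(j : ℝ) + 1, fun x z hz => ?_⟩
  unfold cv
  have h1 : ∀ i ∈ Finset.range (j + 1), g x z * p (j - i) x z ≤ g x z * p j x z := fun i _ =>
    mul_le_mul_of_nonneg_left (hp (j - i) j (Nat.sub_le _ _) hj x z hz) (n0 x z hz)
  refine (Finset.sum_le_sum h1).trans (le_of_eq ?_)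
  rw [Finset.sum_const, Finset.card_range, nsmul_eq_mul]
  push_cast
  ring

/-- **Composition.** -/
theorem comp1 : ∀ {K : ℕ} {F : ℕ → α → ℝ → ℝ}, Cn F → G.Sm u →
    (∀ i, G.Gc K (fun _ _ _ => 1) (G.da i u)) → (∀ i, G.Gc K (fun _ _ _ => 1) (G.db i u)) →
    G.Nn g → (∀ k ≤ K, G.O g fun x z => F k x (u x z)) →
    G.Gc K (fun _ => g) fun x z => F 0 x (u x z) := by
  intro K
  induction K with
  | zero => intro F _ _ _ _ _ hF; exact hF 0 le_rfl
  | succ K ih =>
    intro F hF su ha hb ng hO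
    have h1 := ih hF.sh su (fun i => (ha i).mono_K) (fun i => (hb i).mono_K) ng
      fun k hk => hO (k + 1) (Nat.succ_le_succ hk)
    have n1 : ∀ j ≤ K, G.Nn fun _ _ => (1 : ℝ) := fun _ _ _ _ _ => zero_le_one
    refine ⟨hO 0 (Nat.zero_le _), fun i => ?_, fun i => ?_⟩
    · have h2 := h1.mulc (ha i).mono_K ng n1 (hF.sh.smc su 0) (su.da i) fun _ _ _ _ _ _ _ => le_rfl
      simp only [mul_one] at h2
      exact h2.congr fun x z hz => hF.fd su 0 x hz _
    · have h2 := h1.mulc (hb i).mono_K ng n1 (hF.sh.smc su 0) (su.db i) fun _ _ _ _ _ _ _ => le_rfl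
      simp only [mul_one] at h2
      exact h2.congr fun x z hz => hF.fd su 0 x hz _

/-- The exponential chain. -/
theorem cn_exp : Cn (α := α) fun _ _ => Real.exp :=
  ⟨fun _ _ => Real.contDiff_exp, fun _ _ s => Real.hasDerivAt_exp s⟩

/-- **Composition of a function with `F(0) = 0`** (or any zero order bound), the profile of the
argument. -/
theorem comp2 {K : ℕ} {F : ℕ → α → ℝ → ℝ} {p : ℕ → α → E → ℝ} (hF : Cn F) (su : G.Sm u)
    (hu : G.Gc (K + 1) p u) (np : ∀ j ≤ K + 1, G.Nn (p j))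
    (mp : ∀ i j, i ≤ j → j ≤ K + 1 → ∀ x, ∀ z ∈ G.Z x, p i x z ≤ p j x z)
    (hp : ∃ A, ∀ x, ∀ z ∈ G.Z x, p (K + 1) x z ≤ A)
    (h0 : G.O (p 0) fun x z => F 0 x (u x z))
    (hO : ∀ k ≤ K, G.O (fun _ _ => 1) fun x z => F (k + 1) x (u x z)) :
    G.Gc (K + 1) p fun x z => F 0 x (u x z) := by
  obtain ⟨A, hA⟩ := hp
  have n1 : G.Nn fun _ _ => (1 : ℝ) := fun _ _ _ => zero_le_one
  have ha : ∀ i, G.Gc K (fun _ _ _ => 1) (G.da i u) := fun i =>
    (hu.2.1 i).mono (fun j hj => np (j + 1) (Nat.succ_le_succ hj)) fun j hj =>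
      ⟨A, fun x z hz => by
        rw [mul_one]
        exact (mp (j + 1) (K + 1) (Nat.succ_le_succ hj) le_rfl x z hz).trans (hA x z hz)⟩
  have hb : ∀ i, G.Gc K (fun _ _ _ => 1) (G.db i u) := fun i =>
    (hu.2.2 i).mono (fun j hj => np j (hj.trans (Nat.le_succ K))) fun j hj =>
      ⟨A, fun x z hz => by
        rw [mul_one]
        exact (mp j (K + 1) (hj.trans (Nat.le_succ K)) le_rfl x z hz).trans (hA x z hz)⟩
  have h1 : G.Gc K (fun _ _ _ => 1) fun x z => F 1 x (u x z) := comp1 hF.sh su ha hb n1 hO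
  refine ⟨h0, fun i => ?_, fun i => ?_⟩
  · have h2 := h1.mulc (hu.2.1 i) n1 (fun j hj => np (j + 1) (Nat.succ_le_succ hj))
      (hF.smc su 1) (su.da i) fun i j hij hj =>
        mp (i + 1) (j + 1) (Nat.succ_le_succ hij) (Nat.succ_le_succ hj)
    simp only [one_mul] at h2
    exact h2.congr fun x z hz => hF.fd su 0 x hz _
  · have h2 := h1.mulc (hu.2.2 i) n1 (fun j hj => np j (hj.trans (Nat.le_succ K)))
      (hF.smc su 1) (su.db i) fun i j hij hj => mp i j hij (hj.trans (Nat.le_succ K))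
    simp only [one_mul] at h2
    exact h2.congr fun x z hz => hF.fd su 0 x hz _

/-- **Increments**: `F(λ + v) - F(λ)` has the profile of `v`, times the size of `F'`. -/
theorem comp3 : ∀ {K : ℕ} {F : ℕ → α → ℝ → ℝ} {p : ℕ → α → E → ℝ}, Cn F → G.Sm u → G.Sm v →
    (∀ i, G.Gc K (fun _ _ _ => 1) (G.da i u)) → (∀ i, G.Gc K (fun _ _ _ => 1) (G.db i u)) →
    G.Gc K p v → (∀ j ≤ K, G.Nn (p j)) →
    (∀ i j, i ≤ j → j ≤ K → ∀ x, ∀ z ∈ G.Z x, p i x z ≤ p j x z) →
    (∃ A, ∀ x, ∀ z ∈ G.Z x, p K x z ≤ A) → G.Nn g →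
    (∀ k ≤ K, ∃ C, ∀ x, ∀ z ∈ G.Z x, ∀ s ∈ Icc (0 : ℝ) 1,
      |F (k + 1) x (u x z + s * v x z)| ≤ C * g x z) →
    G.Gc K (fun j x z => g x z * p j x z) fun x z => F 0 x (u x z + v x z) - F 0 x (u x z) := by
  intro K
  induction K with
  | zero =>
    intro F p hF su sv ha hb hv np mp hA ng hO
    obtain ⟨C, hC⟩ := hO 0 le_rfl
    obtain ⟨C', hC0', hC'⟩ := Ge.O.nn hv (np 0 le_rfl)
    refine ⟨|C| * C', fun x z hz => ?_⟩
    have h1 : ∀ s ∈ Icc (0 : ℝ) 1, HasDerivWithinAt (fun s => F 0 x (u x z + s * v x z))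
        (F 1 x (u x z + s * v x z) * v x z) (Icc (0 : ℝ) 1) s := fun s _ => by
      have h2 : HasDerivAt (fun s : ℝ => u x z + s * v x z) (v x z) s := by
        have := ((hasDerivAt_id s).mul_const (v x z)).const_add (u x z)
        simpa using this
      exact ((hF.dv 0 x _).comp s h2).hasDerivWithinAt
    have h3 := (convex_Icc (0 : ℝ) 1).norm_image_sub_le_of_norm_hasDerivWithin_le h1
      (C := |C| * g x z * |v x z|) (fun s hs => by
        rw [Real.norm_eq_abs, abs_mul]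
        refine mul_le_mul_of_nonneg_right ((hC x z hz s hs).trans ?_) (abs_nonneg _)
        exact mul_le_mul_of_nonneg_right (le_abs_self C) (ng x z hz))
      (left_mem_Icc.2 zero_le_one) (right_mem_Icc.2 zero_le_one)
    simp only [one_mul, zero_mul, add_zero, sub_zero, norm_one, mul_one, Real.norm_eq_abs] at h3
    refine h3.trans ?_
    calc |C| * g x z * |v x z| ≤ |C| * g x z * (C' * p 0 x z) :=
          mul_le_mul_of_nonneg_left (hC' x z hz) (mul_nonneg (abs_nonneg C) (ng x z hz))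
      _ = |C| * C' * (g x z * p 0 x z) := by ring
  | succ K ih =>
    intro F p hF su sv ha hb hv np mp hA ng hO
    obtain ⟨A, hA⟩ := hA
    have hO' : ∀ k ≤ K, ∃ C, ∀ x, ∀ z ∈ G.Z x, ∀ s ∈ Icc (0 : ℝ) 1,
      |F (k + 1) x (u x z + s * v x z)| ≤ C * g x z := fun k hk => hO k (hk.trans (Nat.le_succ K))
    have np' : ∀ j ≤ K, G.Nn (p j) := fun j hj => np j (hj.trans (Nat.le_succ K))
    have mp' : ∀ i j, i ≤ j → j ≤ K → ∀ x, ∀ z ∈ G.Z x, p i x z ≤ p j x z := fun i j hij hj =>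
      mp i j hij (hj.trans (Nat.le_succ K))
    have hA' : ∃ A, ∀ x, ∀ z ∈ G.Z x, p K x z ≤ A :=
      ⟨A, fun x z hz => (mp K (K + 1) (Nat.le_succ K) le_rfl x z hz).trans (hA x z hz)⟩
    have ngp : ∀ j ≤ K + 1, G.Nn fun x z => g x z * p j x z := fun j hj x z hz =>
      mul_nonneg (ng x z hz) (np j hj x z hz)
    -- order zero
    have z0 := ((ih (F := F) hF su sv (fun i => (ha i).mono_K) (fun i => (hb i).mono_K)
      hv.mono_K np' mp' hA' ng hO').zero_of)
    -- increments of `F'`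
    have d1 := ih (F := fun k => F (k + 1)) hF.sh su sv (fun i => (ha i).mono_K)
      (fun i => (hb i).mono_K) hv.mono_K np' mp' hA' ng fun k hk => hO (k + 1) (Nat.succ_le_succ hk)
    -- `F'(λ + v)`
    have suv : G.Sm fun x z => u x z + v x z := su.add sv
    have hva : ∀ i, G.Gc K (fun _ _ _ => 1) (G.da i v) := fun i =>
      (hv.2.1 i).mono (fun j hj => np (j + 1) (Nat.succ_le_succ hj)) fun j hj =>
        ⟨A, fun x z hz => by
          rw [mul_one]
          exact (mp (j + 1) (K + 1) (Nat.succ_le_succ hj) le_rfl x z hz).trans (hA x z hz)⟩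
    have hvb : ∀ i, G.Gc K (fun _ _ _ => 1) (G.db i v) := fun i =>
      (hv.2.2 i).mono (fun j hj => np j (hj.trans (Nat.le_succ K))) fun j hj =>
        ⟨A, fun x z hz => by
          rw [mul_one]
          exact (mp j (K + 1) (hj.trans (Nat.le_succ K)) le_rfl x z hz).trans (hA x z hz)⟩
    have hsa : ∀ i, G.Gc K (fun _ _ _ => 1) (G.da i fun x z => u x z + v x z) := fun i =>
      ((ha i).mono_K.add (hva i) (su.da i) (sv.da i)).congr fun x z hz => by
        show fderiv ℝ (fun z => u x z + v x z) z _ = _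
        rw [fderiv_fun_add (su.at x hz) (sv.at x hz)]; rfl
    have hsb : ∀ i, G.Gc K (fun _ _ _ => 1) (G.db i fun x z => u x z + v x z) := fun i =>
      ((hb i).mono_K.add (hvb i) (su.db i) (sv.db i)).congr fun x z hz => by
        show fderiv ℝ (fun z => u x z + v x z) z _ = _
        rw [fderiv_fun_add (su.at x hz) (sv.at x hz)]; rfl
    have f1 : G.Gc K (fun _ => g) fun x z => F 1 x (u x z + v x z) :=
      comp1 hF.sh suv hsa hsb ng fun k hk => by
        obtain ⟨C, hC⟩ := hO k (hk.trans (Nat.le_succ K))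
        refine ⟨C, fun x z hz => ?_⟩
        have := hC x z hz 1 (right_mem_Icc.2 zero_le_one)
        rwa [one_mul] at this
    have sF1 : G.Sm fun x z => F 1 x (u x z + v x z) := hF.smc suv 1
    have sF1' : G.Sm fun x z => F 1 x (u x z) := hF.smc su 1
    have n1 : ∀ j ≤ K, G.Nn fun _ _ => (1 : ℝ) := fun _ _ _ _ _ => zero_le_one
    -- a derivative
    have key : ∀ (U V : α → E → ℝ) (P : ℕ → α → E → ℝ), G.Gc K (fun _ _ _ => 1) U →
        G.Gc K P V → (∀ j ≤ K, G.Nn (P j)) →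
        (∀ i j, i ≤ j → j ≤ K → ∀ x, ∀ z ∈ G.Z x, P i x z ≤ P j x z) →
        (∀ j ≤ K, ∀ x, ∀ z ∈ G.Z x, p j x z ≤ P j x z) → G.Sm U → G.Sm V →
        G.Gc K (fun j x z => g x z * P j x z) (fun x z =>
          (F 1 x (u x z + v x z) - F 1 x (u x z)) * U x z + F 1 x (u x z + v x z) * V x z) := by
      intro U V P hU hV nP mP pP sU sV
      have k1 := f1.mulc hV ng nP sF1 sV mP
      have k2 : G.Gc K (fun j x z => g x z * P j x z)
          (fun x z => (F 1 x (u x z + v x z) - F 1 x (u x z)) * U x z) := by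
        refine (d1.mul hU (fun j hj => ngp j (hj.trans (Nat.le_succ K))) n1 (sF1.sub sF1')
          sU).mono (cv_nn (fun j hj => ngp j (hj.trans (Nat.le_succ K))) n1)
          fun j hj => ⟨(j : ℝ) + 1, fun x z hz => ?_⟩
        unfold cv
        have h1 : ∀ i ∈ Finset.range (j + 1), g x z * p i x z * 1 ≤ g x z * P j x z := by
          intro i hi
          rw [mul_one]
          refine mul_le_mul_of_nonneg_left ?_ (ng x z hz)
          have hij := Finset.mem_range_succ_iff.1 hi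
          exact (pP i (hij.trans hj) x z hz).trans (mP i j hij hj x z hz)
        refine (Finset.sum_le_sum h1).trans (le_of_eq ?_)
        rw [Finset.sum_const, Finset.card_range, nsmul_eq_mul]
        push_cast
        ring
      exact k2.add k1 ((sF1.sub sF1').mul sU) (sF1.mul sV)
    refine ⟨z0, fun i => ?_, fun i => ?_⟩
    · refine (key (G.da i u) (G.da i v) (fun j => p (j + 1)) (ha i).mono_K (hv.2.1 i)
        (fun j hj => np (j + 1) (Nat.succ_le_succ hj)) (fun i j hij hj =>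
          mp (i + 1) (j + 1) (Nat.succ_le_succ hij) (Nat.succ_le_succ hj))
        (fun j hj => mp j (j + 1) (Nat.le_succ j) (Nat.succ_le_succ hj)) (su.da i)
        (sv.da i)).congr fun x z hz => ?_
      show fderiv ℝ (fun z => F 0 x (u x z + v x z) - F 0 x (u x z)) z _ = _
      rw [fderiv_fun_sub ((hF.smc suv 0).at x hz) ((hF.smc su 0).at x hz), _root_.sub_apply,
        hF.fd suv 0 x hz, hF.fd su 0 x hz, fderiv_fun_add (su.at x hz) (sv.at x hz),
        _root_.add_apply]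
      simp only [Ge.da]
      ring
    · refine (key (G.db i u) (G.db i v) p (hb i).mono_K (hv.2.2 i) np' mp'
        (fun j hj x z hz => le_rfl) (su.db i) (sv.db i)).congr fun x z hz => ?_
      show fderiv ℝ (fun z => F 0 x (u x z + v x z) - F 0 x (u x z)) z _ = _
      rw [fderiv_fun_sub ((hF.smc suv 0).at x hz) ((hF.smc su 0).at x hz), _root_.sub_apply,
        hF.fd suv 0 x hz, hF.fd su 0 x hz, fderiv_fun_add (su.at x hz) (sv.at x hz),
        _root_.add_apply]
      simp only [Ge.db]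
      ring

end Vale.Agent.P088.R2.H464.B
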