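import Mathlib.Tactic.Positivity
import Mathlib.Tactic.Linarith
import Mathlib.Tactic.Ring
import Mathlib.Tactic.FieldSimp
import Mathlib.Analysis.SpecialFunctions.Pow.Real

/-!
# P088: the numerical inequality of the frozen coefficients
-/

namespace Vale.Agent.P088.R2.H464.B

theorem sq5 (a b c d f : ℝ) : (a + b + c + d + f) ^ 2 ≤ 5 * (c ^ 2 + a ^ 2 + d ^ 2 + b ^ 2 + f ^ 2) := by
  linarith [sq_nonneg (a - b), sq_nonneg (a - c), sq_nonneg (a - d), sq_nonneg (a - f),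
      sq_nonneg (b - c), sq_nonneg (b - d), sq_nonneg (b - f), sq_nonneg (c - d),
      sq_nonneg (c - f), sq_nonneg (d - f)]

theorem cr5 {a b c d f : ℝ} (a0 : 0 ≤ a) (b0 : 0 ≤ b) (c0 : 0 ≤ c) (d0 : 0 ≤ d) (f0 : 0 ≤ f) :
    c * (f + b) + d * a ≤ (a + b + c + d + f) ^ 2 := by
  linarith [sq_nonneg a, sq_nonneg b, sq_nonneg c, sq_nonneg d, sq_nonneg f, mul_nonneg a0 b0,
    mul_nonneg a0 c0, mul_nonneg a0 d0, mul_nonneg a0 f0, mul_nonneg b0 c0, mul_nonneg b0 d0,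
    mul_nonneg b0 f0, mul_nonneg c0 d0, mul_nonneg c0 f0, mul_nonneg d0 f0]

section

variable {e r t δ κ η μ ν b c B C₁ C₂ b' c' B' C' y p S Q : ℝ}

/-- The sizes of the arguments. -/
theorem num_yp (e0 : 0 < e) (r0 : 0 < r) (rt : r ≤ t)
    (t1 : t ≤ 1) (d0 : 0 ≤ δ) (d1 : δ ≤ 1)
    (b0 : 0 ≤ b) (c0 : 0 ≤ c) (B0 : 0 ≤ B') (C0 : 0 ≤ C') (C10 : 0 ≤ C₁) (hb : b' = e * b)
    (hc : c' = e * t * c) (hB : B = r * B') (hC : C₂ = r * C') :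
    (0 ≤ B + C₂ + δ * e * r * (b + r * c) ∧ 0 ≤ C₁ + B + δ * e * r * (c + r * b)) ∧
    B + C₂ + δ * e * r * (b + r * c) ≤ r * (B' + C' + b' + c' + C₁) ∧
    C₁ + B + δ * e * r * (c + r * b) ≤ B' + C' + b' + c' + C₁ := by
  have t0 : 0 < t := r0.trans_le rt
  have r1 : r ≤ 1 := rt.trans t1
  have b'0 : 0 ≤ b' := by rw [hb]; positivity
  have c'0 : 0 ≤ c' := by rw [hc]; positivity
  have erc : e * r * c ≤ c' := by
    rw [hc]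
    exact mul_le_mul_of_nonneg_right (mul_le_mul_of_nonneg_left rt e0.le) c0
  have erc0 : 0 ≤ e * r * c := by positivity
  refine ⟨⟨by rw [hB, hC]; positivity, by rw [hB]; positivity⟩, ?_, ?_⟩
  · have h4 : δ * (r * (b' + e * r * c)) ≤ 1 * (r * (b' + c')) := by
      refine mul_le_mul d1 (mul_le_mul_of_nonneg_left (by linarith) r0.le) (by positivity) zero_le_one
    have h5 : δ * e * r * (b + r * c) = δ * (r * (b' + e * r * c)) := by rw [hb]; ring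
    have h6 := mul_nonneg r0.le C10
    rw [h5, hB, hC]
    linarith
  · have h4 : δ * (e * r * c + r ^ 2 * b') ≤ 1 * (c' + b') := by
      refine mul_le_mul d1 (add_le_add erc ?_) (by positivity) zero_le_one
      exact mul_le_of_le_one_left b'0 (pow_le_one₀ r0.le r1)
    have h5 : δ * e * r * (c + r * b) = δ * (e * r * c + r ^ 2 * b') := by rw [hb]; ring
    have h6 : r * B' ≤ B' := mul_le_of_le_one_left B0 r1
    rw [h5, hB]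
    linarith

/-- The Hessian terms. -/
theorem num_th (e0 : 0 < e) (r0 : 0 < r) (t0 : 0 ≤ t) (d0 : 0 ≤ δ) (k0 : 0 ≤ κ) (kd : κ ≤ δ)
    (hμ : μ = e * r ^ 2) (μ0 : 0 ≤ μ) (hν : ν = e * r * t) (h1 : δ * μ ≤ η) (h2 : κ * ν ≤ η)
    (y0 : 0 ≤ y) (p0 : 0 ≤ p) (S0 : 0 ≤ S) (yS : y ≤ r * S) (pS : p ≤ S) :
    κ * (e * (y + r * p) ^ 2 + e * r * t * p ^ 2) ≤ 5 * (η * S ^ 2) ∧
    δ * (e * (y + r * p) ^ 2) ≤ 4 * (η * S ^ 2) := by
  have q1 : e * (y + r * p) ^ 2 ≤ 4 * (μ * S ^ 2) := by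
    have h4 : y + r * p ≤ 2 * (r * S) := by
      have := mul_le_mul_of_nonneg_left pS r0.le
      linarith
    have h5 : (y + r * p) ^ 2 ≤ (2 * (r * S)) ^ 2 := pow_le_pow_left₀ (by positivity) h4 2
    have h6 := mul_le_mul_of_nonneg_left h5 e0.le
    refine h6.trans (le_of_eq ?_)
    rw [hμ]
    ring
  have q2 : e * r * t * p ^ 2 ≤ ν * S ^ 2 := by
    rw [hν]
    exact mul_le_mul_of_nonneg_right (le_refl _) (sq_nonneg _) |>.trans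
      (mul_le_mul_of_nonneg_left (pow_le_pow_left₀ p0 pS 2) (by positivity))
  have h4 : κ * μ ≤ η := (mul_le_mul_of_nonneg_right kd μ0).trans h1
  have h5 := mul_le_mul_of_nonneg_left q1 k0
  have h6 := mul_le_mul_of_nonneg_left q2 k0
  have h7 := mul_le_mul_of_nonneg_right h4 (sq_nonneg S)
  have h8 := mul_le_mul_of_nonneg_right h2 (sq_nonneg S)
  have h9 := mul_le_mul_of_nonneg_left q1 d0
  have h10 := mul_le_mul_of_nonneg_right h1 (sq_nonneg S)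
  have e1 : κ * (4 * (μ * S ^ 2)) = 4 * (κ * μ * S ^ 2) := by ring
  have e2 : κ * (ν * S ^ 2) = κ * ν * S ^ 2 := by ring
  have e3 : δ * (4 * (μ * S ^ 2)) = 4 * (δ * μ * S ^ 2) := by ring
  rw [e1] at h5
  rw [e2] at h6
  rw [e3] at h9
  refine ⟨?_, by linarith⟩
  rw [mul_add]
  linarith

theorem num_b (d0 : 0 ≤ δ) (hμ : μ = e * r ^ 2) (μ0 : 0 ≤ μ) (h1 : δ * μ ≤ η) (η0 : 0 ≤ η)
    (hb : b' = e * b) (hc : c' = e * t * c) (hQ : b' ^ 2 + c' ^ 2 ≤ Q) :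
    δ * (e ^ 3 * r ^ 2 * (b ^ 2 + t ^ 2 * c ^ 2)) ≤ η * Q := by
  have h8 : δ * (e ^ 3 * r ^ 2 * (b ^ 2 + t ^ 2 * c ^ 2)) = δ * μ * (b' ^ 2 + c' ^ 2) := by
    rw [hμ, hb, hc]; ring
  rw [h8]
  exact mul_le_mul h1 hQ (by positivity) η0

theorem num_sk (e0 : 0 < e) (r0 : 0 < r) (rt : r ≤ t) (t1 : t ≤ 1) (d0 : 0 ≤ δ) (dη : δ ≤ η)
    (b'0 : 0 ≤ b') (c'0 : 0 ≤ c') (c0 : 0 ≤ c) (B0 : 0 ≤ B') (C0 : 0 ≤ C') (C10 : 0 ≤ C₁)
    (hb : b' = e * b) (hc : c' = e * t * c) (hB : B = r * B') (hC : C₂ = r * C') :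
    δ * (e * (b * (C₁ + C₂) + c * B)) ≤ η * (B' + C' + b' + c' + C₁) ^ 2 := by
  have r1 : r ≤ 1 := rt.trans t1
  have erc : e * r * c ≤ c' := by
    rw [hc]
    exact mul_le_mul_of_nonneg_right (mul_le_mul_of_nonneg_left rt e0.le) c0
  have erc0 : 0 ≤ e * r * c := by positivity
  have h4 : e * (b * (C₁ + C₂) + c * B) = b' * (C₁ + r * C') + e * r * c * B' := by
    rw [hb, hC, hB]; ring
  have h5 : b' * (C₁ + r * C') ≤ b' * (C₁ + C') :=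
    mul_le_mul_of_nonneg_left (by have := mul_le_of_le_one_left C0 r1; linarith) b'0
  have h6 : e * r * c * B' ≤ c' * B' := mul_le_mul_of_nonneg_right erc B0
  have h7 := cr5 B0 C0 b'0 c'0 C10
  have h8 : 0 ≤ b' * (C₁ + r * C') + e * r * c * B' := by positivity
  rw [h4]
  exact mul_le_mul dη (by linarith) h8 (d0.trans dη)

theorem num_z1 (e0 : 0 < e) (r0 : 0 < r) (rt : r ≤ t) (d0 : 0 ≤ δ) (dη : δ ≤ η)
    (b'0 : 0 ≤ b') (c'0 : 0 ≤ c') (c0 : 0 ≤ c)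
    (hb : b' = e * b) (hc : c' = e * t * c) (hQ : b' ^ 2 + c' ^ 2 ≤ Q) :
    δ * (e ^ 2 * (b ^ 2 + r * (b * c) + r * t * c ^ 2)) ≤ η * (2 * Q) := by
  have erc : e * r * c ≤ c' := by
    rw [hc]
    exact mul_le_mul_of_nonneg_right (mul_le_mul_of_nonneg_left rt e0.le) c0
  have erc0 : 0 ≤ e * r * c := by positivity
  have h4 : e ^ 2 * (b ^ 2 + r * (b * c) + r * t * c ^ 2) =
      b' ^ 2 + b' * (e * r * c) + e * r * c * c' := by rw [hb, hc]; ring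
  have h5 : b' * (e * r * c) ≤ b' * c' := mul_le_mul_of_nonneg_left erc b'0
  have h6 : e * r * c * c' ≤ c' * c' := mul_le_mul_of_nonneg_right erc c'0
  have h8 : 0 ≤ b' ^ 2 + b' * (e * r * c) + e * r * c * c' := by positivity
  rw [h4]
  refine mul_le_mul dη ?_ h8 (d0.trans dη)
  linarith [sq_nonneg (b' - c'), sq_nonneg b', sq_nonneg c']

theorem num_z2 (e0 : 0 < e) (r0 : 0 < r) (rt : r ≤ t) (t1 : t ≤ 1) (hν : ν = e * r * t)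
    (h3 : 1 ≤ η * ν) (η0 : 0 ≤ η) (c0 : 0 ≤ c) (c'0 : 0 ≤ c')
    (hb : b' = e * b) (hc : c' = e * t * c) (hQ : b' ^ 2 + c' ^ 2 ≤ Q) :
    e * (b ^ 2 + c ^ 2) ≤ η * Q := by
  have t0 : 0 < t := r0.trans_le rt
  have r1 : r ≤ 1 := rt.trans t1
  have erc : e * r * c ≤ c' := by
    rw [hc]
    exact mul_le_mul_of_nonneg_right (mul_le_mul_of_nonneg_left rt e0.le) c0
  have hνe : ν ≤ e := by
    rw [hν]
    have : r * t ≤ 1 := mul_le_one₀ r1 t0.le t1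
    have := mul_le_mul_of_nonneg_left this e0.le
    linarith
  have h4 : e * b ^ 2 ≤ η * b' ^ 2 := by
    have h5 : 1 ≤ η * e := h3.trans (mul_le_mul_of_nonneg_left hνe η0)
    have h6 : 0 ≤ e * b ^ 2 := by positivity
    have h7 : η * b' ^ 2 = (η * e) * (e * b ^ 2) := by rw [hb]; ring
    rw [h7]
    exact le_mul_of_one_le_left h6 h5
  have h8 : e * c ^ 2 ≤ η * c' ^ 2 := by
    have h9 : 0 ≤ e * c ^ 2 := by positivity
    have h10 : e * c ^ 2 ≤ (η * ν) * (e * c ^ 2) := le_mul_of_one_le_left h9 h3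
    refine h10.trans ?_
    have h11 : ν * (e * c ^ 2) ≤ c' ^ 2 := by
      have h12 : ν * (e * c ^ 2) = (e * r * c) * (e * t * c) := by rw [hν]; ring
      rw [h12, ← hc]
      have := mul_le_mul_of_nonneg_right erc c'0
      linarith
    calc (η * ν) * (e * c ^ 2) = η * (ν * (e * c ^ 2)) := by ring
      _ ≤ η * c' ^ 2 := mul_le_mul_of_nonneg_left h11 η0
  have := mul_le_mul_of_nonneg_left hQ η0
  linarith [mul_add e (b ^ 2) (c ^ 2), mul_add η (b' ^ 2) (c' ^ 2)]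

/-- The primed variables. -/
theorem num_S (e0 : 0 < e) (r0 : 0 < r) (rt : r ≤ t)
    (t1 : t ≤ 1) (d0 : 0 ≤ δ) (d1 : δ ≤ 1) (k0 : 0 ≤ κ) (kd : κ ≤ δ) (hμ : μ = e * r ^ 2)
    (μ1 : 1 ≤ μ) (hν : ν = e * r * t) (h1 : δ * μ ≤ η) (h2 : κ * ν ≤ η) (h3 : 1 ≤ η * ν)
    (b0 : 0 ≤ b) (c0 : 0 ≤ c) (B0 : 0 ≤ B') (C0 : 0 ≤ C') (C10 : 0 ≤ C₁) (hb : b' = e * b)
    (hc : c' = e * t * c) (hB : B = r * B') (hC : C₂ = r * C') :
    κ * (e * ((B + C₂ + δ * e * r * (b + r * c)) + r * (C₁ + B + δ * e * r * (c + r * b))) ^ 2 +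
      e * r * t * (C₁ + B + δ * e * r * (c + r * b)) ^ 2) +
    δ * (e * ((B + C₂ + δ * e * r * (b + r * c)) + r * (C₁ + B + δ * e * r * (c + r * b))) ^ 2 +
      e ^ 3 * r ^ 2 * (b ^ 2 + t ^ 2 * c ^ 2)) + δ * (e * (b * (C₁ + C₂) + c * B)) +
    (δ * (e ^ 2 * (b ^ 2 + r * (b * c) + r * t * c ^ 2)) + e * (b ^ 2 + c ^ 2)) ≤
    100 * (η * (b' ^ 2 + B' ^ 2 + c' ^ 2 + C' ^ 2 + C₁ ^ 2)) := by
  have t0 : 0 < t := r0.trans_le rt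
  have b'0 : 0 ≤ b' := by rw [hb]; positivity
  have c'0 : 0 ≤ c' := by rw [hc]; positivity
  have μ0 : 0 ≤ μ := by linarith
  have η0 : 0 ≤ η := (mul_nonneg d0 μ0).trans h1
  have dη : δ ≤ η := (le_mul_of_one_le_right d0 μ1).trans h1
  obtain ⟨⟨y0, p0⟩, yS, pS⟩ := num_yp e0 r0 rt t1 d0 d1 b0 c0 B0 C0 C10 hb hc hB hC
  have SQ := sq5 B' C' b' c' C₁
  have S0 : 0 ≤ B' + C' + b' + c' + C₁ := by positivity
  have k3 := num_sk e0 r0 rt t1 d0 dη b'0 c'0 c0 B0 C0 C10 hb hc hB hC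
  have hQ : b' ^ 2 + c' ^ 2 ≤ b' ^ 2 + B' ^ 2 + c' ^ 2 + C' ^ 2 + C₁ ^ 2 := by
    linarith [sq_nonneg B', sq_nonneg C', sq_nonneg C₁]
  obtain ⟨k1, k2⟩ := num_th e0 r0 t0.le d0 k0 kd hμ μ0 hν h1 h2 y0 p0 S0 yS pS
  have k6 := num_b (Q := b' ^ 2 + B' ^ 2 + c' ^ 2 + C' ^ 2 + C₁ ^ 2) d0 hμ μ0 h1 η0 hb hc hQ
  have k4 := num_z1 e0 r0 rt d0 dη b'0 c'0 c0 hb hc hQ
  have k5 := num_z2 e0 r0 rt t1 hν h3 η0 c0 c'0 hb hc hQ
  have hf := mul_le_mul_of_nonneg_left SQ η0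
  have hq : 0 ≤ η * (b' ^ 2 + B' ^ 2 + c' ^ 2 + C' ^ 2 + C₁ ^ 2) := by positivity
  clear hQ SQ S0 yS pS y0 p0 h1 h2 h3
  generalize κ * (e * ((B + C₂ + δ * e * r * (b + r * c)) + r * (C₁ + B + δ * e * r * (c + r * b))) ^ 2
    + e * r * t * (C₁ + B + δ * e * r * (c + r * b)) ^ 2) = T1 at *
  rw [mul_add δ]
  generalize δ * (e * ((B + C₂ + δ * e * r * (b + r * c)) +
    r * (C₁ + B + δ * e * r * (c + r * b))) ^ 2) = T2 at *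
  generalize δ * (e ^ 3 * r ^ 2 * (b ^ 2 + t ^ 2 * c ^ 2)) = T3 at *
  generalize δ * (e * (b * (C₁ + C₂) + c * B)) = T4 at *
  generalize δ * (e ^ 2 * (b ^ 2 + r * (b * c) + r * t * c ^ 2)) = T5 at *
  generalize e * (b ^ 2 + c ^ 2) = T6 at *
  generalize (B' + C' + b' + c' + C₁) ^ 2 = S at *
  generalize b' ^ 2 + B' ^ 2 + c' ^ 2 + C' ^ 2 + C₁ ^ 2 = Q at *
  linarith

end

/-- **The numerical inequality.** -/
theorem num_Q {e r t δ κ η μ ν b c B C₁ C₂ : ℝ} (e0 : 0 < e) (r0 : 0 < r) (rt : r ≤ t)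
    (t1 : t ≤ 1) (d0 : 0 ≤ δ) (d1 : δ ≤ 1) (k0 : 0 ≤ κ) (kd : κ ≤ δ) (hμ : μ = e * r ^ 2)
    (μ1 : 1 ≤ μ) (hν : ν = e * r * t) (h1 : δ * μ ≤ η) (h2 : κ * ν ≤ η) (h3 : 1 ≤ η * ν)
    (b0 : 0 ≤ b) (c0 : 0 ≤ c) (B0 : 0 ≤ B) (C10 : 0 ≤ C₁) (C20 : 0 ≤ C₂) :
    κ * (e * ((B + C₂ + δ * e * r * (b + r * c)) + r * (C₁ + B + δ * e * r * (c + r * b))) ^ 2 +
      e * r * t * (C₁ + B + δ * e * r * (c + r * b)) ^ 2) +
    δ * (e * ((B + C₂ + δ * e * r * (b + r * c)) + r * (C₁ + B + δ * e * r * (c + r * b))) ^ 2 +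
      e ^ 3 * r ^ 2 * (b ^ 2 + t ^ 2 * c ^ 2)) + δ * (e * (b * (C₁ + C₂) + c * B)) +
    (δ * (e ^ 2 * (b ^ 2 + r * (b * c) + r * t * c ^ 2)) + e * (b ^ 2 + c ^ 2)) ≤
    100 * (η * (e ^ 2 * b ^ 2 + e / μ * (B ^ 2 + ν ^ 2 * c ^ 2 + C₂ ^ 2) + C₁ ^ 2)) := by
  have h := num_S (b' := e * b) (c' := e * t * c) (B' := B / r) (C' := C₂ / r) e0 r0 rt t1 d0 d1 k0 kd
    hμ μ1 hν h1 h2 h3 b0 c0 (div_nonneg B0 r0.le) (div_nonneg C20 r0.le) C10 rfl rfl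
    (B := B) (C₂ := C₂) (by field_simp) (by field_simp)
  have e1 : (e * b) ^ 2 + (B / r) ^ 2 + (e * t * c) ^ 2 + (C₂ / r) ^ 2 + C₁ ^ 2 =
      e ^ 2 * b ^ 2 + e / μ * (B ^ 2 + ν ^ 2 * c ^ 2 + C₂ ^ 2) + C₁ ^ 2 := by
    have e2 : e / μ = 1 / r ^ 2 := by
      rw [hμ]; field_simp
    rw [e2, hν]
    field_simp
    ring
  rw [e1] at h
  exact h

end Vale.Agent.P088.R2.H464.B
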