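import Vale.Agent.P088.R2.H464.B.Cdd
import Vale.Agent.P088.R2.H464.B.Num

/-!
# P088: frozen coefficients, the pointwise estimate, uniformly in the test functions
-/

open Set Filter
open scoped ContDiff Topology

noncomputable section

set_option linter.unusedSectionVars false

namespace Vale.Agent.P088.R2.H464.B

open Vale.Agent.P088.R2.H961.GW Vale.Agent.P088.R2.H644

variable {α α' ι E : Type*} [NormedAddCommGroup E] [NormedSpace ℝ E] [Fintype ι] [DecidableEq ι]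
  {G : Ge α ι E} {e r t δ κ μ ν η : α → E → ℝ} {s d : ι → ι → α → E → ℝ}
  {W W₀ β γ : α → E → ℝ}

/-- `∑ |D_j f|² + |D_j^* f|²`. -/
def SD (G : Ge α ι E) (W f : α → E → ℝ) : α → E → ℝ := fun x z =>
  ∑ j, (Dst G W f j x z ^ 2 + Dun G W f j x z ^ 2)

/-- `∑ |K_j f|² + |K_j^* f|²`. -/
def SK (G : Ge α ι E) (W f : α → E → ℝ) : α → E → ℝ := fun x z =>
  ∑ j, (Kst G W f j x z ^ 2 + Kun G W f j x z ^ 2)

/-- The density of the bounds. -/
def Qd (G : Ge α ι E) (W : α → E → ℝ) (e μ ν : α → E → ℝ) (β γ : α → E → ℝ) : α → E → ℝ :=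
  fun x z => e x z ^ 2 * β x z ^ 2 + e x z / μ x z * ((SD G W β x z + SK G W β x z) +
    ν x z ^ 2 * γ x z ^ 2 + SK G W γ x z) + SD G W γ x z

/-- The scalars. -/
structure Sc (G : Ge α ι E) (e r t δ κ μ ν η : α → E → ℝ) : Prop where
  kd : ∀ x, ∀ z ∈ G.Z x, κ x z ≤ δ x z
  mu : ∀ x, ∀ z ∈ G.Z x, μ x z = e x z * r x z ^ 2
  mu1 : ∀ x, ∀ z ∈ G.Z x, 1 ≤ μ x z
  nu : ∀ x, ∀ z ∈ G.Z x, ν x z = e x z * r x z * t x z
  h1 : ∀ x, ∀ z ∈ G.Z x, δ x z * μ x z ≤ η x z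
  h2 : ∀ x, ∀ z ∈ G.Z x, κ x z * ν x z ≤ η x z
  h3 : ∀ x, ∀ z ∈ G.Z x, 1 ≤ η x z * ν x z

theorem SD_nn (G : Ge α ι E) (W f : α → E → ℝ) (x : α) (z : E) : 0 ≤ SD G W f x z :=
  Finset.sum_nonneg fun _ _ => by positivity

theorem SK_nn (G : Ge α ι E) (W f : α → E → ℝ) (x : α) (z : E) : 0 ≤ SK G W f x z :=
  Finset.sum_nonneg fun _ _ => by positivity

theorem abs_le_D (G : Ge α ι E) (W f : α → E → ℝ) (j : ι) (x : α) (z : E) :
    |Dst G W f j x z| ≤ √(SD G W f x z) ∧ |Dun G W f j x z| ≤ √(SD G W f x z) := by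
  have h : Dst G W f j x z ^ 2 + Dun G W f j x z ^ 2 ≤ SD G W f x z :=
    Finset.single_le_sum (f := fun j => Dst G W f j x z ^ 2 + Dun G W f j x z ^ 2)
      (fun _ _ => by positivity) (Finset.mem_univ j)
  constructor
  · exact Real.abs_le_sqrt (by have := sq_nonneg (Dun G W f j x z); linarith)
  · exact Real.abs_le_sqrt (by have := sq_nonneg (Dst G W f j x z); linarith)

theorem abs_le_K (G : Ge α ι E) (W f : α → E → ℝ) (j : ι) (x : α) (z : E) :
    |Kst G W f j x z| ≤ √(SK G W f x z) ∧ |Kun G W f j x z| ≤ √(SK G W f x z) := by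
  have h : Kst G W f j x z ^ 2 + Kun G W f j x z ^ 2 ≤ SK G W f x z :=
    Finset.single_le_sum (f := fun j => Kst G W f j x z ^ 2 + Kun G W f j x z ^ 2)
      (fun _ _ => by positivity) (Finset.mem_univ j)
  constructor
  · exact Real.abs_le_sqrt (by have := sq_nonneg (Kun G W f j x z); linarith)
  · exact Real.abs_le_sqrt (by have := sq_nonneg (Kst G W f j x z); linarith)

section fam

variable (H : Hy G e r t δ s d W W₀) (H₀ : Hy G e r t δ zr zr W₀ W₀) (hm : Hm G r κ s d)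
  (h : Hs G s d) (S : Sc G e r t δ κ μ ν η) (sβ : G.Sm β) (sγ : G.Sm γ)
include H H₀ hm h S sβ sγ

/-- **The pointwise estimate, for a family.** -/
theorem cd_fam : G.O (fun x z => η x z * Qd G W₀ e μ ν β γ x z)
    (fun x z => cd G s d W β γ x z - cd G zr zr W₀ β γ x z) := by
  have nr : G.Nn r := fun x z h => (H.sz.r0 x z h).le
  have ne : G.Nn e := fun x z h => (H.sz.e0 x z h).le
  have nt : G.Nn t := fun x z h => (nr x z h).trans (H.sz.rt x z h)
  have nd : G.Nn δ := H.sz.d0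
  have nk := hm.k0
  -- the majorants
  obtain ⟨b, hb⟩ : ∃ b : α → E → ℝ, b = fun x z => |β x z| := ⟨_, rfl⟩
  obtain ⟨c, hc⟩ : ∃ c : α → E → ℝ, c = fun x z => |γ x z| := ⟨_, rfl⟩
  obtain ⟨B, hB⟩ : ∃ B : α → E → ℝ, B = fun x z => √(SD G W₀ β x z + SK G W₀ β x z) := ⟨_, rfl⟩
  obtain ⟨C₁, hC₁⟩ : ∃ B : α → E → ℝ, B = fun x z => √(SD G W₀ γ x z) := ⟨_, rfl⟩
  obtain ⟨C₂, hC₂⟩ : ∃ B : α → E → ℝ, B = fun x z => √(SK G W₀ γ x z) := ⟨_, rfl⟩
  have nb : G.Nn b := fun x z _ => by rw [hb]; exact abs_nonneg _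
  have nc : G.Nn c := fun x z _ => by rw [hc]; exact abs_nonneg _
  have nB : G.Nn B := fun x z _ => by rw [hB]; exact Real.sqrt_nonneg _
  have nC₁ : G.Nn C₁ := fun x z _ => by rw [hC₁]; exact Real.sqrt_nonneg _
  have nC₂ : G.Nn C₂ := fun x z _ => by rw [hC₂]; exact Real.sqrt_nonneg _
  have ob : G.O b β := ⟨1, fun x z _ => by rw [hb, one_mul]⟩
  have oc : G.O c γ := ⟨1, fun x z _ => by rw [hc, one_mul]⟩
  have le1 : ∀ x z, √(SD G W₀ β x z) ≤ B x z := fun x z => by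
    rw [hB]; exact Real.sqrt_le_sqrt (by have := SK_nn G W₀ β x z; linarith)
  have le2 : ∀ x z, √(SK G W₀ β x z) ≤ B x z := fun x z => by
    rw [hB]; exact Real.sqrt_le_sqrt (by have := SD_nn G W₀ β x z; linarith)
  have o1 : ∀ j, G.O B (Dst G W₀ β j) := fun j => ⟨1, fun x z _ => by
    rw [one_mul]; exact (abs_le_D G W₀ β j x z).1.trans (le1 x z)⟩
  have o2 : ∀ j, G.O B (Dun G W₀ β j) := fun j => ⟨1, fun x z _ => by
    rw [one_mul]; exact (abs_le_D G W₀ β j x z).2.trans (le1 x z)⟩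
  have o3 : ∀ j, G.O B (Kst G W₀ β j) := fun j => ⟨1, fun x z _ => by
    rw [one_mul]; exact (abs_le_K G W₀ β j x z).1.trans (le2 x z)⟩
  have o4 : ∀ j, G.O B (Kun G W₀ β j) := fun j => ⟨1, fun x z _ => by
    rw [one_mul]; exact (abs_le_K G W₀ β j x z).2.trans (le2 x z)⟩
  have o5 : ∀ j, G.O C₁ (Dst G W₀ γ j) := fun j => ⟨1, fun x z _ => by
    rw [one_mul, hC₁]; exact (abs_le_D G W₀ γ j x z).1⟩
  have o6 : ∀ j, G.O C₁ (Dun G W₀ γ j) := fun j => ⟨1, fun x z _ => by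
    rw [one_mul, hC₁]; exact (abs_le_D G W₀ γ j x z).2⟩
  have o7 : ∀ j, G.O C₂ (Kst G W₀ γ j) := fun j => ⟨1, fun x z _ => by
    rw [one_mul, hC₂]; exact (abs_le_K G W₀ γ j x z).1⟩
  have o8 : ∀ j, G.O C₂ (Kun G W₀ γ j) := fun j => ⟨1, fun x z _ => by
    rw [one_mul, hC₂]; exact (abs_le_K G W₀ γ j x z).2⟩
  -- `y`, `p`
  obtain ⟨y, hy⟩ : ∃ y : α → E → ℝ, y = fun x z =>
    B x z + C₂ x z + δ x z * e x z * r x z * (b x z + r x z * c x z) := ⟨_, rfl⟩
  obtain ⟨p, hp⟩ : ∃ p : α → E → ℝ, p = fun x z =>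
    C₁ x z + B x z + δ x z * e x z * r x z * (c x z + r x z * b x z) := ⟨_, rfl⟩
  have q1 : G.Nn fun x z => δ x z * e x z * r x z * (b x z + r x z * c x z) := fun x z h => by
    have := nd x z h; have := ne x z h; have := nr x z h; have := nb x z h; have := nc x z h
    positivity
  have q2 : G.Nn fun x z => δ x z * e x z * r x z * (c x z + r x z * b x z) := fun x z h => by
    have := nd x z h; have := ne x z h; have := nr x z h; have := nb x z h; have := nc x z h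
    positivity
  have ny : G.Nn y := fun x z h => by
    rw [hy]; exact add_nonneg (add_nonneg (nB x z h) (nC₂ x z h)) (q1 x z h)
  have np : G.Nn p := fun x z h => by
    rw [hp]; exact add_nonneg (add_nonneg (nC₁ x z h) (nB x z h)) (q2 x z h)
  obtain ⟨dY, dP⟩ := YP_dif H sβ sγ nb nc ob oc
  have yB : ∀ {f : α → E → ℝ}, G.O B f → G.O y f := fun h => h.mono nB (A := 1) fun x z hz => by
    have := q1 x z hz; have := nC₂ x z hz; rw [hy]; linarith
  have yC : ∀ {f : α → E → ℝ}, G.O C₂ f → G.O y f := fun h => h.mono nC₂ (A := 1) fun x z hz => by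
    have := q1 x z hz; have := nB x z hz; rw [hy]; linarith
  have yd : ∀ {f : α → E → ℝ}, G.O (fun x z => δ x z * e x z * r x z * (b x z + r x z * c x z)) f →
      G.O y f := fun h => h.mono q1 (A := 1) fun x z hz => by
    have := nB x z hz; have := nC₂ x z hz; rw [hy]; linarith
  have pB : ∀ {f : α → E → ℝ}, G.O B f → G.O p f := fun h => h.mono nB (A := 1) fun x z hz => by
    have := q2 x z hz; have := nC₁ x z hz; rw [hp]; linarith
  have pC : ∀ {f : α → E → ℝ}, G.O C₁ f → G.O p f := fun h => h.mono nC₁ (A := 1) fun x z hz => by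
    have := q2 x z hz; have := nB x z hz; rw [hp]; linarith
  have pd : ∀ {f : α → E → ℝ}, G.O (fun x z => δ x z * e x z * r x z * (c x z + r x z * b x z)) f →
      G.O p f := fun h => h.mono q2 (A := 1) fun x z hz => by
    have := nB x z hz; have := nC₁ x z hz; rw [hp]; linarith
  have hY₀ : ∀ j, G.O y (Yf G W₀ β γ j) := fun j => ((yB (o1 j)).cmul ny 2).add (yC (o7 j))
  have hP₀ : ∀ j, G.O p (Pf G W₀ β γ j) := fun j => (pC (o5 j)).add ((pB (o3 j)).cmul np (1 / 2))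
  have hY : ∀ j, G.O y (Yf G W β γ j) := fun j =>
    ((hY₀ j).add (yd (dY j))).congr fun x z _ => by ring
  have hP : ∀ j, G.O p (Pf G W β γ j) := fun j =>
    ((hP₀ j).add (pd (dP j))).congr fun x z _ => by ring
  have a1 := (th_O H hm h sβ sγ ny np nb nc hY hP hY₀ hP₀ ob oc)
  -- the skew part
  obtain ⟨gu, hgu⟩ : ∃ y : α → E → ℝ, y = fun x z =>
    b x z * (C₁ x z + C₂ x z) + c x z * B x z := ⟨_, rfl⟩
  have n1 : G.Nn fun x z => b x z * C₁ x z := fun x z h => mul_nonneg (nb x z h) (nC₁ x z h)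
  have n2 : G.Nn fun x z => b x z * C₂ x z := fun x z h => mul_nonneg (nb x z h) (nC₂ x z h)
  have n3 : G.Nn fun x z => c x z * B x z := fun x z h => mul_nonneg (nc x z h) (nB x z h)
  have nu : G.Nn gu := fun x z h => by
    rw [hgu]
    exact add_nonneg (mul_nonneg (nb x z h) (add_nonneg (nC₁ x z h) (nC₂ x z h))) (n3 x z h)
  have g1 : ∀ {f : α → E → ℝ}, G.O (fun x z => b x z * C₁ x z) f → G.O gu f := fun h =>
    h.mono n1 (A := 1) fun x z hz => by
      have := n2 x z hz; have := n3 x z hz; rw [hgu]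
      linarith [mul_add (b x z) (C₁ x z) (C₂ x z)]
  have g2 : ∀ {f : α → E → ℝ}, G.O (fun x z => b x z * C₂ x z) f → G.O gu f := fun h =>
    h.mono n2 (A := 1) fun x z hz => by
      have := n1 x z hz; have := n3 x z hz; rw [hgu]
      linarith [mul_add (b x z) (C₁ x z) (C₂ x z)]
  have g3 : ∀ {f : α → E → ℝ}, G.O (fun x z => c x z * B x z) f → G.O gu f := fun h =>
    h.mono n3 (A := 1) fun x z hz => by
      have := n1 x z hz; have := n2 x z hz; rw [hgu]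
      linarith [mul_add (b x z) (C₁ x z) (C₂ x z)]
  have hu : ∀ j, G.O gu (uv G β γ j) := fun j =>
    ((g1 (ob.mul nb (o6 j))).sub (g3 (oc.mul nc (o2 j))) nu).congr fun x z _ => by
      simp only [uv, Dun]; ring
  have hw : ∀ j, G.O gu (wv G β γ j) := fun j =>
    ((g2 (ob.mul nb (o8 j))).sub (g3 (oc.mul nc (o4 j))) nu).congr fun x z _ => by
      simp only [wv, Kun]; ring
  have a2 := sk_O H H₀ hm h sβ sγ nu hu hw
  have a3 := zo_O H H₀ h sβ sγ nb nc ob oc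
  -- the sum
  obtain ⟨T₁, hT₁⟩ : ∃ T : α → E → ℝ, T = fun x z =>
    κ x z * (e x z * (y x z + r x z * p x z) ^ 2 + e x z * r x z * t x z * p x z ^ 2) +
      δ x z * (e x z * (y x z + r x z * p x z) ^ 2 +
        e x z ^ 3 * r x z ^ 2 * (b x z ^ 2 + t x z ^ 2 * c x z ^ 2)) := ⟨_, rfl⟩
  obtain ⟨T₂, hT₂⟩ : ∃ T : α → E → ℝ, T = fun x z => δ x z * (e x z * gu x z) := ⟨_, rfl⟩
  obtain ⟨T₃, hT₃⟩ : ∃ T : α → E → ℝ, T = fun x z =>
    δ x z * (e x z ^ 2 * (b x z ^ 2 + r x z * (b x z * c x z) +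
        r x z * t x z * c x z ^ 2)) + e x z * (b x z ^ 2 + c x z ^ 2) := ⟨_, rfl⟩
  rw [← hT₁] at a1
  rw [← hT₂] at a2
  rw [← hT₃] at a3
  have m1 : G.Nn T₁ := fun x z h => by
    have := nk x z h; have := nd x z h; have := ne x z h; have := nr x z h; have := nt x z h
    rw [hT₁]; positivity
  have m2 : G.Nn T₂ := fun x z h => by
    have := nd x z h; have := ne x z h; have := nu x z h
    rw [hT₂]; positivity
  have m3 : G.Nn T₃ := fun x z h => by
    have := nd x z h; have := ne x z h; have := nr x z h; have := nt x z h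
    have := nb x z h; have := nc x z h
    rw [hT₃]; positivity
  have m : G.Nn fun x z => T₁ x z + T₂ x z + T₃ x z := fun x z h =>
    add_nonneg (add_nonneg (m1 x z h) (m2 x z h)) (m3 x z h)
  have b1 := (a1.mono m1 (g' := fun x z => T₁ x z + T₂ x z + T₃ x z) (A := 1) fun x z h => by
    have := m2 x z h; have := m3 x z h; linarith).cmul m 8
  have b2 := (a2.mono m2 (g' := fun x z => T₁ x z + T₂ x z + T₃ x z) (A := 1) fun x z h => by
    have := m1 x z h; have := m3 x z h; linarith).cmul m 4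
  have b3 := a3.mono m3 (g' := fun x z => T₁ x z + T₂ x z + T₃ x z) (A := 1) fun x z h => by
    have := m1 x z h; have := m2 x z h; linarith
  have b4 := ((b1.add b2).add b3).mono m (g' := fun x z => η x z * Qd G W₀ e μ ν β γ x z) (A := 100)
    fun x z hz => by
      have k := num_Q (H.sz.e0 x z hz) (H.sz.r0 x z hz) (H.sz.rt x z hz) (H.sz.t1 x z hz)
        (nd x z hz) (H.sz.d1 x z hz) (nk x z hz) (S.kd x z hz) (S.mu x z hz) (S.mu1 x z hz)
        (S.nu x z hz) (S.h1 x z hz) (S.h2 x z hz) (S.h3 x z hz) (nb x z hz) (nc x z hz)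
        (nB x z hz) (nC₁ x z hz) (nC₂ x z hz)
      have e1 : b x z ^ 2 = β x z ^ 2 := by rw [hb]; exact sq_abs _
      have e2 : c x z ^ 2 = γ x z ^ 2 := by rw [hc]; exact sq_abs _
      have e3 : B x z ^ 2 = SD G W₀ β x z + SK G W₀ β x z := by
        rw [hB]; exact Real.sq_sqrt (add_nonneg (SD_nn _ _ _ _ _) (SK_nn _ _ _ _ _))
      have e4 : C₁ x z ^ 2 = SD G W₀ γ x z := by
        rw [hC₁]; exact Real.sq_sqrt (SD_nn _ _ _ _ _)
      have e5 : C₂ x z ^ 2 = SK G W₀ γ x z := by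
        rw [hC₂]; exact Real.sq_sqrt (SK_nn _ _ _ _ _)
      have e6 : Qd G W₀ e μ ν β γ x z = e x z ^ 2 * b x z ^ 2 + e x z / μ x z *
          (B x z ^ 2 + ν x z ^ 2 * c x z ^ 2 + C₂ x z ^ 2) + C₁ x z ^ 2 := by
        rw [e1, e2, e3, e4, e5]; rfl
      rw [e6]
      refine le_trans (le_of_eq ?_) k
      rw [hT₁, hT₂, hT₃, hy, hp, hgu]
  refine b4.congr fun x z _ => ?_
  simp only [cd]
  ring

end fam

/-! ## Uniformity in the test functions -/

/-- The pulled back family. -/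
def Ge.pull (G : Ge α ι E) (φ : α' → α) : Ge α' ι E where
  a x := G.a (φ x)
  b x := G.b (φ x)
  Z x := G.Z (φ x)
  op x := G.op (φ x)

theorem Ge.O.pull {g f : α → E → ℝ} (h : G.O g f) (φ : α' → α) :
    (G.pull φ).O (fun x => g (φ x)) fun x => f (φ x) := by
  obtain ⟨C, hC⟩ := h
  exact ⟨C, fun x z hz => hC (φ x) z hz⟩

theorem Ge.Sm.pull {f : α → E → ℝ} (h : G.Sm f) (φ : α' → α) : (G.pull φ).Sm fun x => f (φ x) :=
  fun x => h (φ x)

theorem Ge.Gc.pull (φ : α' → α) : ∀ {K : ℕ} {p : ℕ → α → E → ℝ} {f : α → E → ℝ}, G.Gc K p f →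
    (G.pull φ).Gc K (fun j x => p j (φ x)) fun x => f (φ x) := by
  intro K
  induction K with
  | zero => intro p f h; exact Ge.O.pull h φ
  | succ K ih =>
    intro p f h
    exact ⟨h.1.pull φ, fun i => ih (h.2.1 i), fun i => ih (h.2.2 i)⟩

theorem Sz.pull (h : Sz G e r t δ) (φ : α' → α) : Sz (G.pull φ) (fun x => e (φ x))
    (fun x => r (φ x)) (fun x => t (φ x)) fun x => δ (φ x) where
  e0 x := h.e0 (φ x)
  r0 x := h.r0 (φ x)
  rt x := h.rt (φ x)
  t1 x := h.t1 (φ x)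
  d0 x := h.d0 (φ x)
  d1 x := h.d1 (φ x)

theorem Hy.pull (h : Hy G e r t δ s d W W₀) (φ : α' → α) : Hy (G.pull φ) (fun x => e (φ x))
    (fun x => r (φ x)) (fun x => t (φ x)) (fun x => δ (φ x)) (fun i j x => s i j (φ x))
    (fun i j x => d i j (φ x)) (fun x => W (φ x)) fun x => W₀ (φ x) where
  sz := h.sz.pull φ
  sW := h.sW.pull φ
  sW₀ := h.sW₀.pull φ
  ss i j := (h.ss i j).pull φ
  sd i j := (h.sd i j).pull φ
  hW := ⟨trivial, fun i => (h.hW.2.1 i).pull φ, fun i => (h.hW.2.2 i).pull φ⟩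
  hD := ⟨trivial, fun i => (h.hD.2.1 i).pull φ, fun i => (h.hD.2.2 i).pull φ⟩
  hs i j := (h.hs i j).pull φ
  hd i j := (h.hd i j).pull φ

theorem Hm.pull (h : Hm G r κ s d) (φ : α' → α) : Hm (G.pull φ) (fun x => r (φ x))
    (fun x => κ (φ x)) (fun i j x => s i j (φ x)) fun i j x => d i j (φ x) where
  k0 x := h.k0 (φ x)
  k1 x := h.k1 (φ x)
  s0 i j := (h.s0 i j).pull φ
  sa i j k := (h.sa i j k).pull φ
  sb i j k := (h.sb i j k).pull φ
  d0 i j := (h.d0 i j).pull φ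
  da i j k := (h.da i j k).pull φ
  db i j k := (h.db i j k).pull φ

theorem Hs.pull (h : Hs G s d) (φ : α' → α) : Hs (G.pull φ) (fun i j x => s i j (φ x))
    fun i j x => d i j (φ x) where
  ss i j := (h.ss i j).pull φ
  sd i j := (h.sd i j).pull φ
  ys i j x := h.ys i j (φ x)
  yd i j x := h.yd i j (φ x)
  xy x := h.xy (φ x)
  yx x := h.yx (φ x)

/-- **The pointwise estimate.** -/
theorem cd_pt (H : Hy G e r t δ s d W W₀) (H₀ : Hy G e r t δ zr zr W₀ W₀) (hm : Hm G r κ s d)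
    (h : Hs G s d) (S : Sc G e r t δ κ μ ν η) : ∃ C, 0 ≤ C ∧ ∀ x, ∀ β γ : E → ℝ,
    ContDiffOn ℝ ∞ β (G.Z x) → ContDiffOn ℝ ∞ γ (G.Z x) → ∀ z ∈ G.Z x,
    |cd G s d W (fun _ => β) (fun _ => γ) x z - cd G zr zr W₀ (fun _ => β) (fun _ => γ) x z| ≤
      C * (η x z * Qd G W₀ e μ ν (fun _ => β) (fun _ => γ) x z) := by
  let α' := {q : α × (E → ℝ) × (E → ℝ) //
    ContDiffOn ℝ ∞ q.2.1 (G.Z q.1) ∧ ContDiffOn ℝ ∞ q.2.2 (G.Z q.1)}
  let φ : α' → α := fun q => q.1.1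
  have S' : Sc (G.pull φ) (fun x => e (φ x)) (fun x => r (φ x)) (fun x => t (φ x))
      (fun x => δ (φ x)) (fun x => κ (φ x)) (fun x => μ (φ x)) (fun x => ν (φ x))
      (fun x => η (φ x)) :=
    ⟨fun x => S.kd (φ x), fun x => S.mu (φ x), fun x => S.mu1 (φ x), fun x => S.nu (φ x),
      fun x => S.h1 (φ x), fun x => S.h2 (φ x), fun x => S.h3 (φ x)⟩
  have key := cd_fam (β := fun x : α' => x.1.2.1) (γ := fun x : α' => x.1.2.2) (H.pull φ)
    (H₀.pull φ) (hm.pull φ) (h.pull φ) S' (fun x => x.2.1) (fun x => x.2.2)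
  have nn : (G.pull φ).Nn fun x z => η (φ x) z * Qd (G.pull φ) (fun x => W₀ (φ x))
      (fun x => e (φ x)) (fun x => μ (φ x)) (fun x => ν (φ x)) (fun x : α' => x.1.2.1)
      (fun x : α' => x.1.2.2) x z := by
    intro x z hz
    have h1 : 0 ≤ η (φ x) z := by
      have := mul_nonneg (H.sz.d0 (φ x) z hz) (zero_le_one.trans (S.mu1 (φ x) z hz))
      exact this.trans (S.h1 (φ x) z hz)
    have h2 : 0 ≤ e (φ x) z / μ (φ x) z :=
      div_nonneg (H.sz.e0 (φ x) z hz).le (zero_le_one.trans (S.mu1 (φ x) z hz))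
    refine mul_nonneg h1 ?_
    unfold Qd
    have := SD_nn (G.pull φ) (fun x => W₀ (φ x)) (fun x : α' => x.1.2.1) x z
    have := SK_nn (G.pull φ) (fun x => W₀ (φ x)) (fun x : α' => x.1.2.1) x z
    have := SD_nn (G.pull φ) (fun x => W₀ (φ x)) (fun x : α' => x.1.2.2) x z
    have := SK_nn (G.pull φ) (fun x => W₀ (φ x)) (fun x : α' => x.1.2.2) x z
    positivity
  obtain ⟨C, hC0, hC⟩ := key.nn nn
  refine ⟨C, hC0, fun x β γ hβ hγ z hz => ?_⟩
  exact hC ⟨(x, β, γ), hβ, hγ⟩ z hz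

end Vale.Agent.P088.R2.H464.B
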