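import Vale.Agent.P088.R2.H464.B.Pm
import Mathlib.Tactic.Positivity
import Mathlib.Tactic.Linarith

/-!
# P088: true weight against model, in the graded classes

Sizes: `e` stiffness, `r = √(μ/e)`, `t` with `ν = e r t = N + μ`, `r ≤ t ≤ 1`; `δ` = relative error.
`W = O(ν, e r, e)`, `W - W₀ = δ O(e r², e r, e)`, `s - 1 = O(δ)`, `d = δ O(r, 1, 1)`.
-/

open Set Filter
open scoped ContDiff Topology

noncomputable section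

set_option linter.unusedSectionVars false

namespace Vale.Agent.P088.R2.H464.B

variable {α ι E : Type*} [NormedAddCommGroup E] [NormedSpace ℝ E] [Fintype ι]

/-- A profile of three levels. -/
def pr (c₀ c₁ c₂ : α → E → ℝ) : ℕ → α → E → ℝ
  | 0 => c₀
  | 1 => c₁
  | _ + 2 => c₂

variable {G : Ge α ι E}

/-- The sizes. -/
structure Sz (G : Ge α ι E) (e r t δ : α → E → ℝ) : Prop where
  e0 : ∀ x, ∀ z ∈ G.Z x, 0 < e x z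
  r0 : ∀ x, ∀ z ∈ G.Z x, 0 < r x z
  rt : ∀ x, ∀ z ∈ G.Z x, r x z ≤ t x z
  t1 : ∀ x, ∀ z ∈ G.Z x, t x z ≤ 1
  d0 : ∀ x, ∀ z ∈ G.Z x, 0 ≤ δ x z
  d1 : ∀ x, ∀ z ∈ G.Z x, δ x z ≤ 1

theorem pr_nn {c₀ c₁ c₂ : α → E → ℝ} (h0 : G.Nn c₀) (h1 : G.Nn c₁) (h2 : G.Nn c₂) (j : ℕ) :
    G.Nn (pr c₀ c₁ c₂ j) := by
  match j with
  | 0 => exact h0
  | 1 => exact h1
  | _ + 2 => exact h2

/-- Monomials `δ^a e^b r^c t^d`. -/
def mn (e r t δ : α → E → ℝ) (k a b c : ℕ) : α → E → ℝ := fun x z =>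
  δ x z ^ k * e x z ^ a * r x z ^ b * t x z ^ c

variable {e r t δ : α → E → ℝ}

theorem mn_nn (h : Sz G e r t δ) (k a b c : ℕ) : G.Nn (mn e r t δ k a b c) := fun x z hz => by
  have h1 := h.e0 x z hz
  have h2 := h.r0 x z hz
  have h3 := h.d0 x z hz
  have h4 : 0 ≤ t x z := h2.le.trans (h.rt x z hz)
  unfold mn
  positivity

/-- Comparison of monomials: `k' ≤ k`, `b' ≤ b`, `b' + c' ≤ b + c`. -/
theorem mn_le (h : Sz G e r t δ) {k a b c k' b' c' : ℕ} (hk : k' ≤ k) (hb : b' ≤ b)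
    (hc : b' + c' ≤ b + c) : ∀ x, ∀ z ∈ G.Z x, mn e r t δ k a b c x z ≤ mn e r t δ k' a b' c' x z := by
  intro x z hz
  have e0 := (h.e0 x z hz).le
  have r0 := (h.r0 x z hz).le
  have d0 := h.d0 x z hz
  have rt := h.rt x z hz
  have t0 : 0 ≤ t x z := r0.trans rt
  unfold mn
  obtain ⟨m, rfl⟩ := Nat.exists_eq_add_of_le hb
  have h1 : δ x z ^ k ≤ δ x z ^ k' := pow_le_pow_of_le_one d0 (h.d1 x z hz) hk
  have h2 : r x z ^ m * t x z ^ c ≤ t x z ^ c' := by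
    calc r x z ^ m * t x z ^ c ≤ t x z ^ m * t x z ^ c :=
          mul_le_mul_of_nonneg_right (pow_le_pow_left₀ r0 rt m) (pow_nonneg t0 c)
      _ = t x z ^ (m + c) := (pow_add _ _ _).symm
      _ ≤ t x z ^ c' := pow_le_pow_of_le_one t0 (h.t1 x z hz) (by omega)
  rw [pow_add]
  calc δ x z ^ k * e x z ^ a * (r x z ^ b' * r x z ^ m) * t x z ^ c
      = (δ x z ^ k * (e x z ^ a * r x z ^ b')) * (r x z ^ m * t x z ^ c) := by ring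
    _ ≤ (δ x z ^ k' * (e x z ^ a * r x z ^ b')) * t x z ^ c' :=
        mul_le_mul (mul_le_mul_of_nonneg_right h1 (by positivity)) h2
          (mul_nonneg (pow_nonneg r0 m) (pow_nonneg t0 c)) (by positivity)
    _ = δ x z ^ k' * e x z ^ a * r x z ^ b' * t x z ^ c' := by ring

theorem mn_mul (k a b c k' a' b' c' : ℕ) (x : α) (z : E) :
    mn e r t δ k a b c x z * mn e r t δ k' a' b' c' x z =
      mn e r t δ (k + k') (a + a') (b + b') (c + c') x z := by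
  unfold mn
  ring

/-! ## Monomial profiles -/

/-- The profile with exponents `B j`, `C j`. -/
def ms (e r t δ : α → E → ℝ) (k a : ℕ) (B C : ℕ → ℕ) : ℕ → α → E → ℝ := fun j =>
  mn e r t δ k a (B j) (C j)

theorem ms_nn (h : Sz G e r t δ) (k a : ℕ) (B C : ℕ → ℕ) (j : ℕ) : G.Nn (ms e r t δ k a B C j) :=
  mn_nn h _ _ _ _

/-- The condition for a product of two. -/
def c2 (K s₁ s₂ s₀ : ℕ) (B₁ C₁ B₂ C₂ B C : ℕ → ℕ) : Prop :=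
  ∀ j ≤ K, ∀ i ≤ j + s₀, B j ≤ B₁ (i + s₁) + B₂ (j + s₀ - i + s₂) ∧
    B j + C j ≤ B₁ (i + s₁) + B₂ (j + s₀ - i + s₂) + (C₁ (i + s₁) + C₂ (j + s₀ - i + s₂))

theorem cv_ms (h : Sz G e r t δ) {K k a k' a' κ s₁ s₂ s₀ : ℕ} {B₁ C₁ B₂ C₂ B C : ℕ → ℕ}
    (hk : κ ≤ k + k') (H : c2 K s₁ s₂ s₀ B₁ C₁ B₂ C₂ B C) : ∀ j ≤ K, ∀ x, ∀ z ∈ G.Z x,
    cv (fun m => ms e r t δ k a B₁ C₁ (m + s₁)) (fun m => ms e r t δ k' a' B₂ C₂ (m + s₂)) (j + s₀) x z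
      ≤ ((j + s₀ : ℕ) + 1) * ms e r t δ κ (a + a') B C j x z := by
  intro j hj x z hz
  unfold cv ms
  have h1 : ∀ i ∈ Finset.range (j + s₀ + 1), mn e r t δ k a (B₁ (i + s₁)) (C₁ (i + s₁)) x z *
      mn e r t δ k' a' (B₂ (j + s₀ - i + s₂)) (C₂ (j + s₀ - i + s₂)) x z ≤
      mn e r t δ κ (a + a') (B j) (C j) x z := by
    intro i hi
    obtain ⟨h2, h3⟩ := H j hj i (Finset.mem_range_succ_iff.1 hi)
    rw [mn_mul]
    exact mn_le h hk h2 h3 x z hz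
  refine (Finset.sum_le_sum h1).trans (le_of_eq ?_)
  rw [Finset.sum_const, Finset.card_range, nsmul_eq_mul]
  push_cast
  ring

/-- Products. -/
theorem Ge.Gc.mulm (h : Sz G e r t δ) {K k a k' a' κ : ℕ} {B₁ C₁ B₂ C₂ B C : ℕ → ℕ}
    {f g : α → E → ℝ} (hf : G.Gc K (ms e r t δ k a B₁ C₁) f) (hg : G.Gc K (ms e r t δ k' a' B₂ C₂) g)
    (sf : G.Sm f) (sg : G.Sm g) (hk : κ ≤ k + k') (H : c2 K 0 0 0 B₁ C₁ B₂ C₂ B C) :
    G.Gc K (ms e r t δ κ (a + a') B C) fun x z => f x z * g x z :=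
  (hf.mul hg (fun _ _ => ms_nn h _ _ _ _ _) (fun _ _ => ms_nn h _ _ _ _ _) sf sg).mono
    (cv_nn (fun _ _ => ms_nn h _ _ _ _ _) fun _ _ => ms_nn h _ _ _ _ _)
    fun j hj => ⟨_, cv_ms (K := K) (s₁ := 0) (s₂ := 0) (s₀ := 0) h hk H j hj⟩

/-- Comparison of classes. -/
theorem Ge.Gc.monom (h : Sz G e r t δ) {K k a κ : ℕ} {B₁ C₁ B C : ℕ → ℕ} {f : α → E → ℝ}
    (hf : G.Gc K (ms e r t δ k a B₁ C₁) f) (hk : κ ≤ k)
    (H : ∀ j ≤ K, B j ≤ B₁ j ∧ B j + C j ≤ B₁ j + C₁ j) : G.Gc K (ms e r t δ κ a B C) f :=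
  hf.mono (fun j _ => ms_nn h _ _ _ _ _) fun j hj => ⟨1, fun x z hz => by
    rw [one_mul]
    exact mn_le h hk (H j hj).1 (H j hj).2 x z hz⟩

theorem Ge.Gd.monom (h : Sz G e r t δ) {K k a κ : ℕ} {B₁ C₁ B C : ℕ → ℕ} {f : α → E → ℝ}
    (hf : G.Gd K (ms e r t δ k a B₁ C₁) f) (hk : κ ≤ k)
    (H : ∀ j ≤ K + 1, B j ≤ B₁ j ∧ B j + C j ≤ B₁ j + C₁ j) : G.Gd K (ms e r t δ κ a B C) f :=
  hf.mono (fun j _ => ms_nn h _ _ _ _ _) fun j hj => ⟨1, fun x z hz => by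
    rw [one_mul]
    exact mn_le h hk (H j hj).1 (H j hj).2 x z hz⟩

/-- Shifted exponents. -/
def sh (B : ℕ → ℕ) : ℕ → ℕ := fun j => B (j + 1)

/-- The class of `Gp`. -/
theorem Gp_ms (h : Sz G e r t δ) {K ks kd kf kg af ag κ : ℕ} {Bs Cs Bd Cd Bf Cf Bg Cg B C : ℕ → ℕ}
    {s d : ι → ι → α → E → ℝ} {f g : α → E → ℝ}
    (hs : ∀ i j, G.Gc K (ms e r t δ ks 0 Bs Cs) (s i j)) (hd : ∀ i j, G.Gc K (ms e r t δ kd 0 Bd Cd) (d i j))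
    (ss : ∀ i j, G.Sm (s i j)) (sd : ∀ i j, G.Sm (d i j))
    (hf : G.Gd K (ms e r t δ kf af Bf Cf) f) (sf : G.Sm f)
    (hg : G.Gd K (ms e r t δ kg ag Bg Cg) g) (sg : G.Sm g)
    (B1 C1 B2 C2 B3 C3 B4 C4 : ℕ → ℕ)
    (H1 : c2 K 0 0 0 (sh Bf) (sh Cf) (sh Bg) (sh Cg) B1 C1) (H2 : c2 K 0 0 0 Bf Cf Bg Cg B2 C2)
    (H3 : c2 K 0 0 0 (sh Bf) (sh Cf) Bg Cg B3 C3) (H4 : c2 K 0 0 0 Bf Cf (sh Bg) (sh Cg) B4 C4)
    (k1 : κ ≤ ks + (kf + kg)) (k2 : κ ≤ kd + (kf + kg))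
    (L1 : c2 K 0 0 0 Bs Cs B1 C1 B C) (L2 : c2 K 0 0 0 Bs Cs B2 C2 B C)
    (L3 : c2 K 0 0 0 Bd Cd B3 C3 B C) (L4 : c2 K 0 0 0 Bd Cd B4 C4 B C) :
    G.Gc K (ms e r t δ κ (0 + (af + ag)) B C) (G.Gp s d f g) := by
  have sm : ∀ i j, G.Sm fun x z => s i j x z * (2 * (G.da i f x z * G.da j g x z)) +
    s i j x z * (1 / 2 * (G.db i f x z * G.db j g x z)) +
    d i j x z * (G.da i f x z * G.db j g x z) + d i j x z * (G.db i f x z * G.da j g x z) :=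
    fun i j => ((((ss i j).mul ((Ge.Sm.const fun _ => 2).mul ((sf.da i).mul (sg.da j)))).add
      ((ss i j).mul ((Ge.Sm.const fun _ => 1 / 2).mul ((sf.db i).mul (sg.db j))))).add
      ((sd i j).mul ((sf.da i).mul (sg.db j)))).add ((sd i j).mul ((sf.db i).mul (sg.da j)))
  refine Ge.Gc.sum _ (fun i _ => Ge.Gc.sum _ (fun j _ => ?_) fun j _ => sm i j)
    fun i _ => Ge.Sm.sum _ fun j _ => sm i j
  have fa : G.Gc K (ms e r t δ kf af (sh Bf) (sh Cf)) (G.da i f) := hf.2.1 i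
  have fb : G.Gc K (ms e r t δ kf af Bf Cf) (G.db i f) := hf.2.2 i
  have ga : G.Gc K (ms e r t δ kg ag (sh Bg) (sh Cg)) (G.da j g) := hg.2.1 j
  have gb : G.Gc K (ms e r t δ kg ag Bg Cg) (G.db j g) := hg.2.2 j
  have nn : ∀ k a B C, ∀ j ≤ K, G.Nn (ms e r t δ k a B C j) := fun _ _ _ _ _ _ => ms_nn h _ _ _ _ _
  have t1 := (sf.da i).mul (sg.da j)
  have t2 := (sf.db i).mul (sg.db j)
  have t3 := (sf.da i).mul (sg.db j)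
  have t4 := (sf.db i).mul (sg.da j)
  have a1 := (fa.mulm h ga (sf.da i) (sg.da j) le_rfl H1).cmul t1 (nn _ _ _ _) 2
  have a2 := (fb.mulm h gb (sf.db i) (sg.db j) le_rfl H2).cmul t2 (nn _ _ _ _) (1 / 2)
  have a3 := fa.mulm h gb (sf.da i) (sg.db j) le_rfl H3
  have a4 := fb.mulm h ga (sf.db i) (sg.da j) le_rfl H4
  have m1 := (hs i j).mulm h a1 (ss i j) ((Ge.Sm.const fun _ => 2).mul t1) k1 L1
  have m2 := (hs i j).mulm h a2 (ss i j) ((Ge.Sm.const fun _ => 1 / 2).mul t2) k1 L2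
  have m3 := (hd i j).mulm h a3 (sd i j) t3 k2 L3
  have m4 := (hd i j).mulm h a4 (sd i j) t4 k2 L4
  have u1 := (ss i j).mul ((Ge.Sm.const (G := G) fun _ => 2).mul t1)
  have u2 := (ss i j).mul ((Ge.Sm.const (G := G) fun _ => 1 / 2).mul t2)
  have u3 := (sd i j).mul t3
  have u4 := (sd i j).mul t4
  exact ((m1.add m2 u1 u2).add m3 (u1.add u2) u3).add m4 ((u1.add u2).add u3) u4

/-- The class of `Lp`. -/
theorem Lp_ms (h : Sz G e r t δ) {K ks kd kf af κ : ℕ} {Bs Cs Bd Cd Bf Cf B C : ℕ → ℕ}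
    {s d : ι → ι → α → E → ℝ} {f : α → E → ℝ}
    (hs : ∀ i j, G.Gc (K + 1) (ms e r t δ ks 0 Bs Cs) (s i j))
    (hd : ∀ i j, G.Gc (K + 1) (ms e r t δ kd 0 Bd Cd) (d i j))
    (ss : ∀ i j, G.Sm (s i j)) (sd : ∀ i j, G.Sm (d i j))
    (hf : G.Gd (K + 1) (ms e r t δ kf af Bf Cf) f) (sf : G.Sm f)
    (k1 : κ ≤ ks + kf) (k2 : κ ≤ kd + kf)
    (H1 : c2 K 0 1 1 Bs Cs Bf Cf B C) (H2 : c2 K 0 0 0 Bs Cs Bf Cf B C)
    (H3 : c2 K 0 0 1 Bd Cd Bf Cf B C) (H4 : c2 K 0 1 0 Bd Cd Bf Cf B C) :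
    G.Gc K (ms e r t δ κ (0 + af) B C) (G.Lp s d f) := by
  refine Ge.Gc.Lp (fun j _ => ms_nn h _ _ _ _ _) (fun j _ => ms_nn h _ _ _ _ _)
    (fun j _ => ms_nn h _ _ _ _ _) hs hd ss sd hf sf fun l hl => ⟨(l + 1 : ℕ) + 1, fun x z hz => ?_⟩
  have n0 := ms_nn h κ (0 + af) B C l x z hz
  have e1 := cv_ms (a := 0) (a' := af) h k1 H1 l hl x z hz
  have e2 := cv_ms (a := 0) (a' := af) h k1 H2 l hl x z hz
  have e3 := cv_ms (a := 0) (a' := af) h k2 H3 l hl x z hz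
  have e4 := cv_ms (a := 0) (a' := af) h k2 H4 l hl x z hz
  refine ⟨e1, e2.trans ?_, e3, e4.trans ?_⟩
  · refine mul_le_mul_of_nonneg_right ?_ n0
    push_cast; linarith
  · refine mul_le_mul_of_nonneg_right ?_ n0
    push_cast; linarith

/-! ## The profiles -/

/-- Exponents `(b₀, b₁, b₂, b₂, …)`. -/
def x3 (b₀ b₁ b₂ : ℕ) : ℕ → ℕ
  | 0 => b₀
  | 1 => b₁
  | _ + 2 => b₂

/-- The hypotheses: true weight `W`, tensors `s_x = 1 + s + d`, `s_y = 1 + s - d`, model `W₀`. -/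
structure Hy (G : Ge α ι E) (e r t δ : α → E → ℝ) (s d : ι → ι → α → E → ℝ) (W W₀ : α → E → ℝ) :
    Prop where
  sz : Sz G e r t δ
  sW : G.Sm W
  sW₀ : G.Sm W₀
  ss : ∀ i j, G.Sm (s i j)
  sd : ∀ i j, G.Sm (d i j)
  hW : G.Gd 3 (ms e r t δ 0 1 (x3 1 1 0) (x3 1 0 0)) W
  hD : G.Gd 2 (ms e r t δ 1 1 (x3 2 1 0) (x3 0 0 0)) fun x z => W x z - W₀ x z
  hs : ∀ i j, G.Gc 3 (ms e r t δ 1 0 (x3 0 0 0) (x3 0 0 0)) (s i j)
  hd : ∀ i j, G.Gc 3 (ms e r t δ 1 0 (x3 1 0 0) (x3 0 0 0)) (d i j)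

end Vale.Agent.P088.R2.H464.B
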