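import Vale.Agent.P088.R2.H464.B.Fd

/-!
# P088: `F^± = Γ_x(W, W) ± Γ_y(W, W)`, `Λ^± F^±`, `Λ^± W`, true against model
-/

open Set Filter
open scoped ContDiff Topology

noncomputable section

set_option linter.unusedSectionVars false

namespace Vale.Agent.P088.R2.H464.B

variable {α ι E : Type*} [NormedAddCommGroup E] [NormedSpace ℝ E] [Fintype ι] [DecidableEq ι]
  {G : Ge α ι E} {e r t δ : α → E → ℝ} {s d : ι → ι → α → E → ℝ} {W W₀ f f' g : α → E → ℝ}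

/-- The identity. -/
def idn (i j : ι) : α → E → ℝ := fun _ _ => if i = j then 1 else 0

/-- Zero. -/
def zr (_ _ : ι) : α → E → ℝ := fun _ _ => 0

theorem sm_idn (i j : ι) : G.Sm (idn i j) := Ge.Sm.const _

theorem sm_zr (i j : ι) : G.Sm (zr i j) := Ge.Sm.const _

theorem gc_idn (K : ℕ) (i j : ι) : G.Gc K (ms e r t δ 0 0 (x3 0 0 0) (x3 0 0 0)) (idn i j) := by
  refine Ge.Gc.const K _ (fun _ => if i = j then 1 else 0) ⟨1, fun x z _ => ?_⟩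
  have : ms e r t δ 0 0 (x3 0 0 0) (x3 0 0 0) 0 x z = 1 := by simp [ms, mn, x3]
  rw [this]
  split <;> simp

theorem gc_zr (K k : ℕ) (B C : ℕ → ℕ) (i j : ι) : G.Gc K (ms e r t δ k 0 B C) (zr i j) :=
  Ge.Gc.zero K _

/-- Bilinearity. -/
theorem Gp_sub_f (sf : G.Sm f) (sf' : G.Sm f') (x : α) {z : E} (hz : z ∈ G.Z x) :
    G.Gp s d (fun x z => f x z - f' x z) g x z = G.Gp s d f g x z - G.Gp s d f' g x z := by
  unfold Ge.Gp
  rw [← Finset.sum_sub_distrib]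
  refine Finset.sum_congr rfl fun i _ => ?_
  rw [← Finset.sum_sub_distrib]
  refine Finset.sum_congr rfl fun j _ => ?_
  rw [da_sub sf sf' i x hz, db_sub sf sf' i x hz]
  ring

theorem Gp_sub_g (sf : G.Sm f) (sf' : G.Sm f') (x : α) {z : E} (hz : z ∈ G.Z x) :
    G.Gp s d g (fun x z => f x z - f' x z) x z = G.Gp s d g f x z - G.Gp s d g f' x z := by
  unfold Ge.Gp
  rw [← Finset.sum_sub_distrib]
  refine Finset.sum_congr rfl fun i _ => ?_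
  rw [← Finset.sum_sub_distrib]
  refine Finset.sum_congr rfl fun j _ => ?_
  rw [da_sub sf sf' j x hz, db_sub sf sf' j x hz]
  ring

/-- The true tensors. -/
def tS (s : ι → ι → α → E → ℝ) : ι → ι → α → E → ℝ := fun i j x z => idn i j x z + s i j x z

theorem tS_sm (hs : ∀ i j, G.Sm (s i j)) (i j : ι) : G.Sm (tS s i j) := (sm_idn i j).add (hs i j)

theorem zr_add (d : ι → ι → α → E → ℝ) : (fun i j x z => zr i j x z + d i j x z) = d := by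
  funext i j x z; simp [zr]

theorem sh_x3 (a b c : ℕ) : sh (x3 a b c) = x3 b c c := by
  funext j
  match j with
  | 0 => rfl
  | 1 => rfl
  | _ + 2 => rfl

variable (H : Hy G e r t δ s d W W₀)

namespace Hy

include H

theorem gcS (K : ℕ) (hK : K ≤ 3) (i j : ι) : G.Gc K (ms e r t δ 0 0 (x3 0 0 0) (x3 0 0 0)) (tS s i j) :=
  (gc_idn K i j).add (((H.hs i j).le hK).monom H.sz (Nat.zero_le _) fun _ _ => ⟨le_rfl, le_rfl⟩)
    (sm_idn i j) (H.ss i j)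

theorem gcd0 (K : ℕ) (hK : K ≤ 3) (i j : ι) : G.Gc K (ms e r t δ 0 0 (x3 1 0 0) (x3 0 0 0)) (d i j) :=
  ((H.hd i j).le hK).monom H.sz (Nat.zero_le _) fun _ _ => ⟨le_rfl, le_rfl⟩

theorem gcW₀ : G.Gd 2 (ms e r t δ 0 1 (x3 1 1 0) (x3 1 0 0)) W₀ := by
  have h1 : G.Gd 2 (ms e r t δ 0 1 (x3 1 1 0) (x3 1 0 0)) fun x z => W x z - W₀ x z :=
    H.hD.monom H.sz (Nat.zero_le _) (by decide)
  have h2 := (H.hW.le (by norm_num : 2 ≤ 3)).sub h1 H.sW (H.sW.sub H.sW₀) fun j _ => ms_nn H.sz _ _ _ _ _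
  exact h2.congr fun x z _ => by ring

end Hy

/-- The class of `B(f, g)` for `f`, `g` of the size of `W`. -/
theorem gp_cls (h : Sz G e r t δ) {K kf kg k₁ k₂ κ : ℕ} (hK : K ≤ 2) {u v : ι → ι → α → E → ℝ}
    (hu : ∀ i j, G.Gc K (ms e r t δ k₁ 0 (x3 0 0 0) (x3 0 0 0)) (u i j))
    (hv : ∀ i j, G.Gc K (ms e r t δ k₂ 0 (x3 1 0 0) (x3 0 0 0)) (v i j))
    (su : ∀ i j, G.Sm (u i j)) (sv : ∀ i j, G.Sm (v i j))
    (hf : G.Gd K (ms e r t δ kf 1 (x3 1 1 0) (x3 1 0 0)) f) (sf : G.Sm f)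
    (hg : G.Gd K (ms e r t δ kg 1 (x3 1 1 0) (x3 1 0 0)) g) (sg : G.Sm g)
    (k1 : κ ≤ k₁ + (kf + kg)) (k2 : κ ≤ k₂ + (kf + kg)) :
    G.Gc K (ms e r t δ κ 2 (x3 2 1 0) (x3 0 0 0)) (G.Gp u v f g) ∧
    G.Gc K (ms e r t δ κ 2 (x3 2 1 1) (x3 1 1 0)) (G.Gm u v f g) := by
  have D1 : c2 K 0 0 0 (sh (x3 1 1 0)) (sh (x3 1 0 0)) (sh (x3 1 1 0)) (sh (x3 1 0 0)) (x3 2 1 0)
      (x3 0 0 0) := by
    have : c2 2 0 0 0 (sh (x3 1 1 0)) (sh (x3 1 0 0)) (sh (x3 1 1 0)) (sh (x3 1 0 0)) (x3 2 1 0)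
      (x3 0 0 0) := by unfold c2; decide
    exact fun j hj => this j (hj.trans hK)
  have D2 : c2 K 0 0 0 (x3 1 1 0) (x3 1 0 0) (x3 1 1 0) (x3 1 0 0) (x3 2 1 0) (x3 0 0 0) := by
    have : c2 2 0 0 0 (x3 1 1 0) (x3 1 0 0) (x3 1 1 0) (x3 1 0 0) (x3 2 1 0) (x3 0 0 0) := by
      unfold c2; decide
    exact fun j hj => this j (hj.trans hK)
  have D3 : c2 K 0 0 0 (sh (x3 1 1 0)) (sh (x3 1 0 0)) (x3 1 1 0) (x3 1 0 0) (x3 2 1 1)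
      (x3 1 1 0) := by
    have : c2 2 0 0 0 (sh (x3 1 1 0)) (sh (x3 1 0 0)) (x3 1 1 0) (x3 1 0 0) (x3 2 1 1)
      (x3 1 1 0) := by unfold c2; decide
    exact fun j hj => this j (hj.trans hK)
  have D4 : c2 K 0 0 0 (x3 1 1 0) (x3 1 0 0) (sh (x3 1 1 0)) (sh (x3 1 0 0)) (x3 2 1 1)
      (x3 1 1 0) := by
    have : c2 2 0 0 0 (x3 1 1 0) (x3 1 0 0) (sh (x3 1 1 0)) (sh (x3 1 0 0)) (x3 2 1 1)
      (x3 1 1 0) := by unfold c2; decide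
    exact fun j hj => this j (hj.trans hK)
  have M1 : c2 K 0 0 0 (x3 0 0 0) (x3 0 0 0) (x3 2 1 0) (x3 0 0 0) (x3 2 1 0) (x3 0 0 0) := by
    have : c2 2 0 0 0 (x3 0 0 0) (x3 0 0 0) (x3 2 1 0) (x3 0 0 0) (x3 2 1 0) (x3 0 0 0) := by
      unfold c2; decide
    exact fun j hj => this j (hj.trans hK)
  have M2 : c2 K 0 0 0 (x3 1 0 0) (x3 0 0 0) (x3 2 1 1) (x3 1 1 0) (x3 2 1 0) (x3 0 0 0) := by
    have : c2 2 0 0 0 (x3 1 0 0) (x3 0 0 0) (x3 2 1 1) (x3 1 1 0) (x3 2 1 0) (x3 0 0 0) := by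
      unfold c2; decide
    exact fun j hj => this j (hj.trans hK)
  have M3 : c2 K 0 0 0 (x3 1 0 0) (x3 0 0 0) (x3 2 1 0) (x3 0 0 0) (x3 2 1 1) (x3 1 1 0) := by
    have : c2 2 0 0 0 (x3 1 0 0) (x3 0 0 0) (x3 2 1 0) (x3 0 0 0) (x3 2 1 1) (x3 1 1 0) := by
      unfold c2; decide
    exact fun j hj => this j (hj.trans hK)
  have M4 : c2 K 0 0 0 (x3 0 0 0) (x3 0 0 0) (x3 2 1 1) (x3 1 1 0) (x3 2 1 1) (x3 1 1 0) := by
    have : c2 2 0 0 0 (x3 0 0 0) (x3 0 0 0) (x3 2 1 1) (x3 1 1 0) (x3 2 1 1) (x3 1 1 0) := by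
      unfold c2; decide
    exact fun j hj => this j (hj.trans hK)
  exact ⟨Gp_ms h hu hv su sv hf sf hg sg _ _ _ _ _ _ _ _ D1 D2 D3 D4 k1 k2 M1 M1 M2 M2,
    Gp_ms h hv hu sv su hf sf hg sg _ _ _ _ _ _ _ _ D1 D2 D3 D4 k2 k1 M3 M3 M4 M4⟩

/-- `F⁺`, `F⁻`. -/
def Fp (G : Ge α ι E) (s d : ι → ι → α → E → ℝ) (W : α → E → ℝ) : α → E → ℝ := G.Gp (tS s) d W W

/-- `F⁻`. -/
def Fm (G : Ge α ι E) (s d : ι → ι → α → E → ℝ) (W : α → E → ℝ) : α → E → ℝ := G.Gm (tS s) d W W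

/-- The model. -/
def Fp0 (G : Ge α ι E) (W₀ : α → E → ℝ) : α → E → ℝ := G.Gp idn zr W₀ W₀

/-- The model. -/
def Fm0 (G : Ge α ι E) (W₀ : α → E → ℝ) : α → E → ℝ := G.Gm idn zr W₀ W₀

theorem dif_eq (sW : G.Sm W) (sW₀ : G.Sm W₀) (x : α) {z : E} (hz : z ∈ G.Z x) :
    (Fp G s d W x z - Fp0 G W₀ x z = G.Gp s d W W x z +
      (G.Gp idn zr (fun x z => W x z - W₀ x z) W x z +
        G.Gp idn zr W₀ (fun x z => W x z - W₀ x z) x z)) ∧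
    (Fm G s d W x z - Fm0 G W₀ x z = G.Gm s d W W x z +
      (G.Gm idn zr (fun x z => W x z - W₀ x z) W x z +
        G.Gm idn zr W₀ (fun x z => W x z - W₀ x z) x z)) := by
  have e1 : G.Gp (tS s) d W W x z = G.Gp idn zr W W x z + G.Gp s d W W x z := by
    have := Gp_add_s (G := G) idn s zr d W W x z
    rw [zr_add] at this
    exact this
  have e2 : G.Gm (tS s) d W W x z = G.Gm idn zr W W x z + G.Gm s d W W x z := by
    have := Gp_add_s (G := G) zr d idn s W W x z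
    rw [zr_add] at this
    exact this
  constructor
  · rw [Fp, Fp0, e1, Gp_sub_f sW sW₀ x hz, Gp_sub_g sW sW₀ x hz]
    ring
  · have e3 : G.Gm idn zr (fun x z => W x z - W₀ x z) W x z = G.Gm idn zr W W x z -
        G.Gm idn zr W₀ W x z := Gp_sub_f sW sW₀ x hz
    have e4 : G.Gm idn zr W₀ (fun x z => W x z - W₀ x z) x z = G.Gm idn zr W₀ W x z -
        G.Gm idn zr W₀ W₀ x z := Gp_sub_g sW sW₀ x hz
    rw [Fm, Fm0, e2, e3, e4]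
    ring

namespace Hy

include H

theorem sFp : G.Sm (Fp G s d W) := Ge.Sm.Gp (tS_sm H.ss) H.sd H.sW H.sW
theorem sFm : G.Sm (Fm G s d W) := Ge.Sm.Gm (tS_sm H.ss) H.sd H.sW H.sW
theorem sFp0 : G.Sm (Fp0 G W₀) := Ge.Sm.Gp sm_idn sm_zr H.sW₀ H.sW₀
theorem sFm0 : G.Sm (Fm0 G W₀) := Ge.Sm.Gm sm_idn sm_zr H.sW₀ H.sW₀

theorem F_cls : G.Gc 2 (ms e r t δ 0 2 (x3 2 1 0) (x3 0 0 0)) (Fp G s d W) ∧
    G.Gc 2 (ms e r t δ 0 2 (x3 2 1 1) (x3 1 1 0)) (Fm G s d W) :=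
  gp_cls H.sz le_rfl (H.gcS 2 (by norm_num)) (H.gcd0 2 (by norm_num)) (tS_sm H.ss) H.sd
    (H.hW.le (by norm_num)) H.sW (H.hW.le (by norm_num)) H.sW (Nat.zero_le _) (Nat.zero_le _)

theorem dF_cls : G.Gc 2 (ms e r t δ 1 2 (x3 2 1 0) (x3 0 0 0))
      (fun x z => Fp G s d W x z - Fp0 G W₀ x z) ∧
    G.Gc 2 (ms e r t δ 1 2 (x3 2 1 1) (x3 1 1 0)) (fun x z => Fm G s d W x z - Fm0 G W₀ x z) := by
  have hD : G.Gd 2 (ms e r t δ 1 1 (x3 1 1 0) (x3 1 0 0)) fun x z => W x z - W₀ x z :=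
    H.hD.monom H.sz le_rfl (by decide)
  have sD := H.sW.sub H.sW₀
  have a1 := gp_cls (κ := 1) H.sz le_rfl (fun i j => (H.hs i j).le (by norm_num : 2 ≤ 3))
    (fun i j => (H.hd i j).le (by norm_num : 2 ≤ 3)) H.ss H.sd (H.hW.le (by norm_num)) H.sW (H.hW.le (by norm_num)) H.sW
    (by norm_num) (by norm_num)
  have a2 := gp_cls (G := G) (κ := 1) (k₁ := 0) (k₂ := 0) (u := idn) (v := zr) H.sz le_rfl (gc_idn 2)
    (gc_zr 2 0 _ _) sm_idn sm_zr hD sD (H.hW.le (by norm_num)) H.sW (by norm_num) (by norm_num)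
  have a3 := gp_cls (G := G) (κ := 1) (k₁ := 0) (k₂ := 0) (u := idn) (v := zr) H.sz le_rfl (gc_idn 2)
    (gc_zr 2 0 _ _) sm_idn sm_zr H.gcW₀ H.sW₀ hD sD (by norm_num) (by norm_num)
  have s1 := Ge.Sm.Gp (G := G) H.ss H.sd H.sW H.sW
  have s2 := Ge.Sm.Gp (G := G) sm_idn sm_zr sD H.sW
  have s3 := Ge.Sm.Gp (G := G) sm_idn sm_zr H.sW₀ sD
  have t1 := Ge.Sm.Gm (G := G) H.ss H.sd H.sW H.sW
  have t2 := Ge.Sm.Gm (G := G) sm_idn sm_zr sD H.sW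
  have t3 := Ge.Sm.Gm (G := G) sm_idn sm_zr H.sW₀ sD
  exact ⟨(a1.1.add (a2.1.add a3.1 s2 s3) s1 (s2.add s3)).congr fun x z hz =>
      (dif_eq H.sW H.sW₀ x hz).1,
    (a1.2.add (a2.2.add a3.2 t2 t3) t1 (t2.add t3)).congr fun x z hz => (dif_eq H.sW H.sW₀ x hz).2⟩

end Hy

/-! ## `Λ^±` of a function -/

theorem lp_dif (hs : ∀ i j, G.Sm (s i j)) (hd : ∀ i j, G.Sm (d i j)) (sf : G.Sm f) (sg : G.Sm g)
    (x : α) {z : E} (hz : z ∈ G.Z x) :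
    (G.Lp (tS s) d f x z - G.Lp idn zr g x z =
      G.Lp s d f x z + G.Lp idn zr (fun x z => f x z - g x z) x z) ∧
    (G.Lm (tS s) d f x z - G.Lm idn zr g x z =
      G.Lm s d f x z + G.Lm idn zr (fun x z => f x z - g x z) x z) := by
  constructor
  · have e1 := Lp_add_s (G := G) sm_idn hs sm_zr hd sf x hz
    rw [zr_add] at e1
    have e2 := Lp_sub_f (G := G) sm_idn sm_zr sf sg x hz
    rw [e2]
    have e3 : G.Lp (tS s) d f x z = G.Lp idn zr f x z + G.Lp s d f x z := e1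
    rw [e3]
    ring
  · have e1 := Lp_add_s (G := G) sm_zr hd sm_idn hs sf x hz
    rw [zr_add] at e1
    have e2 := Lp_sub_f (G := G) sm_zr sm_idn sf sg x hz
    have e3 : G.Lm (tS s) d f x z = G.Lm idn zr f x z + G.Lm s d f x z := e1
    have e4 : G.Lm idn zr (fun x z => f x z - g x z) x z = G.Lm idn zr f x z - G.Lm idn zr g x z :=
      e2
    rw [e3, e4]
    ring

namespace Hy

include H

/-- **`Λ⁺ F⁺ = O(δ e²)` up to the model.** -/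
theorem LpFp : G.O (mn e r t δ 1 2 0 0) fun x z =>
    G.Lp (tS s) d (Fp G s d W) x z - G.Lp idn zr (Fp0 G W₀) x z := by
  have a1 : G.Gc 0 (ms e r t δ 1 (0 + 2) (x3 0 0 0) (x3 0 0 0)) (G.Lp s d (Fp G s d W)) :=
    Lp_ms H.sz (fun i j => (H.hs i j).le (by norm_num)) (fun i j => (H.hd i j).le (by norm_num))
      H.ss H.sd H.F_cls.1.gd H.sFp (by norm_num) (by norm_num) (by unfold c2; decide)
      (by unfold c2; decide) (by unfold c2; decide) (by unfold c2; decide)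
  have a2 : G.Gc 0 (ms e r t δ 1 (0 + 2) (x3 0 0 0) (x3 0 0 0))
      (G.Lp idn zr fun x z => Fp G s d W x z - Fp0 G W₀ x z) :=
    Lp_ms (ks := 0) (kd := 0) H.sz (gc_idn 1) (gc_zr 1 0 (x3 1 0 0) (x3 0 0 0)) sm_idn sm_zr
      H.dF_cls.1.gd (H.sFp.sub H.sFp0) (by norm_num) (by norm_num) (by unfold c2; decide)
      (by unfold c2; decide) (by unfold c2; decide) (by unfold c2; decide)
  exact (Ge.O.add a1 a2).congr fun x z hz => (lp_dif H.ss H.sd H.sFp H.sFp0 x hz).1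

/-- **`Λ⁻ F⁺ = O(δ e² r)` up to the model.** -/
theorem LmFp : G.O (mn e r t δ 1 2 1 0) fun x z =>
    G.Lm (tS s) d (Fp G s d W) x z - G.Lm idn zr (Fp0 G W₀) x z := by
  have a1 : G.Gc 0 (ms e r t δ 1 (0 + 2) (x3 1 0 0) (x3 0 0 0)) (G.Lp d s (Fp G s d W)) :=
    Lp_ms H.sz (fun i j => (H.hd i j).le (by norm_num)) (fun i j => (H.hs i j).le (by norm_num))
      H.sd H.ss H.F_cls.1.gd H.sFp (by norm_num) (by norm_num) (by unfold c2; decide)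
      (by unfold c2; decide) (by unfold c2; decide) (by unfold c2; decide)
  have a2 : G.Gc 0 (ms e r t δ 1 (0 + 2) (x3 1 0 0) (x3 0 0 0))
      (G.Lp zr idn fun x z => Fp G s d W x z - Fp0 G W₀ x z) :=
    Lp_ms (ks := 0) (kd := 0) H.sz (gc_zr 1 0 (x3 1 0 0) (x3 0 0 0)) (gc_idn 1) sm_zr sm_idn
      H.dF_cls.1.gd (H.sFp.sub H.sFp0) (by norm_num) (by norm_num) (by unfold c2; decide)
      (by unfold c2; decide) (by unfold c2; decide) (by unfold c2; decide)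
  exact (Ge.O.add a1 a2).congr fun x z hz => (lp_dif H.ss H.sd H.sFp H.sFp0 x hz).2

/-- **`Λ⁺ F⁻ = O(δ e² r)` up to the model.** -/
theorem LpFm : G.O (mn e r t δ 1 2 1 0) fun x z =>
    G.Lp (tS s) d (Fm G s d W) x z - G.Lp idn zr (Fm0 G W₀) x z := by
  have a1 : G.Gc 0 (ms e r t δ 1 (0 + 2) (x3 1 0 0) (x3 0 0 0)) (G.Lp s d (Fm G s d W)) :=
    Lp_ms H.sz (fun i j => (H.hs i j).le (by norm_num)) (fun i j => (H.hd i j).le (by norm_num))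
      H.ss H.sd H.F_cls.2.gd H.sFm (by norm_num) (by norm_num) (by unfold c2; decide)
      (by unfold c2; decide) (by unfold c2; decide) (by unfold c2; decide)
  have a2 : G.Gc 0 (ms e r t δ 1 (0 + 2) (x3 1 0 0) (x3 0 0 0))
      (G.Lp idn zr fun x z => Fm G s d W x z - Fm0 G W₀ x z) :=
    Lp_ms (ks := 0) (kd := 0) H.sz (gc_idn 1) (gc_zr 1 0 (x3 1 0 0) (x3 0 0 0)) sm_idn sm_zr
      H.dF_cls.2.gd (H.sFm.sub H.sFm0) (by norm_num) (by norm_num) (by unfold c2; decide)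
      (by unfold c2; decide) (by unfold c2; decide) (by unfold c2; decide)
  exact (Ge.O.add a1 a2).congr fun x z hz => (lp_dif H.ss H.sd H.sFm H.sFm0 x hz).1

/-- **`Λ⁻ F⁻ = O(δ e ν)` up to the model.** -/
theorem LmFm : G.O (mn e r t δ 1 2 1 1) fun x z =>
    G.Lm (tS s) d (Fm G s d W) x z - G.Lm idn zr (Fm0 G W₀) x z := by
  have a1 : G.Gc 0 (ms e r t δ 1 (0 + 2) (x3 1 0 0) (x3 1 0 0)) (G.Lp d s (Fm G s d W)) :=
    Lp_ms H.sz (fun i j => (H.hd i j).le (by norm_num)) (fun i j => (H.hs i j).le (by norm_num))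
      H.sd H.ss H.F_cls.2.gd H.sFm (by norm_num) (by norm_num) (by unfold c2; decide)
      (by unfold c2; decide) (by unfold c2; decide) (by unfold c2; decide)
  have a2 : G.Gc 0 (ms e r t δ 1 (0 + 2) (x3 1 0 0) (x3 1 0 0))
      (G.Lp zr idn fun x z => Fm G s d W x z - Fm0 G W₀ x z) :=
    Lp_ms (ks := 0) (kd := 0) H.sz (gc_zr 1 0 (x3 1 0 0) (x3 0 0 0)) (gc_idn 1) sm_zr sm_idn
      H.dF_cls.2.gd (H.sFm.sub H.sFm0) (by norm_num) (by norm_num) (by unfold c2; decide)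
      (by unfold c2; decide) (by unfold c2; decide) (by unfold c2; decide)
  exact (Ge.O.add a1 a2).congr fun x z hz => (lp_dif H.ss H.sd H.sFm H.sFm0 x hz).2

/-- `f^± = Λ^± W`: size and difference. -/
theorem f_cls : (G.Gc 2 (ms e r t δ 0 1 (x3 0 0 0) (x3 0 0 0)) (G.Lp (tS s) d W) ∧
      G.Gc 2 (ms e r t δ 0 1 (x3 0 0 0) (x3 0 0 0)) (G.Lm (tS s) d W)) ∧
    (G.Gc 1 (ms e r t δ 1 1 (x3 0 0 0) (x3 0 0 0)) (fun x z =>
        G.Lp (tS s) d W x z - G.Lp idn zr W₀ x z) ∧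
      G.Gc 1 (ms e r t δ 1 1 (x3 0 0 0) (x3 0 0 0)) (fun x z =>
        G.Lm (tS s) d W x z - G.Lm idn zr W₀ x z)) := by
  have hd0 : ∀ i j, G.Gc 3 (ms e r t δ 1 0 (x3 0 0 0) (x3 0 0 0)) (d i j) := fun i j =>
    (H.hd i j).monom H.sz le_rfl (by decide)
  have hd00 : ∀ i j, G.Gc 3 (ms e r t δ 0 0 (x3 0 0 0) (x3 0 0 0)) (d i j) := fun i j =>
    (hd0 i j).monom H.sz (by norm_num) (by decide)
  have hW : G.Gd 3 (ms e r t δ 0 1 (x3 0 0 0) (x3 0 0 0)) W := H.hW.monom H.sz le_rfl (by decide)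
  have hD : G.Gd 2 (ms e r t δ 1 1 (x3 0 0 0) (x3 0 0 0)) fun x z => W x z - W₀ x z :=
    H.hD.monom H.sz le_rfl (by decide)
  have sD := H.sW.sub H.sW₀
  have c0 : ∀ K : ℕ, ∀ s₁ s₂ s₀ : ℕ, c2 K s₁ s₂ s₀ (x3 0 0 0) (x3 0 0 0) (x3 0 0 0) (x3 0 0 0) (x3 0 0 0)
      (x3 0 0 0) := by
    have e0 : ∀ j, x3 0 0 0 j = 0 := fun j => by
      match j with
      | 0 => rfl
      | 1 => rfl
      | _ + 2 => rfl
    intro K s₁ s₂ s₀ j _ i _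
    simp only [e0]
    omega
  refine ⟨⟨?_, ?_⟩, ?_, ?_⟩
  · exact Lp_ms H.sz (H.gcS 3 le_rfl) hd00 (tS_sm H.ss) H.sd hW H.sW (by norm_num) (by norm_num)
      (c0 _ _ _ _) (c0 _ _ _ _) (c0 _ _ _ _) (c0 _ _ _ _)
  · exact Lp_ms H.sz hd00 (H.gcS 3 le_rfl) H.sd (tS_sm H.ss) hW H.sW (by norm_num) (by norm_num)
      (c0 _ _ _ _) (c0 _ _ _ _) (c0 _ _ _ _) (c0 _ _ _ _)
  · have a1 : G.Gc 1 (ms e r t δ 1 (0 + 1) (x3 0 0 0) (x3 0 0 0)) (G.Lp s d W) :=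
      Lp_ms H.sz (fun i j => (H.hs i j).le (by norm_num)) (fun i j => (hd0 i j).le (by norm_num))
        H.ss H.sd (hW.le (by norm_num)) H.sW (by norm_num) (by norm_num)
        (c0 _ _ _ _) (c0 _ _ _ _) (c0 _ _ _ _) (c0 _ _ _ _)
    have a2 : G.Gc 1 (ms e r t δ 1 (0 + 1) (x3 0 0 0) (x3 0 0 0))
        (G.Lp idn zr fun x z => W x z - W₀ x z) :=
      Lp_ms (ks := 0) (kd := 0) H.sz (gc_idn 2) (gc_zr 2 0 (x3 0 0 0) (x3 0 0 0)) sm_idn sm_zr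
        hD sD (by norm_num) (by norm_num) (c0 _ _ _ _) (c0 _ _ _ _) (c0 _ _ _ _) (c0 _ _ _ _)
    exact (a1.add a2 (Ge.Sm.Lp H.ss H.sd H.sW) (Ge.Sm.Lp sm_idn sm_zr sD)).congr fun x z hz =>
      (lp_dif H.ss H.sd H.sW H.sW₀ x hz).1
  · have a1 : G.Gc 1 (ms e r t δ 1 (0 + 1) (x3 0 0 0) (x3 0 0 0)) (G.Lm s d W) :=
      Lp_ms H.sz (fun i j => (hd0 i j).le (by norm_num)) (fun i j => (H.hs i j).le (by norm_num))
        H.sd H.ss (hW.le (by norm_num)) H.sW (by norm_num) (by norm_num)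
        (c0 _ _ _ _) (c0 _ _ _ _) (c0 _ _ _ _) (c0 _ _ _ _)
    have a2 : G.Gc 1 (ms e r t δ 1 (0 + 1) (x3 0 0 0) (x3 0 0 0))
        (G.Lm idn zr fun x z => W x z - W₀ x z) :=
      Lp_ms (ks := 0) (kd := 0) H.sz (gc_zr 2 0 (x3 0 0 0) (x3 0 0 0)) (gc_idn 2) sm_zr sm_idn
        hD sD (by norm_num) (by norm_num) (c0 _ _ _ _) (c0 _ _ _ _) (c0 _ _ _ _) (c0 _ _ _ _)
    exact (a1.add a2 (Ge.Sm.Lm H.ss H.sd H.sW) (Ge.Sm.Lm sm_idn sm_zr sD)).congr fun x z hz =>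
      (lp_dif H.ss H.sd H.sW H.sW₀ x hz).2

/-- `Λ^± Λ^± W = O(e)`. -/
theorem LL : G.O (mn e r t δ 0 1 0 0) (G.Lp (tS s) d (G.Lp (tS s) d W)) ∧
    G.O (mn e r t δ 0 1 0 0) (G.Lp (tS s) d (G.Lm (tS s) d W)) ∧
    G.O (mn e r t δ 0 1 0 0) (G.Lm (tS s) d (G.Lp (tS s) d W)) ∧
    G.O (mn e r t δ 0 1 0 0) (G.Lm (tS s) d (G.Lm (tS s) d W)) := by
  have hd00 : ∀ i j, G.Gc 1 (ms e r t δ 0 0 (x3 0 0 0) (x3 0 0 0)) (d i j) := fun i j =>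
    ((H.hd i j).le (by norm_num)).monom H.sz (by norm_num) (by decide)
  have sS := tS_sm (G := G) H.ss
  have sp := Ge.Sm.Lp (G := G) sS H.sd H.sW
  have sm := Ge.Sm.Lm (G := G) sS H.sd H.sW
  have D : c2 0 0 1 1 (x3 0 0 0) (x3 0 0 0) (x3 0 0 0) (x3 0 0 0) (x3 0 0 0) (x3 0 0 0) := by
    unfold c2; decide
  have D2 : c2 0 0 0 0 (x3 0 0 0) (x3 0 0 0) (x3 0 0 0) (x3 0 0 0) (x3 0 0 0) (x3 0 0 0) := by
    unfold c2; decide
  have D3 : c2 0 0 0 1 (x3 0 0 0) (x3 0 0 0) (x3 0 0 0) (x3 0 0 0) (x3 0 0 0) (x3 0 0 0) := by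
    unfold c2; decide
  have D4 : c2 0 0 1 0 (x3 0 0 0) (x3 0 0 0) (x3 0 0 0) (x3 0 0 0) (x3 0 0 0) (x3 0 0 0) := by
    unfold c2; decide
  have a : ∀ f, G.Gc 2 (ms e r t δ 0 1 (x3 0 0 0) (x3 0 0 0)) f → G.Sm f →
      G.Gc 0 (ms e r t δ 0 (0 + 1) (x3 0 0 0) (x3 0 0 0)) (G.Lp (tS s) d f) ∧
      G.Gc 0 (ms e r t δ 0 (0 + 1) (x3 0 0 0) (x3 0 0 0)) (G.Lm (tS s) d f) := fun f hf sf =>
    ⟨Lp_ms H.sz (H.gcS 1 (by norm_num)) hd00 sS H.sd hf.gd sf (by norm_num) (by norm_num) D D2 D3 D4,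
      Lp_ms H.sz hd00 (H.gcS 1 (by norm_num)) H.sd sS hf.gd sf (by norm_num) (by norm_num) D D2 D3 D4⟩
  have h1 := a _ H.f_cls.1.1 sp
  have h2 := a _ H.f_cls.1.2 sm
  exact ⟨h1.1, h2.1, h1.2, h2.2⟩

end Hy

end Vale.Agent.P088.R2.H464.B
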