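import Vale.Agent.P088.R2.H464.B.Fam
import Vale.Agent.P088.R2.H551.E.Dens

/-!
# P088: frozen coefficients, the star density, true against model
-/

open MeasureTheory Set Filter
open scoped ContDiff Topology

noncomputable section

set_option linter.unusedSectionVars false

namespace Vale.Agent.P088.R2.H464.B

open Vale.Agent.P088.R2.H961.GW Vale.Agent.P088.R2.H644 Vale.Agent.P088.R2.H551.E

section gen

variable {E ι κ : Type*} [NormedAddCommGroup E] [NormedSpace ℝ E] [Fintype ι] [Fintype κ]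

/-- The density of the exact identity. -/
def cdg (σ : Sl E ι) (τ : Sl E κ) (v₁ v₂ W a b : E → ℝ) (z : E) : ℝ :=
  8 * Ch.TH σ τ W z (Ch.XX σ W a z) (Ch.XX τ W b z) + 4 * sk σ τ W a b z +
    (σ.zz v₁ W z * a z ^ 2 + τ.zz v₂ W z * b z ^ 2 + zm σ τ W z * (a z * b z))

variable {σ : Sl E ι} {τ : Sl E κ} {U : Set E} {θ : E → ℝ} {v₁ v₂ W a b : E → ℝ}

theorem tsk (ok : σ.Ok U θ) (ot : τ.Ok U θ) (hW : Sm U W) (ha : Te U a) (hb : Te U b) :
    Te U (sk σ τ W a b) := by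
  have hU := ok.op
  have h1 : Te U fun z => τ.Γ (σ.Λ W) b z - σ.Γ (τ.Λ W) b z :=
    (ot.tG (ok.sL hW) hb).sub hU (ok.tG (ot.sL hW) hb)
  have h2 : Te U fun z => τ.Γ (σ.Λ W) a z - σ.Γ (τ.Λ W) a z :=
    (ot.tG (ok.sL hW) ha).sub hU (ok.tG (ot.sL hW) ha)
  exact (h1.mul_left hU ha.sm).sub hU (h2.mul_left hU hb.sm)

theorem szz (ok : σ.Ok U θ) (hv : Sm U v₁) (hW : Sm U W) : Sm U (σ.zz v₁ W) :=
  (((contDiffOn_const.mul (ok.sL (ok.sF hW))).neg).sub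
    (contDiffOn_const.mul (ok.sL (ok.sL hW)))).add (contDiffOn_const.mul (ok.sG hW hv))

theorem tz1 (ok : σ.Ok U θ) (hv : Sm U v₁) (hW : Sm U W) (ha : Te U a) :
    Te U fun z => σ.zz v₁ W z * a z ^ 2 := (ha.sq ok.op).mul_left ok.op (szz ok hv hW)

theorem tz2 (ok : σ.Ok U θ) (ot : τ.Ok U θ) (hW : Sm U W) (ha : Te U a) (hb : Te U b) :
    Te U fun z => zm σ τ W z * (a z * b z) :=
  (ha.mul_right ok.op hb.sm).mul_left ok.op (szm ok ot hW)

theorem tcdg (ok : σ.Ok U θ) (ot : τ.Ok U θ) (hv₁ : Sm U v₁) (hv₂ : Sm U v₂) (hW : Sm U W)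
    (ha : Te U a) (hb : Te U b) : Te U (cdg σ τ v₁ v₂ W a b) :=
  (((tTH ok ot hW ha hb).cmul ok.op 8).add ok.op ((tsk ok ot hW ha hb).cmul ok.op 4)).add ok.op
    (((tz1 ok hv₁ hW ha).add ok.op (tz1 ot hv₂ hW hb)).add ok.op (tz2 ok ot hW ha hb))

variable [MeasureSpace E] [FiniteDimensional ℝ E] [BorelSpace E]
  [(volume : Measure E).IsAddHaarMeasure]

/-- **The star density and the density of the exact identity have the same integral.** -/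
theorem In_sta (ok : σ.Ok U θ) (ot : τ.Ok U θ) (c : Cm σ τ U) (hv₁ : Sm U v₁) (hv₂ : Sm U v₂)
    (h₁ : ∀ z ∈ U, ∀ k, τ.D k v₁ z = 0) (h₂ : ∀ z ∈ U, ∀ i, σ.D i v₂ z = 0) (hW : Sm U W)
    (ha : Te U a) (hb : Te U b) :
    In U θ (sta σ τ v₁ v₂ W a b) = In U θ (cdg σ τ v₁ v₂ W a b) := by
  have hU := ok.op
  have e1 := T_dn ok ot c hv₁ hv₂ h₁ h₂ hW ha hb
  have e2 := tid ok ot c hv₁ hv₂ h₁ h₂ hW ha hb
  have e3 : In U θ (dn σ τ v₁ v₂ W a b) = In U θ (sqd σ τ v₁ v₂ W a b) +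
      In U θ (sta σ τ v₁ v₂ W a b) := by
    unfold dn
    rw [In_add hU ok.ts (tsqd ok ot hv₁ hv₂ hW ha hb) (tsta ok ot hv₁ hv₂ hW ha hb)]
  have e4 : In U θ (sqd σ τ v₁ v₂ W a b) = In U θ (fun z => σ.P v₁ W a z ^ 2) +
      In U θ (fun z => τ.P v₂ W b z ^ 2) + In U θ (fun z => τ.P v₂ W a z ^ 2) +
      In U θ (fun z => σ.P v₁ W b z ^ 2) := by
    unfold sqd
    rw [In_add hU ok.ts ((((ok.tP hv₁ hW ha).sq hU).add hU ((ot.tP hv₂ hW hb).sq hU)).add hU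
        ((ot.tP hv₂ hW ha).sq hU)) ((ok.tP hv₁ hW hb).sq hU),
      In_add hU ok.ts (((ok.tP hv₁ hW ha).sq hU).add hU ((ot.tP hv₂ hW hb).sq hU))
        ((ot.tP hv₂ hW ha).sq hU),
      In_add hU ok.ts ((ok.tP hv₁ hW ha).sq hU) ((ot.tP hv₂ hW hb).sq hU)]
  have e5 : In U θ (cdg σ τ v₁ v₂ W a b) =
      8 * In U θ (fun z => Ch.TH σ τ W z (Ch.XX σ W a z) (Ch.XX τ W b z)) +
      4 * In U θ (sk σ τ W a b) +
      (In U θ (fun z => σ.zz v₁ W z * a z ^ 2) + In U θ (fun z => τ.zz v₂ W z * b z ^ 2) +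
        In U θ (fun z => zm σ τ W z * (a z * b z))) := by
    unfold cdg
    rw [In_add hU ok.ts (((tTH ok ot hW ha hb).cmul hU 8).add hU ((tsk ok ot hW ha hb).cmul hU 4))
        (((tz1 ok hv₁ hW ha).add hU (tz1 ot hv₂ hW hb)).add hU (tz2 ok ot hW ha hb)),
      In_add hU ok.ts ((tTH ok ot hW ha hb).cmul hU 8) ((tsk ok ot hW ha hb).cmul hU 4),
      In_add hU ok.ts ((tz1 ok hv₁ hW ha).add hU (tz1 ot hv₂ hW hb)) (tz2 ok ot hW ha hb),
      In_add hU ok.ts (tz1 ok hv₁ hW ha) (tz1 ot hv₂ hW hb), In_cmul, In_cmul]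
  have e6 : In U θ (fun z => Ch.TH σ τ W z (Ch.XX σ W a z) (Ch.XX τ W b z)) =
      In U θ (σ.Hd W a) + 2 * In U θ (Md σ τ W a b) + In U θ (τ.Hd W b) := by
    rw [In_congr hU (g := fun z => σ.Hd W a z + 2 * Md σ τ W a b z + τ.Hd W b z)
      fun z hz => Ch.TH_XX ok ot hW ha.sm hb.sm hz,
      In_add hU ok.ts ((ok.tHd hW ha).add hU ((Ch.tMd ok ot hW ha hb).cmul hU 2)) (ot.tHd hW hb),
      In_add hU ok.ts (ok.tHd hW ha) ((Ch.tMd ok ot hW ha hb).cmul hU 2), In_cmul]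
  rw [e5, e6]
  linarith

end gen

variable {α ι E : Type*} [NormedAddCommGroup E] [NormedSpace ℝ E] [Fintype ι] [DecidableEq ι]
  {G : Ge α ι E} {e r t δ κ μ ν η : α → E → ℝ} {s d : ι → ι → α → E → ℝ}
  {W W₀ : α → E → ℝ}

theorem cdg_cd (x : α) (β γ : E → ℝ) (z : E) :
    cdg (SX G s d x) (SY G s d x) (fun _ => 0) (fun _ => 0) (W x) (fun z => β z + γ z)
      (fun z => β z - γ z) z = cd G s d W (fun _ => β) (fun _ => γ) x z := rfl

variable [MeasureSpace E] [FiniteDimensional ℝ E] [BorelSpace E]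
  [(volume : Measure E).IsAddHaarMeasure]

/-- **FR2.** The star densities of the true weight and of the model differ by
`C η (e² β² + (e/μ) (|Zβ|² + ν² γ² + |Kγ|²) + |Dγ|²)`, uniformly in the family and in the test
functions `a = β + γ`, `b = β - γ`. -/
theorem fr2 (H : Hy G e r t δ s d W W₀) (H₀ : Hy G e r t δ zr zr W₀ W₀) (hm : Hm G r κ s d)
    (h : Hs G s d) (S : Sc G e r t δ κ μ ν η) : ∃ C, 0 ≤ C ∧ ∀ x, ∀ β γ D : E → ℝ,
    Te (G.Z x) β → Te (G.Z x) γ → IntegrableOn D (G.Z x) →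
    (∀ z ∈ G.Z x, η x z * Qd G W₀ e μ ν (fun _ => β) (fun _ => γ) x z ≤ D z) →
    |In (G.Z x) (fun _ => 1) (sta (SX G s d x) (SY G s d x) (fun _ => 0) (fun _ => 0) (W x)
        (fun z => β z + γ z) fun z => β z - γ z) -
      In (G.Z x) (fun _ => 1) (sta (SX G zr zr x) (SY G zr zr x) (fun _ => 0) (fun _ => 0) (W₀ x)
        (fun z => β z + γ z) fun z => β z - γ z)| ≤ C * ∫ z in G.Z x, D z := by
  obtain ⟨C, hC0, hC⟩ := cd_pt H H₀ hm h S
  refine ⟨C, hC0, fun x β γ D hβ hγ hD hle => ?_⟩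
  have ok := h.okx x
  have ot := h.oky x
  have cm := h.cm x
  have ok0 := (hs_zr (G := G)).okx x
  have ot0 := (hs_zr (G := G)).oky x
  have cm0 := (hs_zr (G := G)).cm x
  have hU := G.op x
  have ha : Te (G.Z x) fun z => β z + γ z := hβ.add hU hγ
  have hb : Te (G.Z x) fun z => β z - γ z := hβ.sub hU hγ
  have s0 : Sm (G.Z x) fun _ : E => (0 : ℝ) := contDiffOn_const
  have v0 : ∀ (σ : Sl E ι), ∀ z ∈ G.Z x, ∀ k, σ.D k (fun _ => (0 : ℝ)) z = 0 := fun σ z _ k =>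
    D_const σ 0 k z
  rw [In_sta ok ot cm s0 s0 (v0 _) (v0 _) (H.sW x) ha hb,
    In_sta ok0 ot0 cm0 s0 s0 (v0 _) (v0 _) (H.sW₀ x) ha hb]
  have t1 := tcdg ok ot s0 s0 (H.sW x) ha hb
  have t2 := tcdg ok0 ot0 s0 s0 (H.sW₀ x) ha hb
  rw [← In_sub hU contDiffOn_const t1 t2]
  have t3 := te_int hU (θ := fun _ => (1 : ℝ)) contDiffOn_const (t1.sub hU t2)
  unfold In
  rw [← integral_const_mul]
  refine (abs_integral_le_integral_abs).trans ?_
  refine setIntegral_mono_on t3.abs (hD.const_mul C) hU.measurableSet fun z hz => ?_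
  rw [one_mul]
  exact (hC x β γ hβ.sm hγ.sm z hz).trans (mul_le_mul_of_nonneg_left (hle z hz) hC0)

end Vale.Agent.P088.R2.H464.B
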