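import Mathlib.Analysis.Calculus.ContDiff.Operations
import Mathlib.Analysis.Calculus.FDeriv.Symmetric

/-!
# P088: graded classes of functions near the diagonal

`Gc K g f`: the derivatives of `f` along the vectors `a i`, `b i`, of order at most `K`, are `O(g j)`,
`j` = number of the `a`'s; uniform over families.
-/

open Set Filter
open scoped ContDiff Topology

noncomputable section

namespace Vale.Agent.P088.R2.H464.B

variable {α ι E : Type*} [NormedAddCommGroup E] [NormedSpace ℝ E]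

/-- The vectors and the zones of a family. -/
structure Ge (α ι E : Type*) [NormedAddCommGroup E] [NormedSpace ℝ E] where
  a : α → ι → E
  b : α → ι → E
  Z : α → Set E
  op : ∀ x, IsOpen (Z x)

variable (G : Ge α ι E)

/-- The derivative along `a i`. -/
def Ge.da (i : ι) (f : α → E → ℝ) : α → E → ℝ := fun x z => fderiv ℝ (f x) z (G.a x i)

/-- The derivative along `b i`. -/
def Ge.db (i : ι) (f : α → E → ℝ) : α → E → ℝ := fun x z => fderiv ℝ (f x) z (G.b x i)

/-- `f = O(g)`. -/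
def Ge.O (g f : α → E → ℝ) : Prop := ∃ C, ∀ x, ∀ z ∈ G.Z x, |f x z| ≤ C * g x z

/-- Smooth families. -/
def Ge.Sm (f : α → E → ℝ) : Prop := ∀ x, ContDiffOn ℝ ∞ (f x) (G.Z x)

/-- Nonnegative families. -/
def Ge.Nn (g : α → E → ℝ) : Prop := ∀ x, ∀ z ∈ G.Z x, 0 ≤ g x z

/-- The graded classes. -/
def Ge.Gc : ℕ → (ℕ → α → E → ℝ) → (α → E → ℝ) → Prop
  | 0, g, f => G.O (g 0) f
  | K + 1, g, f => G.O (g 0) f ∧ (∀ i, Ge.Gc K (fun j => g (j + 1)) (G.da i f)) ∧
      ∀ i, Ge.Gc K g (G.db i f)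

variable {G} {g g' h h' : α → E → ℝ} {f f' u v : α → E → ℝ} {p p' p₁ p₂ : ℕ → α → E → ℝ} {K : ℕ}

theorem Ge.O.nn (hf : G.O g f) (hg : G.Nn g) : ∃ C, 0 ≤ C ∧ ∀ x, ∀ z ∈ G.Z x, |f x z| ≤ C * g x z := by
  obtain ⟨C, hC⟩ := hf
  exact ⟨|C|, abs_nonneg C, fun x z hz => (hC x z hz).trans
    (mul_le_mul_of_nonneg_right (le_abs_self C) (hg x z hz))⟩

theorem Ge.O.add (hf : G.O g f) (hf' : G.O g f') : G.O g fun x z => f x z + f' x z := by
  obtain ⟨C, hC⟩ := hf
  obtain ⟨C', hC'⟩ := hf'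
  refine ⟨C + C', fun x z hz => (abs_add_le _ _).trans ?_⟩
  rw [add_mul]
  exact add_le_add (hC x z hz) (hC' x z hz)

theorem Ge.O.mul (hg : G.Nn g) (hf : G.O g f) (hf' : G.O g' f') :
    G.O (fun x z => g x z * g' x z) fun x z => f x z * f' x z := by
  obtain ⟨C, hC0, hC⟩ := hf.nn hg
  obtain ⟨C', hC'⟩ := hf'
  refine ⟨C * C', fun x z hz => ?_⟩
  rw [abs_mul]
  calc |f x z| * |f' x z| ≤ (C * g x z) * (C' * g' x z) :=
        mul_le_mul (hC x z hz) (hC' x z hz) (abs_nonneg _) (mul_nonneg hC0 (hg x z hz))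
    _ = C * C' * (g x z * g' x z) := by ring

theorem Ge.O.mono (hg : G.Nn g) (hf : G.O g f) {A : ℝ} (hA : ∀ x, ∀ z ∈ G.Z x, g x z ≤ A * g' x z) :
    G.O g' f := by
  obtain ⟨C, hC0, hC⟩ := hf.nn hg
  refine ⟨C * A, fun x z hz => (hC x z hz).trans ?_⟩
  rw [mul_assoc]
  exact mul_le_mul_of_nonneg_left (hA x z hz) hC0

theorem Ge.O.congr (hf : G.O g f) (e : ∀ x, ∀ z ∈ G.Z x, f' x z = f x z) : G.O g f' := by
  obtain ⟨C, hC⟩ := hf
  exact ⟨C, fun x z hz => by rw [e x z hz]; exact hC x z hz⟩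

theorem Ge.O.zero (g : α → E → ℝ) : G.O g fun _ _ => 0 := ⟨0, fun _ _ _ => by simp⟩

theorem Ge.O.sum {β : Type*} (S : Finset β) {F : β → α → E → ℝ} (hF : ∀ s ∈ S, G.O g (F s)) :
    G.O g fun x z => ∑ s ∈ S, F s x z := by
  classical
  induction S using Finset.induction_on with
  | empty => simpa using Ge.O.zero g
  | insert s S hs ih =>
    have h1 := (hF s (Finset.mem_insert_self s S)).add
      (ih fun s hs => hF s (Finset.mem_insert_of_mem hs))
    exact h1.congr fun x z _ => Finset.sum_insert hs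

/-! ## Smoothness -/

theorem Ge.Sm.at (hf : G.Sm f) (x : α) {z : E} (hz : z ∈ G.Z x) : DifferentiableAt ℝ (f x) z :=
  ((hf x z hz).contDiffAt ((G.op x).mem_nhds hz)).differentiableAt (by simp)

theorem Ge.Sm.fd (hf : G.Sm f) (v : α → E) : G.Sm fun x z => fderiv ℝ (f x) z (v x) := fun x => by
  have h : ContDiffOn ℝ ∞ (fderiv ℝ (f x)) (G.Z x) := (hf x).fderiv_of_isOpen (G.op x) (by norm_num)
  exact h.clm_apply contDiffOn_const

theorem Ge.Sm.da (hf : G.Sm f) (i : ι) : G.Sm (G.da i f) := hf.fd fun x => G.a x i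

theorem Ge.Sm.db (hf : G.Sm f) (i : ι) : G.Sm (G.db i f) := hf.fd fun x => G.b x i

theorem Ge.Sm.add (hf : G.Sm f) (hf' : G.Sm f') : G.Sm fun x z => f x z + f' x z :=
  fun x => (hf x).add (hf' x)

theorem Ge.Sm.sub (hf : G.Sm f) (hf' : G.Sm f') : G.Sm fun x z => f x z - f' x z :=
  fun x => (hf x).sub (hf' x)

theorem Ge.Sm.mul (hf : G.Sm f) (hf' : G.Sm f') : G.Sm fun x z => f x z * f' x z :=
  fun x => (hf x).mul (hf' x)

theorem Ge.Sm.const (c : α → ℝ) : G.Sm fun x _ => c x := fun _ => contDiffOn_const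

theorem Ge.Sm.sum {β : Type*} (S : Finset β) {F : β → α → E → ℝ} (hF : ∀ s ∈ S, G.Sm (F s)) :
    G.Sm fun x z => ∑ s ∈ S, F s x z := fun x => ContDiffOn.sum fun s hs => hF s hs x

theorem Ge.Sm.congr (hf : G.Sm f) (e : ∀ x, ∀ z ∈ G.Z x, f' x z = f x z) : G.Sm f' :=
  fun x => (hf x).congr (e x)

/-! ## The rules of differentiation -/

theorem fd_congr (x : α) {z : E} (hz : z ∈ G.Z x) {f f' : α → E → ℝ}
    (e : ∀ x, ∀ z ∈ G.Z x, f' x z = f x z) : fderiv ℝ (f' x) z = fderiv ℝ (f x) z := by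
  have h1 : f' x =ᶠ[𝓝 z] f x := by
    filter_upwards [(G.op x).mem_nhds hz] with w hw using e x w hw
  exact h1.fderiv_eq

theorem Ge.Gc.zero_of (hf : G.Gc K p f) : G.O (p 0) f := by
  cases K with
  | zero => exact hf
  | succ K => exact hf.1

theorem Ge.Gc.congr : ∀ {K : ℕ} {p : ℕ → α → E → ℝ} {f f' : α → E → ℝ}, G.Gc K p f →
    (∀ x, ∀ z ∈ G.Z x, f' x z = f x z) → G.Gc K p f' := by
  intro K
  induction K with
  | zero => intro p f f' hf e; exact Ge.O.congr hf e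
  | succ K ih =>
    intro p f f' hf e
    refine ⟨hf.1.congr e, fun i => ih (hf.2.1 i) fun x z hz => ?_,
      fun i => ih (hf.2.2 i) fun x z hz => ?_⟩
    · show fderiv ℝ (f' x) z _ = fderiv ℝ (f x) z _
      rw [fd_congr x hz e]
    · show fderiv ℝ (f' x) z _ = fderiv ℝ (f x) z _
      rw [fd_congr x hz e]

theorem Ge.Gc.mono_K : ∀ {K : ℕ} {p : ℕ → α → E → ℝ} {f : α → E → ℝ}, G.Gc (K + 1) p f →
    G.Gc K p f := by
  intro K
  induction K with
  | zero => intro p f hf; exact hf.1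
  | succ K ih => intro p f hf; exact ⟨hf.1, fun i => ih (hf.2.1 i), fun i => ih (hf.2.2 i)⟩

theorem Ge.Gc.le {K L : ℕ} (hf : G.Gc K p f) (hL : L ≤ K) : G.Gc L p f := by
  induction K with
  | zero => obtain rfl := Nat.le_zero.1 hL; exact hf
  | succ K ih =>
    rcases Nat.lt_or_ge L (K + 1) with h | h
    · exact ih hf.mono_K (Nat.lt_succ_iff.1 h)
    · obtain rfl : L = K + 1 := le_antisymm hL h
      exact hf

theorem Ge.Gc.mono : ∀ {K : ℕ} {p p' : ℕ → α → E → ℝ} {f : α → E → ℝ}, G.Gc K p f →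
    (∀ j ≤ K, G.Nn (p j)) → (∀ j ≤ K, ∃ A : ℝ, ∀ x, ∀ z ∈ G.Z x, p j x z ≤ A * p' j x z) →
    G.Gc K p' f := by
  intro K
  induction K with
  | zero =>
    intro p p' f hf h0 hA
    obtain ⟨A, hA⟩ := hA 0 le_rfl
    exact Ge.O.mono (h0 0 le_rfl) hf hA
  | succ K ih =>
    intro p p' f hf h0 hA
    obtain ⟨A, hA0⟩ := hA 0 (Nat.zero_le _)
    exact ⟨hf.1.mono (h0 0 (Nat.zero_le _)) hA0,
      fun i => ih (hf.2.1 i) (fun j hj => h0 (j + 1) (Nat.succ_le_succ hj))
        fun j hj => hA (j + 1) (Nat.succ_le_succ hj),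
      fun i => ih (hf.2.2 i) (fun j hj => h0 j (hj.trans (Nat.le_succ K)))
        fun j hj => hA j (hj.trans (Nat.le_succ K))⟩

theorem Ge.Gc.add : ∀ {K : ℕ} {p : ℕ → α → E → ℝ} {f f' : α → E → ℝ}, G.Gc K p f → G.Gc K p f' →
    G.Sm f → G.Sm f' → G.Gc K p fun x z => f x z + f' x z := by
  intro K
  induction K with
  | zero => intro p f f' hf hf' _ _; exact Ge.O.add hf hf'
  | succ K ih =>
    intro p f f' hf hf' sf sf'
    refine ⟨hf.1.add hf'.1, fun i => ?_, fun i => ?_⟩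
    · refine (ih (hf.2.1 i) (hf'.2.1 i) (sf.da i) (sf'.da i)).congr fun x z hz => ?_
      show fderiv ℝ (fun z => f x z + f' x z) z _ = _
      rw [fderiv_fun_add (sf.at x hz) (sf'.at x hz)]
      rfl
    · refine (ih (hf.2.2 i) (hf'.2.2 i) (sf.db i) (sf'.db i)).congr fun x z hz => ?_
      show fderiv ℝ (fun z => f x z + f' x z) z _ = _
      rw [fderiv_fun_add (sf.at x hz) (sf'.at x hz)]
      rfl

theorem Ge.Gc.zero (K : ℕ) (p : ℕ → α → E → ℝ) : G.Gc K p fun _ _ => 0 := by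
  induction K generalizing p with
  | zero => exact Ge.O.zero _
  | succ K ih =>
    refine ⟨Ge.O.zero _, fun i => (ih _).congr fun x z _ => ?_, fun i => (ih _).congr fun x z _ => ?_⟩
    · show fderiv ℝ (fun _ => (0 : ℝ)) z _ = 0
      simp
    · show fderiv ℝ (fun _ => (0 : ℝ)) z _ = 0
      simp

/-- Constants. -/
theorem Ge.Gc.const (K : ℕ) (p : ℕ → α → E → ℝ) (c : α → ℝ) (hc : G.O (p 0) fun x _ => c x) :
    G.Gc K p fun x _ => c x := by
  cases K with
  | zero => exact hc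
  | succ K =>
    refine ⟨hc, fun i => (Ge.Gc.zero K _).congr fun x z _ => ?_,
      fun i => (Ge.Gc.zero K _).congr fun x z _ => ?_⟩
    · show fderiv ℝ (fun _ => c x) z _ = 0
      simp
    · show fderiv ℝ (fun _ => c x) z _ = 0
      simp

theorem Ge.Gc.sum {β : Type*} (S : Finset β) {F : β → α → E → ℝ} (hF : ∀ s ∈ S, G.Gc K p (F s))
    (sF : ∀ s ∈ S, G.Sm (F s)) : G.Gc K p fun x z => ∑ s ∈ S, F s x z := by
  classical
  induction S using Finset.induction_on with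
  | empty => simpa using Ge.Gc.zero K p
  | insert s S hs ih =>
    have h1 := (hF s (Finset.mem_insert_self s S)).add
      (ih (fun s hs => hF s (Finset.mem_insert_of_mem hs)) fun s hs =>
        sF s (Finset.mem_insert_of_mem hs))
      (sF s (Finset.mem_insert_self s S)) (Ge.Sm.sum S fun s hs => sF s (Finset.mem_insert_of_mem hs))
    exact h1.congr fun x z _ => Finset.sum_insert hs

/-- The product of two profiles. -/
def cv (p q : ℕ → α → E → ℝ) (j : ℕ) (x : α) (z : E) : ℝ :=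
  ∑ i ∈ Finset.range (j + 1), p i x z * q (j - i) x z

theorem cv_nn {q : ℕ → α → E → ℝ} {K : ℕ} (hp : ∀ j ≤ K, G.Nn (p j)) (hq : ∀ j ≤ K, G.Nn (q j)) :
    ∀ j ≤ K, G.Nn (cv p q j) := fun j hj x z hz =>
  Finset.sum_nonneg fun i hi => mul_nonneg (hp i ((Finset.mem_range_succ_iff.1 hi).trans hj) x z hz)
    (hq (j - i) ((Nat.sub_le _ _).trans hj) x z hz)

theorem Ge.Gc.mul : ∀ {K : ℕ} {p q : ℕ → α → E → ℝ} {f f' : α → E → ℝ}, G.Gc K p f →
    G.Gc K q f' → (∀ j ≤ K, G.Nn (p j)) → (∀ j ≤ K, G.Nn (q j)) → G.Sm f → G.Sm f' →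
    G.Gc K (cv p q) fun x z => f x z * f' x z := by
  intro K
  induction K with
  | zero =>
    intro p q f f' hf hf' h0 _ _ _
    have h1 := Ge.O.mul (h0 0 le_rfl) hf hf'
    obtain ⟨C, hC⟩ := h1
    exact ⟨C, fun x z hz => by simpa [cv] using hC x z hz⟩
  | succ K ih =>
    intro p q f f' hf hf' h0 h1 sf sf'
    have e0 : G.O (cv p q 0) fun x z => f x z * f' x z := by
      obtain ⟨C, hC⟩ := Ge.O.mul (h0 0 (Nat.zero_le _)) hf.1 hf'.1
      exact ⟨C, fun x z hz => by simpa [cv] using hC x z hz⟩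
    have h0' : ∀ j ≤ K, G.Nn (p j) := fun j hj => h0 j (hj.trans (Nat.le_succ K))
    have h1' : ∀ j ≤ K, G.Nn (q j) := fun j hj => h1 j (hj.trans (Nat.le_succ K))
    have h0s : ∀ j ≤ K, G.Nn (p (j + 1)) := fun j hj => h0 (j + 1) (Nat.succ_le_succ hj)
    have h1s : ∀ j ≤ K, G.Nn (q (j + 1)) := fun j hj => h1 (j + 1) (Nat.succ_le_succ hj)
    refine ⟨e0, fun i => ?_, fun i => ?_⟩
    · have k1 := ih (hf.2.1 i) hf'.mono_K h0s h1' (sf.da i) sf'
      have k2 := ih hf.mono_K (hf'.2.1 i) h0' h1s sf (sf'.da i)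
      have m1 : G.Gc K (fun j => cv p q (j + 1)) fun x z => G.da i f x z * f' x z := by
        refine k1.mono (cv_nn h0s h1') fun j hj => ⟨1, fun x z hz => ?_⟩
        rw [one_mul]
        unfold cv
        rw [Finset.sum_range_succ' (fun i => p i x z * q (j + 1 - i) x z) (j + 1)]
        have e : ∀ i, p (i + 1) x z * q (j + 1 - (i + 1)) x z = p (i + 1) x z * q (j - i) x z :=
          fun i => by rw [Nat.add_sub_add_right]
        simp only [e]
        have : 0 ≤ p 0 x z * q (j + 1 - 0) x z := mul_nonneg (h0 0 (Nat.zero_le _) x z hz)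
          (h1 (j + 1) (Nat.succ_le_succ hj) x z hz)
        linarith
      have m2 : G.Gc K (fun j => cv p q (j + 1)) fun x z => f x z * G.da i f' x z := by
        refine k2.mono (cv_nn h0' h1s) fun j hj => ⟨1, fun x z hz => ?_⟩
        rw [one_mul]
        unfold cv
        rw [Finset.sum_range_succ (fun i => p i x z * q (j + 1 - i) x z) (j + 1)]
        have e : ∀ i ∈ Finset.range (j + 1), p i x z * q (j - i + 1) x z =
            p i x z * q (j + 1 - i) x z := fun i hi => by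
          rw [Nat.sub_add_comm (Finset.mem_range_succ_iff.1 hi)]
        rw [Finset.sum_congr rfl e]
        have : 0 ≤ p (j + 1) x z * q (j + 1 - (j + 1)) x z :=
          mul_nonneg (h0 (j + 1) (Nat.succ_le_succ hj) x z hz)
            (h1 _ (by rw [Nat.sub_self]; exact Nat.zero_le _) x z hz)
        linarith
      refine (m1.add m2 ((sf.da i).mul sf') (sf.mul (sf'.da i))).congr fun x z hz => ?_
      show fderiv ℝ (fun z => f x z * f' x z) z _ = _
      rw [fderiv_fun_mul (sf.at x hz) (sf'.at x hz)]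
      simp only [_root_.add_apply, _root_.smul_apply, smul_eq_mul, Ge.da]
      ring
    · have k1 := ih (hf.2.2 i) hf'.mono_K h0' h1' (sf.db i) sf'
      have k2 := ih hf.mono_K (hf'.2.2 i) h0' h1' sf (sf'.db i)
      refine (k1.add k2 ((sf.db i).mul sf') (sf.mul (sf'.db i))).congr fun x z hz => ?_
      show fderiv ℝ (fun z => f x z * f' x z) z _ = _
      rw [fderiv_fun_mul (sf.at x hz) (sf'.at x hz)]
      simp only [_root_.add_apply, _root_.smul_apply, smul_eq_mul, Ge.db]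
      ring

/-- Multiples. -/
theorem Ge.Gc.cmul (hf : G.Gc K p f) (sf : G.Sm f) (h0 : ∀ j ≤ K, G.Nn (p j)) (c : ℝ) :
    G.Gc K p fun x z => c * f x z := by
  induction K generalizing p f with
  | zero =>
    obtain ⟨C, hC0, hC⟩ := Ge.O.nn hf (h0 0 le_rfl)
    refine ⟨|c| * C, fun x z hz => ?_⟩
    rw [abs_mul, mul_assoc]
    exact mul_le_mul_of_nonneg_left (hC x z hz) (abs_nonneg c)
  | succ K ih =>
    refine ⟨?_, fun i => ?_, fun i => ?_⟩
    · obtain ⟨C, hC0, hC⟩ := Ge.O.nn hf.1 (h0 0 (Nat.zero_le _))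
      refine ⟨|c| * C, fun x z hz => ?_⟩
      rw [abs_mul, mul_assoc]
      exact mul_le_mul_of_nonneg_left (hC x z hz) (abs_nonneg c)
    · refine (ih (hf.2.1 i) (sf.da i) fun j hj => h0 (j + 1) (Nat.succ_le_succ hj)).congr
        fun x z hz => ?_
      show fderiv ℝ (fun z => c * f x z) z _ = _
      rw [fderiv_const_mul (sf.at x hz)]
      rfl
    · refine (ih (hf.2.2 i) (sf.db i) fun j hj => h0 j (hj.trans (Nat.le_succ K))).congr
        fun x z hz => ?_
      show fderiv ℝ (fun z => c * f x z) z _ = _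
      rw [fderiv_const_mul (sf.at x hz)]
      rfl

theorem Ge.Gc.sub (hf : G.Gc K p f) (hf' : G.Gc K p f') (sf : G.Sm f) (sf' : G.Sm f')
    (h0 : ∀ j ≤ K, G.Nn (p j)) : G.Gc K p fun x z => f x z - f' x z :=
  (hf.add (hf'.cmul sf' h0 (-1)) sf ((Ge.Sm.const _).mul sf')).congr fun x z _ => by ring

/-! ## Classes of the derivatives -/

variable (G) in
/-- The derivatives of `f` are in the classes (nothing on `f` itself). -/
def Ge.Gd (K : ℕ) (g : ℕ → α → E → ℝ) (f : α → E → ℝ) : Prop :=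
  True ∧ (∀ i, G.Gc K (fun j => g (j + 1)) (G.da i f)) ∧ ∀ i, G.Gc K g (G.db i f)

theorem Ge.Gc.gd (h : G.Gc (K + 1) p f) : G.Gd K p f := ⟨trivial, h.2⟩

theorem Ge.Gd.le {L : ℕ} (h : G.Gd K p f) (hL : L ≤ K) : G.Gd L p f :=
  ⟨trivial, fun i => (h.2.1 i).le hL, fun i => (h.2.2 i).le hL⟩

theorem Ge.Gd.mono (h : G.Gd K p f) (h0 : ∀ j ≤ K + 1, G.Nn (p j))
    (hA : ∀ j ≤ K + 1, ∃ A : ℝ, ∀ x, ∀ z ∈ G.Z x, p j x z ≤ A * p' j x z) : G.Gd K p' f :=
  ⟨trivial, fun i => (h.2.1 i).mono (fun j hj => h0 (j + 1) (Nat.succ_le_succ hj))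
      fun j hj => hA (j + 1) (Nat.succ_le_succ hj),
    fun i => (h.2.2 i).mono (fun j hj => h0 j (hj.trans (Nat.le_succ K)))
      fun j hj => hA j (hj.trans (Nat.le_succ K))⟩

theorem Ge.Gd.congr (h : G.Gd K p f) (e : ∀ x, ∀ z ∈ G.Z x, f' x z = f x z) : G.Gd K p f' :=
  ⟨trivial, fun i => (h.2.1 i).congr fun x z hz => by
      show fderiv ℝ (f' x) z _ = fderiv ℝ (f x) z _
      rw [fd_congr x hz e],
    fun i => (h.2.2 i).congr fun x z hz => by
      show fderiv ℝ (f' x) z _ = fderiv ℝ (f x) z _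
      rw [fd_congr x hz e]⟩

theorem Ge.Gd.add (h : G.Gd K p f) (h' : G.Gd K p f') (sf : G.Sm f) (sf' : G.Sm f') :
    G.Gd K p fun x z => f x z + f' x z :=
  ⟨trivial, fun i => ((h.2.1 i).add (h'.2.1 i) (sf.da i) (sf'.da i)).congr fun x z hz => by
      show fderiv ℝ (fun z => f x z + f' x z) z _ = _
      rw [fderiv_fun_add (sf.at x hz) (sf'.at x hz)]
      rfl,
    fun i => ((h.2.2 i).add (h'.2.2 i) (sf.db i) (sf'.db i)).congr fun x z hz => by
      show fderiv ℝ (fun z => f x z + f' x z) z _ = _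
      rw [fderiv_fun_add (sf.at x hz) (sf'.at x hz)]
      rfl⟩

theorem Ge.Gd.sub (h : G.Gd K p f) (h' : G.Gd K p f') (sf : G.Sm f) (sf' : G.Sm f')
    (h0 : ∀ j ≤ K + 1, G.Nn (p j)) : G.Gd K p fun x z => f x z - f' x z :=
  ⟨trivial, fun i => ((h.2.1 i).sub (h'.2.1 i) (sf.da i) (sf'.da i)
      fun j hj => h0 (j + 1) (Nat.succ_le_succ hj)).congr fun x z hz => by
      show fderiv ℝ (fun z => f x z - f' x z) z _ = _
      rw [fderiv_fun_sub (sf.at x hz) (sf'.at x hz)]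
      rfl,
    fun i => ((h.2.2 i).sub (h'.2.2 i) (sf.db i) (sf'.db i)
      fun j hj => h0 j (hj.trans (Nat.le_succ K))).congr fun x z hz => by
      show fderiv ℝ (fun z => f x z - f' x z) z _ = _
      rw [fderiv_fun_sub (sf.at x hz) (sf'.at x hz)]
      rfl⟩

end Vale.Agent.P088.R2.H464.B
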