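import Vale.Agent.P088.R2.H464.B.Wcl
import Vale.Agent.P088.R2.H968.B.Slot
import Vale.Agent.P088.R2.H961.F.HyPb

/-!
# P088, zone B1: the structure `Hy` on helper961's family from classes of one slot
-/

open Set Filter
open scoped ContDiff Topology

noncomputable section

set_option linter.unusedSectionVars false

namespace Vale.Agent.P088.R2.H464.B

open Vale.Agent.P088.LR Vale.Agent.P088.HY
open Vale.Agent.P088.R2.H464.EP (Dat ds)
open Vale.Agent.P088.R2.H516.B (mu)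
open Vale.Agent.P088.R2.H961.F
open Vale.Agent.P088.R2.H968.B

/-! ## Conversions of profiles -/

section conv

variable {α ι E : Type*} [NormedAddCommGroup E] [NormedSpace ℝ E] [Fintype ι]
  {G : Ge α ι E} {e r t δ f : α → E → ℝ} {K : ℕ}

theorem x000 (j : ℕ) : x3 0 0 0 j = 0 := by
  match j with
  | 0 => rfl
  | 1 => rfl
  | _ + 2 => rfl

theorem rr_of (h : Sz G e r t δ) : Rr G r :=
  ⟨fun x z hz => (h.r0 x z hz).le, fun x z hz => (h.rt x z hz).trans (h.t1 x z hz)⟩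

/-- `A r^B ≤ C δ^k r^B'`. -/
theorem to_ms (h : Sz G e r t δ) {A : α → ℝ} (hA : ∀ x, 0 ≤ A x) {B B' : ℕ → ℕ} {k : ℕ}
    (hf : G.Gc K (pg (cs A) r B) f)
    (H : ∃ C, ∀ j ≤ K, ∀ x, ∀ z ∈ G.Z x, A x * r x z ^ B j ≤ C * (δ x z ^ k * r x z ^ B' j)) :
    G.Gc K (ms e r t δ k 0 B' (x3 0 0 0)) f := by
  obtain ⟨C, hC⟩ := H
  refine pg_to (rr_of h) (fun x _ _ => hA x) hf fun j hj => ⟨C, fun x z hz => ?_⟩
  refine (hC j hj x z hz).trans (le_of_eq ?_)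
  simp [ms, mn, x000]

/-- Bounds by constants. -/
theorem to_ms0 (h : Sz G e r t δ) {B : ℕ → ℕ} (hf : G.Gc K (pg (cs fun _ => 1) r B) f) :
    G.Gc K (ms e r t δ 0 0 B (x3 0 0 0)) f :=
  to_ms h (fun _ => zero_le_one) hf ⟨1, fun j _ x z _ => by simp⟩

/-- Bounds by `k ≤ A δ`. -/
theorem to_ms1 (h : Sz G e r t δ) {k : α → ℝ} (k0 : ∀ x, 0 ≤ k x)
    (kd : ∃ A, ∀ x, ∀ z ∈ G.Z x, k x ≤ A * δ x z) {B : ℕ → ℕ}
    (hf : G.Gc K (pg (cs k) r B) f) : G.Gc K (ms e r t δ 1 0 B (x3 0 0 0)) f := by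
  obtain ⟨A, hA⟩ := kd
  refine to_ms h k0 hf ⟨A, fun j _ x z hz => ?_⟩
  rw [pow_one, ← mul_assoc]
  exact mul_le_mul_of_nonneg_right (hA x z hz) (pow_nonneg (h.r0 x z hz).le _)

/-- Bounds by `a ≤ A δ r`, functions of one slot. -/
theorem to_ms2 (h : Sz G e r t δ) {a : α → ℝ} (a0 : ∀ x, 0 ≤ a x)
    (ad : ∃ A, ∀ x, ∀ z ∈ G.Z x, a x ≤ A * (δ x z * r x z)) {B : ℕ → ℕ} (hB : ∀ j ≤ K, B j ≤ 1)
    (hf : G.Gc K (pg (cs a) r Z0) f) : G.Gc K (ms e r t δ 1 0 B (x3 0 0 0)) f := by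
  obtain ⟨A, hA⟩ := ad
  refine to_ms h a0 hf ⟨|A|, fun j hj x z hz => ?_⟩
  have r0 := (h.r0 x z hz).le
  have r1 := (h.rt x z hz).trans (h.t1 x z hz)
  have d0 := h.d0 x z hz
  have h1 : r x z ≤ r x z ^ B j := by
    calc r x z = r x z ^ 1 := (pow_one _).symm
      _ ≤ r x z ^ B j := pow_le_pow_of_le_one r0 r1 (hB j hj)
  rw [pow_one]
  simp only [Z0, pow_zero, mul_one]
  calc a x ≤ A * (δ x z * r x z) := hA x z hz
    _ ≤ |A| * (δ x z * r x z) := mul_le_mul_of_nonneg_right (le_abs_self A) (mul_nonneg d0 r0)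
    _ ≤ |A| * (δ x z * r x z ^ B j) :=
        mul_le_mul_of_nonneg_left (mul_le_mul_of_nonneg_left h1 d0) (abs_nonneg A)

/-- Constants do not matter. -/
theorem Ge.Gd.addc {p : ℕ → α → E → ℝ} (hf : G.Gd K p f) (k : α → ℝ) :
    G.Gd K p fun x z => f x z + k x := by
  have e : ∀ v : α → E, ∀ x, ∀ z ∈ G.Z x, fderiv ℝ (fun z => f x z + k x) z (v x) =
      fderiv ℝ (f x) z (v x) := fun v x z hz => by
    rw [fderiv_add_const]
  exact ⟨trivial, fun i => (hf.2.1 i).congr fun x z hz => e (fun x => G.a x i) x z hz,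
    fun i => (hf.2.2 i).congr fun x z hz => e (fun x => G.b x i) x z hz⟩

end conv

/-! ## The family -/

variable {α : Type} {n : ℕ} (c : α → CD n) (Z : α → Set (VV n)) (hZ : ∀ x, IsOpen (Z x))
  (s₁ s₂ g : α → MF n) (U : α → Set (V n)) (hU : ∀ x, IsOpen (U x)) (t δ : α → VV n → ℝ)

/-- The frame vectors. -/
def Mc : α → Fin n → V n := fun x i => (c x).M.col i

/-- A tensor in the frame of the cell, minus the identity. -/
def sg (s : α → MF n) (i j : Fin n) : α → V n → ℝ := fun x w =>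
  (∑ k, ∑ l, (c x).N i k * (c x).N j l * s x w k l) - if i = j then 1 else 0

/-- A metric in the frame of the cell, minus the identity. -/
def kg (g : α → MF n) (i j : Fin n) : α → V n → ℝ := fun x w =>
  (∑ k, ∑ l, g x w k l * (c x).M k i * (c x).M l j) - if i = j then 1 else 0

/-- `q_i`. -/
def qf (i : Fin n) : α → VV n → ℝ := fun x z => ((c x).T.q i : VV n → ℝ) z

theorem sm_qf (i : Fin n) : (Gf c Z hZ).Sm (qf c i) := fun x =>
  (H464.EP.scd ((c x).T.q i)).contDiffOn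

theorem da_qf (i j : Fin n) (x : α) (z : VV n) :
    (Gf c Z hZ).da i (qf c j) x z = if i = j then 1 else 0 := by
  have h := (c x).T.aq i j
  have h2 : (ds ((c x).T.a i) ((c x).T.q j) : VV n → ℝ) z =
      ((if i = j then 1 else 0 : H464.EP.Sm (VV n)) : VV n → ℝ) z := by rw [h]
  change fderiv ℝ ((c x).T.q j : VV n → ℝ) z ((c x).T.a i) = _ at h2
  change fderiv ℝ ((c x).T.q j : VV n → ℝ) z ((c x).T.a i) = _
  rw [h2]
  split <;> rfl

theorem db_qf (i j : Fin n) (x : α) (z : VV n) : (Gf c Z hZ).db i (qf c j) x z = 0 := by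
  have h := (c x).T.bq i j
  have h2 : (ds ((c x).T.b i) ((c x).T.q j) : VV n → ℝ) z =
      ((0 : H464.EP.Sm (VV n)) : VV n → ℝ) z := by rw [h]
  exact h2

theorem qf_le (i : Fin n) (x : α) (z : VV n) : |qf c i x z| ≤ fr c x z := by
  have he := fe_pos c x z
  have h1 : (mu (c x).T : VV n → ℝ) z =
      1 + fe c x z * ∑ i, (∑ k, (c x).N i k * (z.1 k - z.2 k)) ^ 2 := by
    change 1 + ((c x).T.e : VV n → ℝ) z * ((c x).T.qq : VV n → ℝ) z = _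
    rw [T_qq]
    rfl
  have h2 : qf c i x z ^ 2 ≤ (mu (c x).T : VV n → ℝ) z / fe c x z := by
    rw [le_div_iff₀ he, h1]
    have h3 : qf c i x z ^ 2 ≤ ∑ i, (∑ k, (c x).N i k * (z.1 k - z.2 k)) ^ 2 := by
      unfold qf
      rw [T_q]
      exact Finset.single_le_sum (f := fun i => (∑ k, (c x).N i k * (z.1 k - z.2 k)) ^ 2)
        (fun i _ => sq_nonneg _) (Finset.mem_univ i)
    nlinarith [mul_le_mul_of_nonneg_left h3 he.le]
  exact Real.abs_le_sqrt h2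

theorem fr_pos (x : α) (z : VV n) : 0 < fr c x z :=
  Real.sqrt_pos.2 (div_pos (by linarith [mu_ge c x z]) (fe_pos c x z))

variable {c Z hZ t δ}

/-- `q_i` has the size `r`. -/
theorem gc_qf (i : Fin n) (K : ℕ) :
    (Gf c Z hZ).Gc K (ms (fe c) (fr c) t δ 0 0 (x3 1 0 0) (x3 0 0 0)) (qf c i) := by
  have h0 : (Gf c Z hZ).O (ms (fe c) (fr c) t δ 0 0 (x3 1 0 0) (x3 0 0 0) 0) (qf c i) :=
    ⟨1, fun x z hz => by
      rw [one_mul]
      simpa [ms, mn, x3] using qf_le c i x z⟩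
  match K with
  | 0 => exact h0
  | K + 1 =>
    refine ⟨h0, fun j => ?_, fun j => ?_⟩
    · refine ((Ge.Gc.const K (fun j => ms (fe c) (fr c) t δ 0 0 (x3 1 0 0) (x3 0 0 0) (j + 1))
        (fun _ => if j = i then 1 else 0) ⟨1, fun x z hz => ?_⟩)).congr
        fun x z hz => da_qf c Z hZ j i x z
      rw [one_mul]
      split <;> simp [ms, mn, x3]
    · exact (Ge.Gc.zero K _).congr fun x z hz => db_qf c Z hZ j i x z

/-- `q_i q_j`. -/
theorem gc_qq (h : Sz (Gf c Z hZ) (fe c) (fr c) t δ) (i j : Fin n) (K : ℕ) :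
    (Gf c Z hZ).Gc K (ms (fe c) (fr c) t δ 0 0 (x3 2 1 0) (x3 0 0 0))
      fun x z => qf c i x z * qf c j x z := by
  have hc : c2 K 0 0 0 (x3 1 0 0) (x3 0 0 0) (x3 1 0 0) (x3 0 0 0) (x3 2 1 0) (x3 0 0 0) := by
    intro j _ i hi
    simp only [x000, add_zero]
    have : x3 2 1 0 j ≤ x3 1 0 0 i + x3 1 0 0 (j - i) := by
      match j, i with
      | 0, 0 => exact le_rfl
      | 1, 0 => exact le_rfl
      | 1, 1 => exact le_rfl
      | j + 2, i => exact Nat.zero_le _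
      | 0, i + 1 => omega
      | 1, i + 2 => omega
    omega
  exact (gc_qf i K).mulm h (gc_qf j K) (sm_qf c Z hZ i) (sm_qf c Z hZ j) le_rfl hc

/-- The hypotheses: one-slot classes and the scales. -/
structure Hq (c : α → CD n) (Z : α → Set (VV n)) (hZ : ∀ x, IsOpen (Z x)) (s₁ s₂ g : α → MF n)
    (U : α → Set (V n)) (hU : ∀ x, IsOpen (U x)) (t δ : α → VV n → ℝ) (L Lm : α → V n → ℝ)
    (k a : α → ℝ) (F S : ℕ → α → ℝ → ℝ) (W : α → VV n → ℝ) : Prop where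
  rt : ∀ x, ∀ z ∈ Z x, fr c x z ≤ t x z
  t1 : ∀ x, ∀ z ∈ Z x, t x z ≤ 1
  d0 : ∀ x, ∀ z ∈ Z x, 0 ≤ δ x z
  d1 : ∀ x, ∀ z ∈ Z x, δ x z ≤ 1
  rd : ∃ A, ∀ x, ∀ z ∈ Z x, fr c x z ≤ A * δ x z
  k0 : ∀ x, 0 ≤ k x
  kd : ∃ A, ∀ x, ∀ z ∈ Z x, k x ≤ A * δ x z
  a0 : ∀ x, 0 ≤ a x
  ad : ∃ A, ∀ x, ∀ z ∈ Z x, a x ≤ A * (δ x z * fr c x z)
  cv : ∀ x, Convex ℝ (U x)
  m1 : ∀ x, ∀ z ∈ Z x, z.1 ∈ U x
  m2 : ∀ x, ∀ z ∈ Z x, z.2 ∈ U x
  sL : (G1 (Mc c) U hU).Sm L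
  sLm : (G1 (Mc c) U hU).Sm Lm
  /-- the level: derivatives of order `2, …, 6` -/
  hL : ∀ i j, (G1 (Mc c) U hU).Gc 4 (cp fun _ => 1) (D1 (Mc c) j (D1 (Mc c) i L))
  /-- `2 l_c`: derivatives of order `1, …, 4` -/
  hLm : ∀ i, (G1 (Mc c) U hU).Gc 3 (cp fun _ => 1) (D1 (Mc c) i Lm)
  he : ∀ x, ∀ z ∈ Z x, Real.log (c x).E₀ + 2 * (c x).l ((1 / 2 : ℝ) • (z.1 + z.2)) =
    Lm x ((1 / 2 : ℝ) • (z.1 + z.2))
  s1 : ∀ i j, (G1 (Mc c) U hU).Sm (sg c s₁ i j)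
  s2 : ∀ i j, (G1 (Mc c) U hU).Sm (sg c s₂ i j)
  sk : ∀ i j, (G1 (Mc c) U hU).Sm (kg c g i j)
  h1 : ∀ i j, (G1 (Mc c) U hU).Gc 4 (cp k) (sg c s₁ i j)
  h2 : ∀ i j, (G1 (Mc c) U hU).Gc 3 (cp a) fun x w => sg c s₁ i j x w - sg c s₂ i j x w
  hk : ∀ i j, (G1 (Mc c) U hU).Gc 4 (cp k) (kg c g i j)
  cF : Cn F
  cS : Cn S
  hF : ∀ m ≤ 3, ∃ C, ∀ x, ∀ z ∈ Z x, ∀ s ∈ Icc (0 : ℝ) 1,
    |F (m + 1) x (Lm x ((1 / 2 : ℝ) • (z.1 + z.2)) + s * (L x z.1 + L x z.2 -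
      2 * L x ((1 / 2 : ℝ) • (z.1 + z.2))))| ≤ C * (fe c x z * fr c x z * t x z)
  hS : ∀ m ≤ 5, ∃ C, ∀ x, ∀ z ∈ Z x, ∀ s ∈ Icc (0 : ℝ) 1,
    |S m x (s * ∑ k, ∑ l, g x ((1 / 2 : ℝ) • (z.1 + z.2)) k l * (z.1 k - z.2 k) *
      (z.1 l - z.2 l))| ≤ C
  S0 : ∀ x, S 0 x 0 = 0
  S1 : ∀ x, S 1 x 0 = 1 / 2
  /-- the true weight, up to a constant of the cell -/
  eW : ∀ x, ∃ b, ∀ z ∈ Z x, W x z =
    F 0 x (Lm x ((1 / 2 : ℝ) • (z.1 + z.2)) + (L x z.1 + L x z.2 -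
      2 * L x ((1 / 2 : ℝ) • (z.1 + z.2)))) +
    Real.exp (Lm x ((1 / 2 : ℝ) • (z.1 + z.2)) + (L x z.1 + L x z.2 -
      2 * L x ((1 / 2 : ℝ) • (z.1 + z.2)))) *
    S 0 x (∑ k, ∑ l, g x ((1 / 2 : ℝ) • (z.1 + z.2)) k l * (z.1 k - z.2 k) * (z.1 l - z.2 l)) + b
  /-- the model, up to a constant of the cell -/
  eφ : ∀ x, ∃ b, ∀ z ∈ Z x, (c x).φ ((1 / 2 : ℝ) • (z.1 + z.2)) =
    F 0 x (Lm x ((1 / 2 : ℝ) • (z.1 + z.2))) + b

namespace Hq

variable {s₁ s₂ g : α → MF n} {U : α → Set (V n)} {hU : ∀ x, IsOpen (U x)}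
  {L Lm : α → V n → ℝ} {k a : α → ℝ} {F S : ℕ → α → ℝ → ℝ} {W : α → VV n → ℝ}
  (H : Hq c Z hZ s₁ s₂ g U hU t δ L Lm k a F S W)
include H

theorem sz : Sz (Gf c Z hZ) (fe c) (fr c) t δ :=
  ⟨fun x z _ => fe_pos c x z, fun x z _ => fr_pos c x z, H.rt, H.t1, H.d0, H.d1⟩

omit H in
/-- `x - y = ∑ q_i M_i`. -/
theorem dif_eq (x : α) (z : VV n) (m : Fin n) : z.1 m - z.2 m = ∑ i, qf c i x z * (c x).M m i := by
  have hMN : (c x).M * (c x).N = 1 := mul_eq_one_comm.1 (c x).nm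
  have h1 : ∀ i, qf c i x z * (c x).M m i =
      ∑ l, (c x).M m i * (c x).N i l * (z.1 l - z.2 l) := fun i => by
    unfold qf
    rw [T_q, Finset.sum_mul]
    exact Finset.sum_congr rfl fun l _ => by ring
  rw [Finset.sum_congr rfl fun i _ => h1 i, Finset.sum_comm]
  have h2 : ∀ l, ∑ i, (c x).M m i * (c x).N i l * (z.1 l - z.2 l) =
      (if m = l then 1 else 0) * (z.1 l - z.2 l) := fun l => by
    rw [← Finset.sum_mul, ← Matrix.mul_apply, hMN, Matrix.one_apply]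
  rw [Finset.sum_congr rfl fun l _ => h2 l]
  simp

theorem sl2 : Sl2 (Gf c Z hZ) (Mc c) U hU (fr c) :=
  { ha := fun x i => rfl
    hb := fun x i => rfl
    cv := H.cv
    m1 := H.m1
    m2 := H.m2
    q := fun x z hz => ⟨fun i => qf c i x z, by
      funext m
      rw [Pi.sub_apply, dif_eq x z m, Finset.sum_apply]
      rfl, fun i => qf_le c i x z⟩
    rr := rr_of H.sz }

/-- `v`. -/
theorem gv : (Gf c Z hZ).Gc 4 (ms (fe c) (fr c) t δ 0 0 (x3 2 1 0) (x3 0 0 0)) (fP L) :=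
  to_ms0 H.sz (gc_P H.sl2 (fun _ => zero_le_one) H.sL H.hL)

/-- `|q|²`. -/
theorem gρ : (Gf c Z hZ).Gc 4 (ms (fe c) (fr c) t δ 0 0 (x3 2 1 0) (x3 0 0 0))
    fun x z => ∑ i, qf c i x z * qf c i x z :=
  Ge.Gc.sum _ (fun i _ => gc_qq H.sz i i 4) fun i _ => (sm_qf c Z hZ i).mul (sm_qf c Z hZ i)

/-- `ρ² - |q|²`. -/
theorem gw : (Gf c Z hZ).Gc 4 (ms (fe c) (fr c) t δ 1 0 (x3 2 1 0) (x3 0 0 0))
    fun x z => ∑ i, ∑ j, fM (kg c g i j) x z * (qf c i x z * qf c j x z) := by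
  have hc : c2 4 0 0 0 (x3 0 0 0) (x3 0 0 0) (x3 2 1 0) (x3 0 0 0) (x3 2 1 0) (x3 0 0 0) := by
    intro j _ i hi
    simp only [x000, add_zero, zero_add]
    have h : x3 2 1 0 j ≤ x3 2 1 0 (j - i) := x3_anti (by norm_num) (by norm_num) (Nat.sub_le _ _)
    exact ⟨h, h⟩
  have h0 : ∀ i j, (Gf c Z hZ).Gc 4 (ms (fe c) (fr c) t δ 1 0 (x3 2 1 0) (x3 0 0 0))
      fun x z => fM (kg c g i j) x z * (qf c i x z * qf c j x z) := fun i j => by
    have h1 : (Gf c Z hZ).Gc 4 (ms (fe c) (fr c) t δ 1 0 (x3 0 0 0) (x3 0 0 0)) (fM (kg c g i j)) :=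
      to_ms1 H.sz H.k0 H.kd (gc_M H.sl2 H.k0 (B := x3 0 0 0) rfl (H.sk i j) (H.hk i j))
    exact h1.mulm H.sz (gc_qq H.sz i j 4) (sm_M H.sl2 (H.sk i j))
      ((sm_qf c Z hZ i).mul (sm_qf c Z hZ j)) le_rfl hc
  have sm : ∀ i j, (Gf c Z hZ).Sm fun x z => fM (kg c g i j) x z * (qf c i x z * qf c j x z) :=
    fun i j => (sm_M H.sl2 (H.sk i j)).mul ((sm_qf c Z hZ i).mul (sm_qf c Z hZ j))
  exact Ge.Gc.sum _ (fun i _ => Ge.Gc.sum _ (fun j _ => h0 i j) fun j _ => sm i j)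
    fun i _ => Ge.Sm.sum _ fun j _ => sm i j

omit H in
/-- `ρ²`. -/
theorem r2_eq (x : α) (z : VV n) :
    ∑ k, ∑ l, g x ((1 / 2 : ℝ) • (z.1 + z.2)) k l * (z.1 k - z.2 k) * (z.1 l - z.2 l) =
      (∑ i, qf c i x z * qf c i x z) + ∑ i, ∑ j, fM (kg c g i j) x z * (qf c i x z * qf c j x z) := by
  set p := (1 / 2 : ℝ) • (z.1 + z.2) with hp
  have h1 : ∀ i j, fM (kg c g i j) x z * (qf c i x z * qf c j x z) =
      (∑ k, ∑ l, g x p k l * (c x).M k i * (c x).M l j) * (qf c i x z * qf c j x z) -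
        (if i = j then 1 else 0) * (qf c i x z * qf c j x z) := fun i j => by
    rw [← sub_mul]; rfl
  have h2 : ∑ i, ∑ j, (if i = j then (1 : ℝ) else 0) * (qf c i x z * qf c j x z) =
      ∑ i, qf c i x z * qf c i x z := Finset.sum_congr rfl fun i _ => by simp
  rw [Finset.sum_congr rfl fun i _ => Finset.sum_congr rfl fun j _ => h1 i j]
  simp only [Finset.sum_sub_distrib]
  rw [h2, add_sub_cancel]
  have h3 : ∀ k l, g x p k l * (z.1 k - z.2 k) * (z.1 l - z.2 l) =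
      ∑ i, ∑ j, g x p k l * (c x).M k i * (c x).M l j * (qf c i x z * qf c j x z) := fun k l => by
    rw [dif_eq (c := c) x z k, dif_eq (c := c) x z l, mul_assoc, Finset.sum_mul_sum, Finset.mul_sum]
    refine Finset.sum_congr rfl fun i _ => ?_
    rw [Finset.mul_sum]
    exact Finset.sum_congr rfl fun j _ => by ring
  rw [Finset.sum_congr rfl fun k _ => Finset.sum_congr rfl fun l _ => h3 k l]
  have h4 : ∀ i j, (∑ k, ∑ l, g x p k l * (c x).M k i * (c x).M l j) * (qf c i x z * qf c j x z) =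
      ∑ k, ∑ l, g x p k l * (c x).M k i * (c x).M l j * (qf c i x z * qf c j x z) := fun i j => by
    rw [Finset.sum_mul]
    exact Finset.sum_congr rfl fun k _ => Finset.sum_mul _ _ _
  rw [Finset.sum_congr rfl fun i _ => Finset.sum_congr rfl fun j _ => h4 i j]
  calc _ = ∑ k, ∑ i, ∑ l, ∑ j, g x p k l * (c x).M k i * (c x).M l j * (qf c i x z * qf c j x z) :=
        Finset.sum_congr rfl fun k _ => Finset.sum_comm
    _ = ∑ i, ∑ k, ∑ l, ∑ j, g x p k l * (c x).M k i * (c x).M l j * (qf c i x z * qf c j x z) :=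
        Finset.sum_comm
    _ = ∑ i, ∑ k, ∑ j, ∑ l, g x p k l * (c x).M k i * (c x).M l j * (qf c i x z * qf c j x z) :=
        Finset.sum_congr rfl fun i _ => Finset.sum_congr rfl fun k _ => Finset.sum_comm
    _ = ∑ i, ∑ j, ∑ k, ∑ l, g x p k l * (c x).M k i * (c x).M l j * (qf c i x z * qf c j x z) :=
        Finset.sum_congr rfl fun i _ => Finset.sum_comm

theorem wc : Wc (Gf c Z hZ) (fe c) (fr c) t δ (fM Lm) (fP L)
    (fun x z => ∑ i, qf c i x z * qf c i x z)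
    (fun x z => ∑ i, ∑ j, fM (kg c g i j) x z * (qf c i x z * qf c j x z)) F S :=
  { sz := H.sz
    rd := H.rd
    sl := sm_M H.sl2 H.sLm
    sv := sm_P H.sl2 H.sL
    sρ := Ge.Sm.sum _ fun i _ => (sm_qf c Z hZ i).mul (sm_qf c Z hZ i)
    sw := Ge.Sm.sum _ fun i _ => Ge.Sm.sum _ fun j _ =>
      (sm_M H.sl2 (H.sk i j)).mul ((sm_qf c Z hZ i).mul (sm_qf c Z hZ j))
    la := fun i x z hz => da_M H.sl2 H.sLm i x hz
    lb := fun i => (pg_to H.sl2.rr (fun _ _ _ => zero_le_one) (gc_M H.sl2 (A := fun _ => 1)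
      (fun _ => zero_le_one) (B := Z0) rfl (sm_D1 H.sLm i) (H.hLm i)) fun j _ =>
        ⟨1, fun x z _ => by simp [Z0]⟩).congr fun x z hz => db_M H.sl2 H.sLm i x hz
    he := fun x z hz => by
      change ((c x).T.e : VV n → ℝ) z = Real.exp (Lm x ((1 / 2 : ℝ) • (z.1 + z.2)))
      rw [T_e, ← H.he x z hz, Real.exp_add, Real.exp_log (c x).hE]
    hv := H.gv
    hρ := H.gρ
    hw := H.gw
    cF := H.cF
    cS := H.cS
    hF := H.hF
    hS := fun m hm => by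
      obtain ⟨C, hC⟩ := H.hS m hm
      refine ⟨C, fun x z hz s hs => ?_⟩
      have h := hC x z hz s hs
      rwa [r2_eq (c := c) (g := g) x z] at h
    S0 := H.S0
    S1 := H.S1 }

theorem WW_val (x : α) (z : VV n) : H.wc.WW x z =
    F 0 x (Lm x ((1 / 2 : ℝ) • (z.1 + z.2)) + (L x z.1 + L x z.2 -
      2 * L x ((1 / 2 : ℝ) • (z.1 + z.2)))) +
    Real.exp (Lm x ((1 / 2 : ℝ) • (z.1 + z.2)) + (L x z.1 + L x z.2 -
      2 * L x ((1 / 2 : ℝ) • (z.1 + z.2)))) *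
    S 0 x (∑ k, ∑ l, g x ((1 / 2 : ℝ) • (z.1 + z.2)) k l * (z.1 k - z.2 k) * (z.1 l - z.2 l)) := by
  rw [r2_eq (c := c) (g := g) x z]
  rfl

theorem W0_val (x : α) {z : VV n} {b : ℝ}
    (hb : (c x).φ ((1 / 2 : ℝ) • (z.1 + z.2)) = F 0 x (Lm x ((1 / 2 : ℝ) • (z.1 + z.2))) + b) :
    ((c x).T.w : VV n → ℝ) z = H.wc.W0 x z + b := by
  have he : fe c x z = (c x).E₀ * Real.exp (2 * (c x).l ((1 / 2 : ℝ) • (z.1 + z.2))) := T_e (c x) z
  have hq : ∑ i, qf c i x z * qf c i x z =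
      ∑ i, (∑ k, (c x).N i k * (z.1 k - z.2 k)) ^ 2 := Finset.sum_congr rfl fun i _ => by
    unfold qf
    rw [T_q, _root_.sq]
  have hW : H.wc.W0 x z = F 0 x (Lm x ((1 / 2 : ℝ) • (z.1 + z.2))) +
      fe c x z * (1 / 2 * ∑ i, qf c i x z * qf c i x z) := rfl
  rw [T_w, hW, hb, hq, he]
  ring

/-- **`Hy`.** -/
theorem hy : Hy (Gf c Z hZ) (fe c) (fr c) t δ (fs c s₁ s₂) (fd c s₁ s₂) W
    fun x => ((c x).T.w : VV n → ℝ) := by
  choose b hb using H.eW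
  choose b' hb' using H.eφ
  have eW : ∀ x, ∀ z ∈ (Gf c Z hZ).Z x, W x z = H.wc.WW x z + b x := fun x z hz => by
    rw [H.WW_val x z]; exact hb x z hz
  have eM : ∀ x, ∀ z ∈ (Gf c Z hZ).Z x, ((c x).T.w : VV n → ℝ) z = H.wc.W0 x z + b' x :=
    fun x z hz => H.W0_val x (hb' x z hz)
  have S := H.sl2
  -- the tensors
  have dσ : ∀ i j, (G1 (Mc c) U hU).Gc 3 (cp k) (sg c s₁ i j) := fun i j => (H.h1 i j).mono_K
  have sσ : ∀ i j, (G1 (Mc c) U hU).Sm fun x w => sg c s₁ i j x w - sg c s₂ i j x w := fun i j =>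
    (H.s1 i j).sub (H.s2 i j)
  have ad' : ∃ A, ∀ x, ∀ z ∈ (Gf c Z hZ).Z x, a x ≤ A * δ x z := by
    obtain ⟨A, hA⟩ := H.ad
    refine ⟨|A|, fun x z hz => (hA x z hz).trans ?_⟩
    have r0 := (H.sz.r0 x z hz).le
    have r1 := S.rr.r1 x z hz
    have d0 := H.d0 x z hz
    calc A * (δ x z * fr c x z) ≤ |A| * (δ x z * fr c x z) :=
          mul_le_mul_of_nonneg_right (le_abs_self A) (mul_nonneg d0 r0)
      _ ≤ |A| * (δ x z * 1) :=
          mul_le_mul_of_nonneg_left (mul_le_mul_of_nonneg_left r1 d0) (abs_nonneg A)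
      _ = |A| * δ x z := by rw [mul_one]
  have ns : ∀ (k a : ℕ) (B C : ℕ → ℕ), ∀ j ≤ 3, (Gf c Z hZ).Nn (ms (fe c) (fr c) t δ k a B C j) :=
    fun _ _ _ _ _ _ => ms_nn H.sz _ _ _ _ _
  have fsE : ∀ i j x z, fs c s₁ s₂ i j x z = 1 / 2 * (fX (sg c s₁ i j) x z + fY (sg c s₁ i j) x z) -
      1 / 2 * fY (fun x w => sg c s₁ i j x w - sg c s₂ i j x w) x z := fun i j x z => by
    unfold fs fX fY sg
    ring
  have fdE : ∀ i j x z, fd c s₁ s₂ i j x z = 1 / 2 * fQ (sg c s₁ i j) x z +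
      1 / 2 * fY (fun x w => sg c s₁ i j x w - sg c s₂ i j x w) x z := fun i j x z => by
    unfold fd fQ fY sg
    ring
  exact
    { sz := H.sz
      sW := (H.wc.sWW.add (Ge.Sm.const b)).congr eW
      sW₀ := (H.wc.sW0.add (Ge.Sm.const b')).congr eM
      ss := fun i j => (((Ge.Sm.const fun _ => 1 / 2).mul ((sm_X S (H.s1 i j)).add
        (sm_Y S (H.s1 i j)))).sub ((Ge.Sm.const fun _ => 1 / 2).mul (sm_Y S (sσ i j)))).congr
        fun x z _ => fsE i j x z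
      sd := fun i j => (((Ge.Sm.const fun _ => 1 / 2).mul (sm_Q S (H.s1 i j))).add
        ((Ge.Sm.const fun _ => 1 / 2).mul (sm_Y S (sσ i j)))).congr fun x z _ => fdE i j x z
      hW := (H.wc.hW_of.addc b).congr eW
      hD := (H.wc.hD_of.addc fun x => b x - b' x).congr fun x z hz => by
        rw [eW x z hz, eM x z hz]; ring
      hs := fun i j => by
        have c1 := to_ms1 H.sz H.k0 H.kd (gc_X S H.k0 (H.s1 i j) (dσ i j))
        have c2 := to_ms1 H.sz H.k0 H.kd (gc_Y S H.k0 (H.s1 i j) (dσ i j))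
        have c3 := to_ms1 H.sz H.a0 ad' (gc_Y S H.a0 (sσ i j) (H.h2 i j))
        have c4 := (c1.add c2 (sm_X S (H.s1 i j)) (sm_Y S (H.s1 i j))).cmul
          ((sm_X S (H.s1 i j)).add (sm_Y S (H.s1 i j))) (ns 1 0 _ _) (1 / 2)
        have c5 := c3.cmul (sm_Y S (sσ i j)) (ns 1 0 _ _) (1 / 2)
        have c6 := c4.sub c5 ((Ge.Sm.const fun _ => 1 / 2).mul ((sm_X S (H.s1 i j)).add
          (sm_Y S (H.s1 i j)))) ((Ge.Sm.const fun _ => 1 / 2).mul (sm_Y S (sσ i j))) (ns 1 0 _ _)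
        refine (c6.monom H.sz (κ := 1) (B := x3 0 0 0) (C := x3 0 0 0) le_rfl fun j _ => ?_).congr
          fun x z _ => fsE i j x z
        rw [x000]
        exact ⟨Nat.zero_le _, Nat.zero_le _⟩
      hd := fun i j => by
        have c1 := to_ms1 H.sz H.k0 H.kd (gc_Q S H.k0 (K := 3) (H.s1 i j) fun l => (H.h1 i j).2.2 l)
        have c3 := to_ms2 H.sz H.a0 H.ad (B := O1) (fun j _ => by rw [O1_eq]; omega)
          (gc_Y S H.a0 (sσ i j) (H.h2 i j))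
        have c4 := c1.cmul (sm_Q S (H.s1 i j)) (ns 1 0 _ _) (1 / 2)
        have c5 := c3.cmul (sm_Y S (sσ i j)) (ns 1 0 _ _) (1 / 2)
        exact (c4.add c5 ((Ge.Sm.const fun _ => 1 / 2).mul (sm_Q S (H.s1 i j)))
          ((Ge.Sm.const fun _ => 1 / 2).mul (sm_Y S (sσ i j)))).congr fun x z _ => fdE i j x z }

end Hq

end Vale.Agent.P088.R2.H464.B
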