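import Vale.Agent.P088.R2.H464.B.Gc

/-!
# P088: the even and odd parts of `Γ_x ± Γ_y`, `Λ_x ± Λ_y` in the variables `q`, `p`

`∂_x = ∂_a + ∂_b / 2`, `∂_y = -∂_a + ∂_b / 2`, `s_x = s + d`, `s_y = s - d`.
-/

open Set Filter
open scoped ContDiff Topology

noncomputable section

set_option linter.unusedSectionVars false

namespace Vale.Agent.P088.R2.H464.B

variable {α ι E : Type*} [NormedAddCommGroup E] [NormedSpace ℝ E] [Fintype ι]
variable (G : Ge α ι E)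

/-- `Γ_x + Γ_y`. -/
def Ge.Gp (s d : ι → ι → α → E → ℝ) (f g : α → E → ℝ) : α → E → ℝ := fun x z =>
  ∑ i, ∑ j, (s i j x z * (2 * (G.da i f x z * G.da j g x z)) +
    s i j x z * (1 / 2 * (G.db i f x z * G.db j g x z)) +
    d i j x z * (G.da i f x z * G.db j g x z) + d i j x z * (G.db i f x z * G.da j g x z))

/-- `Γ_x - Γ_y`. -/
def Ge.Gm (s d : ι → ι → α → E → ℝ) (f g : α → E → ℝ) : α → E → ℝ := fun x z =>
  ∑ i, ∑ j, (d i j x z * (2 * (G.da i f x z * G.da j g x z)) +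
    d i j x z * (1 / 2 * (G.db i f x z * G.db j g x z)) +
    s i j x z * (G.da i f x z * G.db j g x z) + s i j x z * (G.db i f x z * G.da j g x z))

/-- `Λ_x + Λ_y`. -/
def Ge.Lp (s d : ι → ι → α → E → ℝ) (f : α → E → ℝ) : α → E → ℝ := fun x z =>
  ∑ i, ∑ j, (2 * G.da i (fun x z => s i j x z * G.da j f x z) x z +
    1 / 2 * G.db i (fun x z => s i j x z * G.db j f x z) x z +
    G.da i (fun x z => d i j x z * G.db j f x z) x z +
    G.db i (fun x z => d i j x z * G.da j f x z) x z)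

/-- `Λ_x - Λ_y`. -/
def Ge.Lm (s d : ι → ι → α → E → ℝ) (f : α → E → ℝ) : α → E → ℝ := fun x z =>
  ∑ i, ∑ j, (2 * G.da i (fun x z => d i j x z * G.da j f x z) x z +
    1 / 2 * G.db i (fun x z => d i j x z * G.db j f x z) x z +
    G.da i (fun x z => s i j x z * G.db j f x z) x z +
    G.db i (fun x z => s i j x z * G.da j f x z) x z)

variable {G} {s s' d d' : ι → ι → α → E → ℝ} {f g f' g' : α → E → ℝ}
  {ps pd pf pg : ℕ → α → E → ℝ} {K : ℕ}

/-! ## Smoothness -/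

theorem Ge.Sm.Gp (hs : ∀ i j, G.Sm (s i j)) (hd : ∀ i j, G.Sm (d i j)) (hf : G.Sm f) (hg : G.Sm g) :
    G.Sm (G.Gp s d f g) :=
  Ge.Sm.sum _ fun i _ => Ge.Sm.sum _ fun j _ =>
    ((((hs i j).mul ((Ge.Sm.const fun _ => 2).mul ((hf.da i).mul (hg.da j)))).add
      ((hs i j).mul ((Ge.Sm.const fun _ => 1 / 2).mul ((hf.db i).mul (hg.db j))))).add
      ((hd i j).mul ((hf.da i).mul (hg.db j)))).add ((hd i j).mul ((hf.db i).mul (hg.da j)))

theorem Ge.Sm.Gm (hs : ∀ i j, G.Sm (s i j)) (hd : ∀ i j, G.Sm (d i j)) (hf : G.Sm f) (hg : G.Sm g) :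
    G.Sm (G.Gm s d f g) :=
  Ge.Sm.sum _ fun i _ => Ge.Sm.sum _ fun j _ =>
    ((((hd i j).mul ((Ge.Sm.const fun _ => 2).mul ((hf.da i).mul (hg.da j)))).add
      ((hd i j).mul ((Ge.Sm.const fun _ => 1 / 2).mul ((hf.db i).mul (hg.db j))))).add
      ((hs i j).mul ((hf.da i).mul (hg.db j)))).add ((hs i j).mul ((hf.db i).mul (hg.da j)))

theorem Ge.Sm.Lp (hs : ∀ i j, G.Sm (s i j)) (hd : ∀ i j, G.Sm (d i j)) (hf : G.Sm f) :
    G.Sm (G.Lp s d f) :=
  Ge.Sm.sum _ fun i _ => Ge.Sm.sum _ fun j _ =>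
    ((((Ge.Sm.const fun _ => 2).mul (((hs i j).mul (hf.da j)).da i)).add
      ((Ge.Sm.const fun _ => 1 / 2).mul (((hs i j).mul (hf.db j)).db i))).add
      (((hd i j).mul (hf.db j)).da i)).add (((hd i j).mul (hf.da j)).db i)

theorem Ge.Sm.Lm (hs : ∀ i j, G.Sm (s i j)) (hd : ∀ i j, G.Sm (d i j)) (hf : G.Sm f) :
    G.Sm (G.Lm s d f) :=
  Ge.Sm.sum _ fun i _ => Ge.Sm.sum _ fun j _ =>
    ((((Ge.Sm.const fun _ => 2).mul (((hd i j).mul (hf.da j)).da i)).add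
      ((Ge.Sm.const fun _ => 1 / 2).mul (((hd i j).mul (hf.db j)).db i))).add
      (((hs i j).mul (hf.db j)).da i)).add (((hs i j).mul (hf.da j)).db i)

/-! ## Linearity -/

theorem da_add (sf : G.Sm f) (sg : G.Sm g) (i : ι) (x : α) {z : E} (hz : z ∈ G.Z x) :
    G.da i (fun x z => f x z + g x z) x z = G.da i f x z + G.da i g x z := by
  show fderiv ℝ (fun z => f x z + g x z) z _ = _
  rw [fderiv_fun_add (sf.at x hz) (sg.at x hz)]
  rfl

theorem db_add (sf : G.Sm f) (sg : G.Sm g) (i : ι) (x : α) {z : E} (hz : z ∈ G.Z x) :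
    G.db i (fun x z => f x z + g x z) x z = G.db i f x z + G.db i g x z := by
  show fderiv ℝ (fun z => f x z + g x z) z _ = _
  rw [fderiv_fun_add (sf.at x hz) (sg.at x hz)]
  rfl

theorem da_sub (sf : G.Sm f) (sg : G.Sm g) (i : ι) (x : α) {z : E} (hz : z ∈ G.Z x) :
    G.da i (fun x z => f x z - g x z) x z = G.da i f x z - G.da i g x z := by
  show fderiv ℝ (fun z => f x z - g x z) z _ = _
  rw [fderiv_fun_sub (sf.at x hz) (sg.at x hz)]
  rfl

theorem db_sub (sf : G.Sm f) (sg : G.Sm g) (i : ι) (x : α) {z : E} (hz : z ∈ G.Z x) :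
    G.db i (fun x z => f x z - g x z) x z = G.db i f x z - G.db i g x z := by
  show fderiv ℝ (fun z => f x z - g x z) z _ = _
  rw [fderiv_fun_sub (sf.at x hz) (sg.at x hz)]
  rfl

theorem da_mul (sf : G.Sm f) (sg : G.Sm g) (i : ι) (x : α) {z : E} (hz : z ∈ G.Z x) :
    G.da i (fun x z => f x z * g x z) x z = G.da i f x z * g x z + f x z * G.da i g x z := by
  show fderiv ℝ (fun z => f x z * g x z) z _ = _
  rw [fderiv_fun_mul (sf.at x hz) (sg.at x hz)]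
  simp only [_root_.add_apply, _root_.smul_apply, smul_eq_mul, Ge.da]
  ring

theorem db_mul (sf : G.Sm f) (sg : G.Sm g) (i : ι) (x : α) {z : E} (hz : z ∈ G.Z x) :
    G.db i (fun x z => f x z * g x z) x z = G.db i f x z * g x z + f x z * G.db i g x z := by
  show fderiv ℝ (fun z => f x z * g x z) z _ = _
  rw [fderiv_fun_mul (sf.at x hz) (sg.at x hz)]
  simp only [_root_.add_apply, _root_.smul_apply, smul_eq_mul, Ge.db]
  ring

theorem da_congr (e : ∀ x, ∀ z ∈ G.Z x, f' x z = f x z) (i : ι) (x : α) {z : E} (hz : z ∈ G.Z x) :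
    G.da i f' x z = G.da i f x z := by
  show fderiv ℝ (f' x) z _ = fderiv ℝ (f x) z _
  rw [fd_congr x hz e]

theorem db_congr (e : ∀ x, ∀ z ∈ G.Z x, f' x z = f x z) (i : ι) (x : α) {z : E} (hz : z ∈ G.Z x) :
    G.db i f' x z = G.db i f x z := by
  show fderiv ℝ (f' x) z _ = fderiv ℝ (f x) z _
  rw [fd_congr x hz e]

/-! ## Classes -/

section cls

variable (hps : ∀ j ≤ K + 1, G.Nn (ps j)) (hpd : ∀ j ≤ K + 1, G.Nn (pd j))
  (hpf : ∀ j ≤ K + 2, G.Nn (pf j))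

/-- `∂_a (u ∂_a f)`. -/
theorem cl_aa {u : α → E → ℝ} {pu : ℕ → α → E → ℝ} (hpu : ∀ j ≤ K + 1, G.Nn (pu j))
    (hpf : ∀ j ≤ K + 2, G.Nn (pf j)) (hu : G.Gc (K + 1) pu u)
    (su : G.Sm u) (hf : G.Gd (K + 1) pf f) (sf : G.Sm f) (i j : ι) :
    G.Gc K (fun l => cv pu (fun m => pf (m + 1)) (l + 1))
      (G.da i fun x z => u x z * G.da j f x z) :=
  ((hu.mul (hf.2.1 j) hpu (fun m hm => hpf (m + 1) (Nat.succ_le_succ hm)) su (sf.da j)).2.1 i)

theorem cl_ab {u : α → E → ℝ} {pu : ℕ → α → E → ℝ} (hpu : ∀ j ≤ K + 1, G.Nn (pu j))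
    (hpf : ∀ j ≤ K + 2, G.Nn (pf j)) (hu : G.Gc (K + 1) pu u)
    (su : G.Sm u) (hf : G.Gd (K + 1) pf f) (sf : G.Sm f) (i j : ι) :
    G.Gc K (fun l => cv pu pf (l + 1)) (G.da i fun x z => u x z * G.db j f x z) :=
  ((hu.mul (hf.2.2 j) hpu (fun m hm => hpf m (hm.trans (Nat.le_succ _))) su (sf.db j)).2.1 i)

theorem cl_ba {u : α → E → ℝ} {pu : ℕ → α → E → ℝ} (hpu : ∀ j ≤ K + 1, G.Nn (pu j))
    (hpf : ∀ j ≤ K + 2, G.Nn (pf j)) (hu : G.Gc (K + 1) pu u)
    (su : G.Sm u) (hf : G.Gd (K + 1) pf f) (sf : G.Sm f) (i j : ι) :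
    G.Gc K (cv pu fun m => pf (m + 1)) (G.db i fun x z => u x z * G.da j f x z) :=
  ((hu.mul (hf.2.1 j) hpu (fun m hm => hpf (m + 1) (Nat.succ_le_succ hm)) su (sf.da j)).2.2 i)

theorem cl_bb {u : α → E → ℝ} {pu : ℕ → α → E → ℝ} (hpu : ∀ j ≤ K + 1, G.Nn (pu j))
    (hpf : ∀ j ≤ K + 2, G.Nn (pf j)) (hu : G.Gc (K + 1) pu u)
    (su : G.Sm u) (hf : G.Gd (K + 1) pf f) (sf : G.Sm f) (i j : ι) :
    G.Gc K (cv pu pf) (G.db i fun x z => u x z * G.db j f x z) :=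
  ((hu.mul (hf.2.2 j) hpu (fun m hm => hpf m (hm.trans (Nat.le_succ _))) su (sf.db j)).2.2 i)

/-- The class of `Lp s d f`. -/
theorem Ge.Gc.Lp {q : ℕ → α → E → ℝ} (hps : ∀ j ≤ K + 1, G.Nn (ps j)) (hpd : ∀ j ≤ K + 1, G.Nn (pd j))
    (hpf : ∀ j ≤ K + 2, G.Nn (pf j)) (hs : ∀ i j, G.Gc (K + 1) ps (s i j))
    (hd : ∀ i j, G.Gc (K + 1) pd (d i j)) (ss : ∀ i j, G.Sm (s i j)) (sd : ∀ i j, G.Sm (d i j))
    (hf : G.Gd (K + 1) pf f) (sf : G.Sm f)
    (hq : ∀ l ≤ K, ∃ A, ∀ x, ∀ z ∈ G.Z x,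
      cv ps (fun m => pf (m + 1)) (l + 1) x z ≤ A * q l x z ∧ cv ps pf l x z ≤ A * q l x z ∧
      cv pd pf (l + 1) x z ≤ A * q l x z ∧ cv pd (fun m => pf (m + 1)) l x z ≤ A * q l x z) :
    G.Gc K q (G.Lp s d f) := by
  have n1 : ∀ l ≤ K, G.Nn (cv ps (fun m => pf (m + 1)) (l + 1)) := fun l hl =>
    cv_nn (K := K + 1) hps (fun m hm => hpf (m + 1) (Nat.succ_le_succ hm)) (l + 1)
      (Nat.succ_le_succ hl)
  have n2 : ∀ l ≤ K, G.Nn (cv ps pf l) := fun l hl =>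
    cv_nn (K := K + 1) hps (fun m hm => hpf m (hm.trans (Nat.le_succ _))) l (hl.trans (Nat.le_succ _))
  have n3 : ∀ l ≤ K, G.Nn (cv pd pf (l + 1)) := fun l hl =>
    cv_nn (K := K + 1) hpd (fun m hm => hpf m (hm.trans (Nat.le_succ _))) (l + 1)
      (Nat.succ_le_succ hl)
  have n4 : ∀ l ≤ K, G.Nn (cv pd (fun m => pf (m + 1)) l) := fun l hl =>
    cv_nn (K := K + 1) hpd (fun m hm => hpf (m + 1) (Nat.succ_le_succ hm)) l
      (hl.trans (Nat.le_succ _))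
  refine Ge.Gc.sum _ (fun i _ => Ge.Gc.sum _ (fun j _ => ?_) fun j _ => ?_) fun i _ => ?_
  · have s1 := ((ss i j).mul (sf.da j)).da i
    have s2 := ((ss i j).mul (sf.db j)).db i
    have s3 := ((sd i j).mul (sf.db j)).da i
    have s4 := ((sd i j).mul (sf.da j)).db i
    have c1 := (cl_aa hps hpf (hs i j) (ss i j) hf sf i j).cmul s1 n1 2
    have c2 := (cl_bb hps hpf (hs i j) (ss i j) hf sf i j).cmul s2 n2 (1 / 2)
    have c3 := cl_ab hpd hpf (hd i j) (sd i j) hf sf i j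
    have c4 := cl_ba hpd hpf (hd i j) (sd i j) hf sf i j
    have m1 := c1.mono n1 (p' := q) fun l hl => (hq l hl).imp fun A h x z hz => (h x z hz).1
    have m2 := c2.mono n2 (p' := q) fun l hl => (hq l hl).imp fun A h x z hz => (h x z hz).2.1
    have m3 := c3.mono n3 (p' := q) fun l hl => (hq l hl).imp fun A h x z hz => (h x z hz).2.2.1
    have m4 := c4.mono n4 (p' := q) fun l hl => (hq l hl).imp fun A h x z hz => (h x z hz).2.2.2
    exact ((m1.add m2 ((Ge.Sm.const _).mul s1) ((Ge.Sm.const _).mul s2)).add m3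
      (((Ge.Sm.const _).mul s1).add ((Ge.Sm.const _).mul s2)) s3).add m4
      ((((Ge.Sm.const _).mul s1).add ((Ge.Sm.const _).mul s2)).add s3) s4
  · exact ((((Ge.Sm.const fun _ => 2).mul (((ss i j).mul (sf.da j)).da i)).add
      ((Ge.Sm.const fun _ => 1 / 2).mul (((ss i j).mul (sf.db j)).db i))).add
      (((sd i j).mul (sf.db j)).da i)).add (((sd i j).mul (sf.da j)).db i)
  · exact Ge.Sm.sum _ fun j _ =>
      ((((Ge.Sm.const fun _ => 2).mul (((ss i j).mul (sf.da j)).da i)).add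
      ((Ge.Sm.const fun _ => 1 / 2).mul (((ss i j).mul (sf.db j)).db i))).add
      (((sd i j).mul (sf.db j)).da i)).add (((sd i j).mul (sf.da j)).db i)

theorem Lm_eq (s d : ι → ι → α → E → ℝ) (f : α → E → ℝ) : G.Lm s d f = G.Lp d s f := rfl

theorem Gm_eq (s d : ι → ι → α → E → ℝ) (f g : α → E → ℝ) : G.Gm s d f g = G.Gp d s f g := rfl

end cls

/-- The class of `Gp s d f g`. -/
theorem Ge.Gc.Gp {q : ℕ → α → E → ℝ} (hps : ∀ j ≤ K, G.Nn (ps j)) (hpd : ∀ j ≤ K, G.Nn (pd j))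
    (hpf : ∀ j ≤ K + 1, G.Nn (pf j)) (hpg : ∀ j ≤ K + 1, G.Nn (pg j))
    (hs : ∀ i j, G.Gc K ps (s i j)) (hd : ∀ i j, G.Gc K pd (d i j))
    (ss : ∀ i j, G.Sm (s i j)) (sd : ∀ i j, G.Sm (d i j))
    (hf : G.Gd K pf f) (sf : G.Sm f) (hg : G.Gd K pg g) (sg : G.Sm g)
    (hq : ∀ l ≤ K, ∃ A, ∀ x, ∀ z ∈ G.Z x,
      cv ps (cv (fun m => pf (m + 1)) fun m => pg (m + 1)) l x z ≤ A * q l x z ∧
      cv ps (cv pf pg) l x z ≤ A * q l x z ∧
      cv pd (cv (fun m => pf (m + 1)) pg) l x z ≤ A * q l x z ∧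
      cv pd (cv pf fun m => pg (m + 1)) l x z ≤ A * q l x z) :
    G.Gc K q (G.Gp s d f g) := by
  have pf0 : ∀ j ≤ K, G.Nn (pf j) := fun j hj => hpf j (hj.trans (Nat.le_succ K))
  have pf1 : ∀ j ≤ K, G.Nn (pf (j + 1)) := fun j hj => hpf (j + 1) (Nat.succ_le_succ hj)
  have pg0 : ∀ j ≤ K, G.Nn (pg j) := fun j hj => hpg j (hj.trans (Nat.le_succ K))
  have pg1 : ∀ j ≤ K, G.Nn (pg (j + 1)) := fun j hj => hpg (j + 1) (Nat.succ_le_succ hj)
  have sm : ∀ i j, G.Sm fun x z => s i j x z * (2 * (G.da i f x z * G.da j g x z)) +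
    s i j x z * (1 / 2 * (G.db i f x z * G.db j g x z)) +
    d i j x z * (G.da i f x z * G.db j g x z) + d i j x z * (G.db i f x z * G.da j g x z) :=
    fun i j => ((((ss i j).mul ((Ge.Sm.const fun _ => 2).mul ((sf.da i).mul (sg.da j)))).add
      ((ss i j).mul ((Ge.Sm.const fun _ => 1 / 2).mul ((sf.db i).mul (sg.db j))))).add
      ((sd i j).mul ((sf.da i).mul (sg.db j)))).add ((sd i j).mul ((sf.db i).mul (sg.da j)))
  refine Ge.Gc.sum _ (fun i _ => Ge.Gc.sum _ (fun j _ => ?_) fun j _ => sm i j)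
    fun i _ => Ge.Sm.sum _ fun j _ => sm i j
  have a1 := (hf.2.1 i).mul (hg.2.1 j) pf1 pg1 (sf.da i) (sg.da j)
  have a2 := (hf.2.2 i).mul (hg.2.2 j) pf0 pg0 (sf.db i) (sg.db j)
  have a3 := (hf.2.1 i).mul (hg.2.2 j) pf1 pg0 (sf.da i) (sg.db j)
  have a4 := (hf.2.2 i).mul (hg.2.1 j) pf0 pg1 (sf.db i) (sg.da j)
  have t1 := (sf.da i).mul (sg.da j)
  have t2 := (sf.db i).mul (sg.db j)
  have t3 := (sf.da i).mul (sg.db j)
  have t4 := (sf.db i).mul (sg.da j)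
  have c1 := (hs i j).mul (a1.cmul t1 (cv_nn pf1 pg1) 2) hps (cv_nn pf1 pg1) (ss i j)
    ((Ge.Sm.const fun _ => 2).mul t1)
  have c2 := (hs i j).mul (a2.cmul t2 (cv_nn pf0 pg0) (1 / 2)) hps (cv_nn pf0 pg0) (ss i j)
    ((Ge.Sm.const fun _ => 1 / 2).mul t2)
  have c3 := (hd i j).mul a3 hpd (cv_nn pf1 pg0) (sd i j) t3
  have c4 := (hd i j).mul a4 hpd (cv_nn pf0 pg1) (sd i j) t4
  have m1 := c1.mono (cv_nn hps (cv_nn pf1 pg1)) (p' := q) fun l hl =>
    (hq l hl).imp fun A h x z hz => (h x z hz).1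
  have m2 := c2.mono (cv_nn hps (cv_nn pf0 pg0)) (p' := q) fun l hl =>
    (hq l hl).imp fun A h x z hz => (h x z hz).2.1
  have m3 := c3.mono (cv_nn hpd (cv_nn pf1 pg0)) (p' := q) fun l hl =>
    (hq l hl).imp fun A h x z hz => (h x z hz).2.2.1
  have m4 := c4.mono (cv_nn hpd (cv_nn pf0 pg1)) (p' := q) fun l hl =>
    (hq l hl).imp fun A h x z hz => (h x z hz).2.2.2
  have u1 := (ss i j).mul ((Ge.Sm.const (G := G) fun _ => 2).mul t1)
  have u2 := (ss i j).mul ((Ge.Sm.const (G := G) fun _ => 1 / 2).mul t2)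
  have u3 := (sd i j).mul t3
  have u4 := (sd i j).mul t4
  exact ((m1.add m2 u1 u2).add m3 (u1.add u2) u3).add m4 ((u1.add u2).add u3) u4

/-! ## Linearity of `Gp`, `Lp` -/

theorem Gp_add_s (s s' d d' : ι → ι → α → E → ℝ) (f g : α → E → ℝ) (x : α) (z : E) :
    G.Gp (fun i j x z => s i j x z + s' i j x z) (fun i j x z => d i j x z + d' i j x z) f g x z =
      G.Gp s d f g x z + G.Gp s' d' f g x z := by
  unfold Ge.Gp
  rw [← Finset.sum_add_distrib]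
  refine Finset.sum_congr rfl fun i _ => ?_
  rw [← Finset.sum_add_distrib]
  exact Finset.sum_congr rfl fun j _ => by ring

theorem Lp_add_s (ss : ∀ i j, G.Sm (s i j)) (ss' : ∀ i j, G.Sm (s' i j)) (sd : ∀ i j, G.Sm (d i j))
    (sd' : ∀ i j, G.Sm (d' i j)) (sf : G.Sm f) (x : α) {z : E} (hz : z ∈ G.Z x) :
    G.Lp (fun i j x z => s i j x z + s' i j x z) (fun i j x z => d i j x z + d' i j x z) f x z =
      G.Lp s d f x z + G.Lp s' d' f x z := by
  unfold Ge.Lp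
  rw [← Finset.sum_add_distrib]
  refine Finset.sum_congr rfl fun i _ => ?_
  rw [← Finset.sum_add_distrib]
  refine Finset.sum_congr rfl fun j _ => ?_
  have e1 : ∀ (u v w : α → E → ℝ), G.Sm u → G.Sm v → G.Sm w →
      G.da i (fun x z => (u x z + v x z) * w x z) x z =
      G.da i (fun x z => u x z * w x z) x z + G.da i (fun x z => v x z * w x z) x z := by
    intro u v w hu hv hw
    rw [← da_add (hu.mul hw) (hv.mul hw) i x hz]
    exact da_congr (fun x z _ => by ring) i x hz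
  have e2 : ∀ (u v w : α → E → ℝ), G.Sm u → G.Sm v → G.Sm w →
      G.db i (fun x z => (u x z + v x z) * w x z) x z =
      G.db i (fun x z => u x z * w x z) x z + G.db i (fun x z => v x z * w x z) x z := by
    intro u v w hu hv hw
    rw [← db_add (hu.mul hw) (hv.mul hw) i x hz]
    exact db_congr (fun x z _ => by ring) i x hz
  rw [e1 _ _ _ (ss i j) (ss' i j) (sf.da j), e2 _ _ _ (ss i j) (ss' i j) (sf.db j),
    e1 _ _ _ (sd i j) (sd' i j) (sf.db j), e2 _ _ _ (sd i j) (sd' i j) (sf.da j)]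
  ring

theorem Lp_sub_f (ss : ∀ i j, G.Sm (s i j)) (sd : ∀ i j, G.Sm (d i j)) (sf : G.Sm f) (sg : G.Sm g)
    (x : α) {z : E} (hz : z ∈ G.Z x) :
    G.Lp s d (fun x z => f x z - g x z) x z = G.Lp s d f x z - G.Lp s d g x z := by
  unfold Ge.Lp
  rw [← Finset.sum_sub_distrib]
  refine Finset.sum_congr rfl fun i _ => ?_
  rw [← Finset.sum_sub_distrib]
  refine Finset.sum_congr rfl fun j _ => ?_
  have e1 : ∀ (u : α → E → ℝ), G.Sm u →
      G.da i (fun x z => u x z * G.da j (fun x z => f x z - g x z) x z) x z =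
      G.da i (fun x z => u x z * G.da j f x z) x z - G.da i (fun x z => u x z * G.da j g x z) x z := by
    intro u hu
    rw [← da_sub (hu.mul (sf.da j)) (hu.mul (sg.da j)) i x hz]
    exact da_congr (fun x z hz => by rw [da_sub sf sg j x hz]; ring) i x hz
  have e2 : ∀ (u : α → E → ℝ), G.Sm u →
      G.db i (fun x z => u x z * G.db j (fun x z => f x z - g x z) x z) x z =
      G.db i (fun x z => u x z * G.db j f x z) x z - G.db i (fun x z => u x z * G.db j g x z) x z := by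
    intro u hu
    rw [← db_sub (hu.mul (sf.db j)) (hu.mul (sg.db j)) i x hz]
    exact db_congr (fun x z hz => by rw [db_sub sf sg j x hz]; ring) i x hz
  have e3 : ∀ (u : α → E → ℝ), G.Sm u →
      G.da i (fun x z => u x z * G.db j (fun x z => f x z - g x z) x z) x z =
      G.da i (fun x z => u x z * G.db j f x z) x z - G.da i (fun x z => u x z * G.db j g x z) x z := by
    intro u hu
    rw [← da_sub (hu.mul (sf.db j)) (hu.mul (sg.db j)) i x hz]
    exact da_congr (fun x z hz => by rw [db_sub sf sg j x hz]; ring) i x hz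
  have e4 : ∀ (u : α → E → ℝ), G.Sm u →
      G.db i (fun x z => u x z * G.da j (fun x z => f x z - g x z) x z) x z =
      G.db i (fun x z => u x z * G.da j f x z) x z - G.db i (fun x z => u x z * G.da j g x z) x z := by
    intro u hu
    rw [← db_sub (hu.mul (sf.da j)) (hu.mul (sg.da j)) i x hz]
    exact db_congr (fun x z hz => by rw [da_sub sf sg j x hz]; ring) i x hz
  rw [e1 _ (ss i j), e2 _ (ss i j), e3 _ (sd i j), e4 _ (sd i j)]
  ring

end Vale.Agent.P088.R2.H464.B
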