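import Vale.Agent.P088.R2.H464.B.Thx
import Vale.Agent.P088.R2.H961.W.Tid

/-!
# P088: the first order and zero order parts of the exact identity in a cell
-/

open Set Filter
open scoped ContDiff Topology

noncomputable section

set_option linter.unusedSectionVars false

namespace Vale.Agent.P088.R2.H464.B

open Vale.Agent.P088.R2.H961.GW Vale.Agent.P088.R2.H644

variable {α ι E : Type*} [NormedAddCommGroup E] [NormedSpace ℝ E] [Fintype ι] [DecidableEq ι]
  {G : Ge α ι E} {e r t δ κ : α → E → ℝ} {s d s' d' : ι → ι → α → E → ℝ}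
  {W W₀ L L' f g β γ : α → E → ℝ} {u w : ι → α → E → ℝ}

/-- `Γ_x + Γ_y` on a gradient and a vector. -/
def GpV (G : Ge α ι E) (s d : ι → ι → α → E → ℝ) (L : α → E → ℝ) (u w : ι → α → E → ℝ) :
    α → E → ℝ := fun x z =>
  ∑ i, ∑ j, (s i j x z * (2 * (G.da i L x z * u j x z)) +
    s i j x z * (1 / 2 * (G.db i L x z * w j x z)) +
    d i j x z * (G.da i L x z * w j x z) + d i j x z * (G.db i L x z * u j x z))

theorem Gp_V (s d : ι → ι → α → E → ℝ) (L f : α → E → ℝ) :
    G.Gp s d L f = GpV G s d L (fun j => G.da j f) fun j => G.db j f := rfl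

theorem Gm_V (s d : ι → ι → α → E → ℝ) (L f : α → E → ℝ) :
    G.Gm s d L f = GpV G d s L (fun j => G.da j f) fun j => G.db j f := rfl

theorem GpV_comb (s d : ι → ι → α → E → ℝ) (L : α → E → ℝ) (u w u' w' : ι → α → E → ℝ) (x : α)
    (z : E) (p q : ℝ) : p * GpV G s d L u w x z - q * GpV G s d L u' w' x z =
      GpV G s d L (fun j x z => p * u j x z - q * u' j x z)
        (fun j x z => p * w j x z - q * w' j x z) x z := by
  unfold GpV
  simp only [Finset.mul_sum]
  rw [← Finset.sum_sub_distrib]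
  refine Finset.sum_congr rfl fun i _ => ?_
  rw [← Finset.sum_sub_distrib]
  exact Finset.sum_congr rfl fun j _ => by ring

theorem GpV_congr (x : α) {z : E} (hz : z ∈ G.Z x) {L L' : α → E → ℝ}
    (e : ∀ x, ∀ z ∈ G.Z x, L' x z = L x z) {u' w' : ι → α → E → ℝ} (hu : ∀ j, u' j x z = u j x z)
    (hw : ∀ j, w' j x z = w j x z) : GpV G s d L' u' w' x z = GpV G s d L u w x z := by
  unfold GpV
  refine Finset.sum_congr rfl fun i _ => Finset.sum_congr rfl fun j _ => ?_
  rw [da_congr e i x hz, db_congr e i x hz, hu, hw]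

theorem GpV_sub (sL : G.Sm L) (sL' : G.Sm L') (x : α) {z : E} (hz : z ∈ G.Z x) :
    GpV G s d (fun x z => L x z - L' x z) u w x z = GpV G s d L u w x z - GpV G s d L' u w x z := by
  unfold GpV
  rw [← Finset.sum_sub_distrib]
  refine Finset.sum_congr rfl fun i _ => ?_
  rw [← Finset.sum_sub_distrib]
  refine Finset.sum_congr rfl fun j _ => ?_
  rw [da_sub sL sL' i x hz, db_sub sL sL' i x hz]
  ring

theorem GpV_add_s (x : α) (z : E) :
    GpV G (fun i j x z => s i j x z + s' i j x z) (fun i j x z => d i j x z + d' i j x z) L u w x z =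
      GpV G s d L u w x z + GpV G s' d' L u w x z := by
  unfold GpV
  rw [← Finset.sum_add_distrib]
  refine Finset.sum_congr rfl fun i _ => ?_
  rw [← Finset.sum_add_distrib]
  exact Finset.sum_congr rfl fun j _ => by ring

/-- The size. -/
theorem GpV_O {gs gl gu : α → E → ℝ} (ns : G.Nn gs) (nl : G.Nn gl) (nu : G.Nn gu)
    (hs : ∀ i j, G.O gs (s i j)) (hd : ∀ i j, G.O gs (d i j)) (la : ∀ i, G.O gl (G.da i L))
    (lb : ∀ i, G.O gl (G.db i L)) (hu : ∀ j, G.O gu (u j)) (hw : ∀ j, G.O gu (w j)) :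
    G.O (fun x z => gs x z * (gl x z * gu x z)) (GpV G s d L u w) := by
  have nlu : G.Nn fun x z => gl x z * gu x z := fun x z h => mul_nonneg (nl x z h) (nu x z h)
  refine Ge.O.sum _ fun i _ => Ge.O.sum _ fun j _ => ?_
  exact ((((hs i j).mul ns (((la i).mul nl (hu j)).cmul nlu 2)).add
    ((hs i j).mul ns (((lb i).mul nl (hw j)).cmul nlu (1 / 2)))).add
    ((hd i j).mul ns ((la i).mul nl (hw j)))).add ((hd i j).mul ns ((lb i).mul nl (hu j)))

theorem tS_zr : tS (zr : ι → ι → α → E → ℝ) = idn := by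
  funext i j x z
  simp [tS, zr]

/-! ## The skew part -/

/-- The commutator of `β`, `γ` in the derivations. -/
def uv (G : Ge α ι E) (β γ : α → E → ℝ) (j : ι) : α → E → ℝ := fun x z =>
  β x z * G.da j γ x z - γ x z * G.da j β x z

/-- The commutator of `β`, `γ` in the derivations. -/
def wv (G : Ge α ι E) (β γ : α → E → ℝ) (j : ι) : α → E → ℝ := fun x z =>
  β x z * G.db j γ x z - γ x z * G.db j β x z

section cell

variable (h : Hs G s d) (sW : G.Sm W) (x : α) {z : E} (hz : z ∈ G.Z x)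
include h

theorem sm_sub (sβ : G.Sm β) (sγ : G.Sm γ) : G.Sm fun x z => β x z - γ x z := sβ.sub sγ

theorem half_p (sf : G.Sm f) (x : α) {z : E} (hz : z ∈ G.Z x) :
    (SX G s d x).Λ (f x) z = 1 / 2 * (G.Lp (tS s) d f x z + G.Lm (tS s) d f x z) ∧
    (SY G s d x).Λ (f x) z = 1 / 2 * (G.Lp (tS s) d f x z - G.Lm (tS s) d f x z) := by
  rw [← lp_eq sf x hz h.ss h.sd, ← lm_eq sf x hz h.ss h.sd]
  constructor <;> ring

include sW hz

omit hz in
theorem sLX : G.Sm fun x z => (SX G s d x).Λ (W x) z := fun x => (h.okx x).sL (sW x)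
omit hz in
theorem sLY : G.Sm fun x z => (SY G s d x).Λ (W x) z := fun x => (h.oky x).sL (sW x)

/-- One vector field. -/
theorem V_eq (f : α → E → ℝ) :
    (SY G s d x).Γ ((SX G s d x).Λ (W x)) (f x) z - (SX G s d x).Γ ((SY G s d x).Λ (W x)) (f x) z =
      1 / 2 * (GpV G (tS s) d (G.Lm (tS s) d W) (fun j => G.da j f) (fun j => G.db j f) x z -
        GpV G d (tS s) (G.Lp (tS s) d W) (fun j => G.da j f) (fun j => G.db j f) x z) := by
  have p1 := gp_eq (G := G) (s := s) (d := d) x (fun x z => (SX G s d x).Λ (W x) z) f z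
  have p2 := gp_eq (G := G) (s := s) (d := d) x (fun x z => (SY G s d x).Λ (W x) z) f z
  have m1 := gm_eq (G := G) (s := s) (d := d) x (fun x z => (SX G s d x).Λ (W x) z) f z
  have m2 := gm_eq (G := G) (s := s) (d := d) x (fun x z => (SY G s d x).Λ (W x) z) f z
  have sX' := sLX h sW
  have sY' := sLY h sW
  have e1 : GpV G (tS s) d (G.Lm (tS s) d W) (fun j => G.da j f) (fun j => G.db j f) x z =
      G.Gp (tS s) d (fun x z => (SX G s d x).Λ (W x) z) f x z -
        G.Gp (tS s) d (fun x z => (SY G s d x).Λ (W x) z) f x z := by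
    rw [Gp_V, Gp_V, ← GpV_sub sX' sY' x hz]
    exact GpV_congr x hz (fun x z hz => (lm_eq sW x hz h.ss h.sd).symm) (fun _ => rfl) fun _ => rfl
  have e2 : GpV G d (tS s) (G.Lp (tS s) d W) (fun j => G.da j f) (fun j => G.db j f) x z =
      G.Gm (tS s) d (fun x z => (SX G s d x).Λ (W x) z) f x z +
        G.Gm (tS s) d (fun x z => (SY G s d x).Λ (W x) z) f x z := by
    have sn : G.Sm fun x z => -1 * (SY G s d x).Λ (W x) z := (Ge.Sm.const fun _ => -1).mul sY'
    have e3 : G.Gm (tS s) d (fun x z => (SY G s d x).Λ (W x) z) f x z =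
        -(GpV G d (tS s) (fun x z => -1 * (SY G s d x).Λ (W x) z) (fun j => G.da j f)
          (fun j => G.db j f) x z) := by
      rw [Gm_V]
      unfold GpV
      rw [← Finset.sum_neg_distrib]
      refine Finset.sum_congr rfl fun i _ => ?_
      rw [← Finset.sum_neg_distrib]
      refine Finset.sum_congr rfl fun j _ => ?_
      rw [da_c sY' x hz, db_c sY' x hz]
      ring
    rw [e3, Gm_V, ← sub_eq_add_neg, ← GpV_sub sX' sn x hz]
    exact GpV_congr x hz (fun x z hz => by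
      rw [← lp_eq sW x hz h.ss h.sd]; ring) (fun _ => rfl) fun _ => rfl
  rw [e1, e2, ← p1, ← p2, ← m1, ← m2]
  ring

/-- **The skew part.** -/
theorem sk_eq (sβ : G.Sm β) (sγ : G.Sm γ) : sk (SX G s d x) (SY G s d x) (W x)
    (fun z => β x z + γ x z) (fun z => β x z - γ x z) z =
      -(GpV G (tS s) d (G.Lm (tS s) d W) (uv G β γ) (wv G β γ) x z -
        GpV G d (tS s) (G.Lp (tS s) d W) (uv G β γ) (wv G β γ) x z) := by
  have vb := V_eq h sW x hz β
  have vc := V_eq h sW x hz γ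
  have c1 := GpV_comb (G := G) (tS s) d (G.Lm (tS s) d W) (fun j => G.da j γ) (fun j => G.db j γ)
    (fun j => G.da j β) (fun j => G.db j β) x z (β x z) (γ x z)
  have c2 := GpV_comb (G := G) d (tS s) (G.Lp (tS s) d W) (fun j => G.da j γ) (fun j => G.db j γ)
    (fun j => G.da j β) (fun j => G.db j β) x z (β x z) (γ x z)
  have k1 : GpV G (tS s) d (G.Lm (tS s) d W) (uv G β γ) (wv G β γ) x z = _ := c1.symm
  have k2 : GpV G d (tS s) (G.Lp (tS s) d W) (uv G β γ) (wv G β γ) x z = _ := c2.symm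
  rw [k1, k2]
  have ok := h.okx x
  have ot := h.oky x
  unfold sk
  rw [G_add ot _ (sβ x) (sγ x) hz, G_sub ot _ (sβ x) (sγ x) hz, G_add ok _ (sβ x) (sγ x) hz,
    G_sub ok _ (sβ x) (sγ x) hz]
  linear_combination (2 * γ x z) * vb - (2 * β x z) * vc

/-! ## The zero order part -/

omit sW in
/-- Two applications. -/
theorem T_pm {p m : α → E → ℝ} (sf : G.Sm f) (sg : G.Sm g)
    (hp : ∀ x, ∀ z ∈ G.Z x, p x z = f x z + g x z) (hm : ∀ x, ∀ z ∈ G.Z x, m x z = f x z - g x z)
    (b c : ℝ) : (b + c) ^ 2 * (SX G s d x).Λ (f x) z +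
      (b + c) * (b - c) * ((SX G s d x).Λ (g x) z + (SY G s d x).Λ (f x) z) +
      (b - c) ^ 2 * (SY G s d x).Λ (g x) z =
      b ^ 2 * G.Lp (tS s) d p x z + b * c * (G.Lp (tS s) d m x z + G.Lm (tS s) d p x z) +
        c ^ 2 * G.Lm (tS s) d m x z := by
  have sp : G.Sm p := (sf.add sg).congr hp
  have sm : G.Sm m := (sf.sub sg).congr hm
  have ok := h.okx x
  have ot := h.oky x
  have a1 : (SX G s d x).Λ (p x) z = (SX G s d x).Λ (f x) z + (SX G s d x).Λ (g x) z := by
    rw [← L_add ok (sf x) (sg x) hz]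
    exact L_congr ok (hp x) hz
  have a2 : (SY G s d x).Λ (p x) z = (SY G s d x).Λ (f x) z + (SY G s d x).Λ (g x) z := by
    rw [← L_add ot (sf x) (sg x) hz]
    exact L_congr ot (hp x) hz
  have a3 : (SX G s d x).Λ (m x) z = (SX G s d x).Λ (f x) z - (SX G s d x).Λ (g x) z := by
    rw [← L_sub ok (sf x) (sg x) hz]
    exact L_congr ok (hm x) hz
  have a4 : (SY G s d x).Λ (m x) z = (SY G s d x).Λ (f x) z - (SY G s d x).Λ (g x) z := by
    rw [← L_sub ot (sf x) (sg x) hz]
    exact L_congr ot (hm x) hz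
  rw [← lp_eq sp x hz h.ss h.sd, ← lm_eq sp x hz h.ss h.sd, ← lp_eq sm x hz h.ss h.sd,
    ← lm_eq sm x hz h.ss h.sd, a1, a2, a3, a4]
  ring

/-- The zero order part. -/
def zo (G : Ge α ι E) (s d : ι → ι → α → E → ℝ) (W : α → E → ℝ) (b c : ℝ) (x : α) (z : E) : ℝ :=
  (SX G s d x).zz (fun _ => 0) (W x) z * (b + c) ^ 2 +
    (SY G s d x).zz (fun _ => 0) (W x) z * (b - c) ^ 2 +
    zm (SX G s d x) (SY G s d x) (W x) z * ((b + c) * (b - c))

/-- **The zero order part.** -/
theorem zo_eq (b c : ℝ) : zo G s d W b c x z =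
    -4 * (b ^ 2 * G.Lp (tS s) d (Fp G s d W) x z + b * c * (G.Lp (tS s) d (Fm G s d W) x z +
      G.Lm (tS s) d (Fp G s d W) x z) + c ^ 2 * G.Lm (tS s) d (Fm G s d W) x z) -
    2 * (b ^ 2 * G.Lp (tS s) d (G.Lp (tS s) d W) x z +
      b * c * (G.Lp (tS s) d (G.Lm (tS s) d W) x z + G.Lm (tS s) d (G.Lp (tS s) d W) x z) +
      c ^ 2 * G.Lm (tS s) d (G.Lm (tS s) d W) x z) := by
  have ok := h.okx x
  have ot := h.oky x
  have cm := h.cm x
  have sF : G.Sm fun x z => (SX G s d x).F (W x) z := fun x => (h.okx x).sF (sW x)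
  have sF' : G.Sm fun x z => (SY G s d x).F (W x) z := fun x => (h.oky x).sF (sW x)
  have t1 := T_pm h x hz sF sF' (p := Fp G s d W) (m := Fm G s d W)
    (fun x z _ => (gp_eq x W W z).symm) (fun x z _ => (gm_eq x W W z).symm) b c
  have t2 := T_pm h x hz (sLX h sW) (sLY h sW) (p := G.Lp (tS s) d W) (m := G.Lm (tS s) d W)
    (fun x z hz => (lp_eq sW x hz h.ss h.sd).symm) (fun x z hz => (lm_eq sW x hz h.ss h.sd).symm) b c
  have g0 : ∀ σ : Sl E ι, σ.Γ (W x) (fun _ => 0) z = 0 := fun σ => by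
    unfold Sl.Γ
    exact Finset.sum_eq_zero fun i _ => Finset.sum_eq_zero fun j _ => by
      rw [D_const σ 0 j z, mul_zero]
  have l1 := L_G ok ot cm (sW x) (sW x) hz
  have l2 := L_G ot ok cm.symm (sW x) (sW x) hz
  rw [M2_swap ok ot cm (sW x) (sW x) hz] at l2
  have l3 := L_L ok ot cm (sW x) hz
  have c1 := G_comm ot ((SX G s d x).Λ (W x)) (W x) z
  have c2 := G_comm ok ((SY G s d x).Λ (W x)) (W x) z
  have k1 : (SX G s d x).Λ ((SY G s d x).F (W x)) z =
      2 * (SY G s d x).Γ (W x) ((SX G s d x).Λ (W x)) z +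
        2 * M2 (SX G s d x) (SY G s d x) (W x) (W x) z := by
    have : (SY G s d x).F (W x) = (SY G s d x).Γ (W x) (W x) := rfl
    rw [this, l1, c1]; ring
  have k2 : (SY G s d x).Λ ((SX G s d x).F (W x)) z =
      2 * (SX G s d x).Γ (W x) ((SY G s d x).Λ (W x)) z +
        2 * M2 (SX G s d x) (SY G s d x) (W x) (W x) z := by
    have : (SX G s d x).F (W x) = (SX G s d x).Γ (W x) (W x) := rfl
    rw [this, l2, c2]; ring
  unfold zo Sl.zz zm
  rw [g0, g0]
  rw [← t1, ← t2]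
  have e1 : (fun z => (SX G s d x).F (W x) z) = (SX G s d x).F (W x) := rfl
  have e2 : (fun z => (SY G s d x).F (W x) z) = (SY G s d x).F (W x) := rfl
  have e3 : (fun z => (SX G s d x).Λ (W x) z) = (SX G s d x).Λ (W x) := rfl
  have e4 : (fun z => (SY G s d x).Λ (W x) z) = (SY G s d x).Λ (W x) := rfl
  rw [e1, e2, e3, e4, k1, k2]
  linear_combination (-2 * ((b + c) * (b - c))) * l3
end cell

end Vale.Agent.P088.R2.H464.B
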