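import Vale.Agent.P088.R2.H464.B.Th5
import Vale.Agent.P088.R2.H644.W.Star

/-!
# P088: the slots of a cell in the variables `q`, `p`
-/

open Set Filter
open scoped ContDiff Topology

noncomputable section

set_option linter.unusedSectionVars false

namespace Vale.Agent.P088.R2.H464.B

open Vale.Agent.P088.R2.H961.GW Vale.Agent.P088.R2.H644

variable {α ι E : Type*} [NormedAddCommGroup E] [NormedSpace ℝ E] [Fintype ι] [DecidableEq ι]
  {G : Ge α ι E} {s d : ι → ι → α → E → ℝ} {W f g : α → E → ℝ}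

variable (G s d) in
/-- The first slot. -/
def SX (x : α) : Sl E ι where
  ρ _ := 1
  e i := G.a x i + (1 / 2 : ℝ) • G.b x i
  s i j z := sX s d i j x z
  k _ _ := 0

variable (G s d) in
/-- The second slot. -/
def SY (x : α) : Sl E ι where
  ρ _ := 1
  e i := -G.a x i + (1 / 2 : ℝ) • G.b x i
  s i j z := sY s d i j x z
  k _ _ := 0

theorem SX_D (x : α) (i : ι) (f : α → E → ℝ) : (SX G s d x).D i (f x) = Dx G i f x := by
  funext z
  show 1 * fderiv ℝ (f x) z (G.a x i + (1 / 2 : ℝ) • G.b x i) = _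
  rw [map_add, map_smul, one_mul]
  rfl

theorem SY_D (x : α) (i : ι) (f : α → E → ℝ) : (SY G s d x).D i (f x) = Dy G i f x := by
  funext z
  show 1 * fderiv ℝ (f x) z (-G.a x i + (1 / 2 : ℝ) • G.b x i) = _
  rw [map_add, map_smul, map_neg, one_mul]
  rfl

theorem SX_G (x : α) (f g : α → E → ℝ) (z : E) : (SX G s d x).Γ (f x) (g x) z =
    ∑ i, ∑ j, sX s d i j x z * Dx G i f x z * Dx G j g x z := by
  unfold Sl.Γ
  simp only [SX_D]
  rfl

theorem SY_G (x : α) (f g : α → E → ℝ) (z : E) : (SY G s d x).Γ (f x) (g x) z =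
    ∑ i, ∑ j, sY s d i j x z * Dy G i f x z * Dy G j g x z := by
  unfold Sl.Γ
  simp only [SY_D]
  rfl

theorem SX_L (x : α) (f : α → E → ℝ) (z : E) : (SX G s d x).Λ (f x) z =
    ∑ i, ∑ j, (sX s d i j x z * Dx G i (Dx G j f) x z +
      Dx G i (sX s d i j) x z * Dx G j f x z) := by
  unfold Sl.Λ
  refine Finset.sum_congr rfl fun i _ => Finset.sum_congr rfl fun j _ => ?_
  have e1 : (SX G s d x).D j (f x) = Dx G j f x := SX_D x j f
  have e2 : (SX G s d x).D i (Dx G j f x) = Dx G i (Dx G j f) x := SX_D x i (Dx G j f)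
  have e3 : (SX G s d x).D i ((SX G s d x).s i j) = Dx G i (sX s d i j) x := SX_D x i (sX s d i j)
  rw [e1, e2, e3]
  show sX s d i j x z * (_ + 0 * _) + _ = _
  ring

theorem SY_L (x : α) (f : α → E → ℝ) (z : E) : (SY G s d x).Λ (f x) z =
    ∑ i, ∑ j, (sY s d i j x z * Dy G i (Dy G j f) x z +
      Dy G i (sY s d i j) x z * Dy G j f x z) := by
  unfold Sl.Λ
  refine Finset.sum_congr rfl fun i _ => Finset.sum_congr rfl fun j _ => ?_
  have e1 : (SY G s d x).D j (f x) = Dy G j f x := SY_D x j f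
  have e2 : (SY G s d x).D i (Dy G j f x) = Dy G i (Dy G j f) x := SY_D x i (Dy G j f)
  have e3 : (SY G s d x).D i ((SY G s d x).s i j) = Dy G i (sY s d i j) x := SY_D x i (sY s d i j)
  rw [e1, e2, e3]
  show sY s d i j x z * (_ + 0 * _) + _ = _
  ring

/-! ## Sums and differences -/

theorem gp_eq (x : α) (f g : α → E → ℝ) (z : E) :
    (SX G s d x).Γ (f x) (g x) z + (SY G s d x).Γ (f x) (g x) z = G.Gp (tS s) d f g x z := by
  rw [SX_G, SY_G]
  unfold Ge.Gp
  rw [← Finset.sum_add_distrib]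
  refine Finset.sum_congr rfl fun i _ => ?_
  rw [← Finset.sum_add_distrib]
  refine Finset.sum_congr rfl fun j _ => ?_
  simp only [sX, sY, Dx, Dy]
  ring

theorem gm_eq (x : α) (f g : α → E → ℝ) (z : E) :
    (SX G s d x).Γ (f x) (g x) z - (SY G s d x).Γ (f x) (g x) z = G.Gm (tS s) d f g x z := by
  rw [SX_G, SY_G]
  unfold Ge.Gm
  rw [← Finset.sum_sub_distrib]
  refine Finset.sum_congr rfl fun i _ => ?_
  rw [← Finset.sum_sub_distrib]
  refine Finset.sum_congr rfl fun j _ => ?_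
  simp only [sX, sY, Dx, Dy]
  ring

section two

variable (sf : G.Sm f) (x : α) {z : E} (hz : z ∈ G.Z x)
include sf hz

theorem da_c (c : ℝ) (i : ι) : G.da i (fun x z => c * f x z) x z = c * G.da i f x z := by
  show fderiv ℝ (fun z => c * f x z) z _ = _
  rw [fderiv_const_mul (sf.at x hz)]
  rfl

theorem db_c (c : ℝ) (i : ι) : G.db i (fun x z => c * f x z) x z = c * G.db i f x z := by
  show fderiv ℝ (fun z => c * f x z) z _ = _
  rw [fderiv_const_mul (sf.at x hz)]
  rfl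

theorem Dx_Dx (i j : ι) : Dx G i (Dx G j f) x z = G.da i (G.da j f) x z +
    1 / 2 * G.da i (G.db j f) x z + 1 / 2 * (G.db i (G.da j f) x z +
    1 / 2 * G.db i (G.db j f) x z) := by
  have s1 := sf.da j
  have s2 : G.Sm fun x z => 1 / 2 * G.db j f x z := (Ge.Sm.const fun _ => 1 / 2).mul (sf.db j)
  have e1 : G.da i (Dx G j f) x z = _ := da_add s1 s2 i x hz
  have e2 : G.db i (Dx G j f) x z = _ := db_add s1 s2 i x hz
  rw [Dx, e1, e2, da_c (sf.db j) x hz, db_c (sf.db j) x hz]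

theorem Dx_Dy (i j : ι) : Dx G i (Dy G j f) x z = -G.da i (G.da j f) x z +
    1 / 2 * G.da i (G.db j f) x z + 1 / 2 * (-G.db i (G.da j f) x z +
    1 / 2 * G.db i (G.db j f) x z) := by
  have s1 : G.Sm fun x z => -1 * G.da j f x z := (Ge.Sm.const fun _ => -1).mul (sf.da j)
  have s2 : G.Sm fun x z => 1 / 2 * G.db j f x z := (Ge.Sm.const fun _ => 1 / 2).mul (sf.db j)
  have e0 : Dy G j f = fun x z => -1 * G.da j f x z + 1 / 2 * G.db j f x z := by
    funext x z; rw [Dy]; ring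
  have e1 := da_add s1 s2 i x hz
  have e2 := db_add s1 s2 i x hz
  rw [e0, Dx, e1, e2, da_c (sf.db j) x hz, db_c (sf.db j) x hz, da_c (sf.da j) x hz,
    db_c (sf.da j) x hz]
  ring

theorem Dy_Dx (i j : ι) : Dy G i (Dx G j f) x z = -(G.da i (G.da j f) x z +
    1 / 2 * G.da i (G.db j f) x z) + 1 / 2 * (G.db i (G.da j f) x z +
    1 / 2 * G.db i (G.db j f) x z) := by
  have s1 := sf.da j
  have s2 : G.Sm fun x z => 1 / 2 * G.db j f x z := (Ge.Sm.const fun _ => 1 / 2).mul (sf.db j)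
  have e1 : G.da i (Dx G j f) x z = _ := da_add s1 s2 i x hz
  have e2 : G.db i (Dx G j f) x z = _ := db_add s1 s2 i x hz
  rw [Dy, e1, e2, da_c (sf.db j) x hz, db_c (sf.db j) x hz]

theorem Dy_Dy (i j : ι) : Dy G i (Dy G j f) x z = -(-G.da i (G.da j f) x z +
    1 / 2 * G.da i (G.db j f) x z) + 1 / 2 * (-G.db i (G.da j f) x z +
    1 / 2 * G.db i (G.db j f) x z) := by
  have s1 : G.Sm fun x z => -1 * G.da j f x z := (Ge.Sm.const fun _ => -1).mul (sf.da j)
  have s2 : G.Sm fun x z => 1 / 2 * G.db j f x z := (Ge.Sm.const fun _ => 1 / 2).mul (sf.db j)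
  have e0 : Dy G j f = fun x z => -1 * G.da j f x z + 1 / 2 * G.db j f x z := by
    funext x z; rw [Dy]; ring
  have e1 := da_add s1 s2 i x hz
  have e2 := db_add s1 s2 i x hz
  rw [e0, Dy, e1, e2, da_c (sf.db j) x hz, db_c (sf.db j) x hz, da_c (sf.da j) x hz,
    db_c (sf.da j) x hz]
  ring

variable (hss : ∀ i j, G.Sm (s i j)) (hsd : ∀ i j, G.Sm (d i j))
include hss hsd

theorem Dx_s (i j k : ι) : Dx G j (sX s d i k) x z = G.da j (tS s i k) x z + G.da j (d i k) x z +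
      1 / 2 * (G.db j (tS s i k) x z + G.db j (d i k) x z) := by
  have h1 : G.da j (sX s d i k) x z = _ := da_add (tS_sm hss i k) (hsd i k) j x hz
  have h2 : G.db j (sX s d i k) x z = _ := db_add (tS_sm hss i k) (hsd i k) j x hz
  rw [Dx, h1, h2]

theorem Dy_s (i j k : ι) : Dy G j (sY s d i k) x z = -(G.da j (tS s i k) x z - G.da j (d i k) x z) +
      1 / 2 * (G.db j (tS s i k) x z - G.db j (d i k) x z) := by
  have h1 : G.da j (sY s d i k) x z = _ := da_sub (tS_sm hss i k) (hsd i k) j x hz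
  have h2 : G.db j (sY s d i k) x z = _ := db_sub (tS_sm hss i k) (hsd i k) j x hz
  rw [Dy, h1, h2]

theorem lp_eq : (SX G s d x).Λ (f x) z + (SY G s d x).Λ (f x) z = G.Lp (tS s) d f x z := by
  rw [SX_L, SY_L]
  unfold Ge.Lp
  rw [← Finset.sum_add_distrib]
  refine Finset.sum_congr rfl fun i _ => ?_
  rw [← Finset.sum_add_distrib]
  refine Finset.sum_congr rfl fun j _ => ?_
  rw [Dx_Dx sf x hz, Dy_Dy sf x hz, Dx_s sf x hz hss hsd, Dy_s sf x hz hss hsd,
    da_mul (tS_sm hss i j) (sf.da j) i x hz, db_mul (tS_sm hss i j) (sf.db j) i x hz,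
    da_mul (hsd i j) (sf.db j) i x hz, db_mul (hsd i j) (sf.da j) i x hz]
  simp only [sX, sY, Dx, Dy]
  ring

theorem lm_eq : (SX G s d x).Λ (f x) z - (SY G s d x).Λ (f x) z = G.Lm (tS s) d f x z := by
  rw [SX_L, SY_L]
  unfold Ge.Lm
  rw [← Finset.sum_sub_distrib]
  refine Finset.sum_congr rfl fun i _ => ?_
  rw [← Finset.sum_sub_distrib]
  refine Finset.sum_congr rfl fun j _ => ?_
  rw [Dx_Dx sf x hz, Dy_Dy sf x hz, Dx_s sf x hz hss hsd, Dy_s sf x hz hss hsd,
    da_mul (tS_sm hss i j) (sf.db j) i x hz, db_mul (tS_sm hss i j) (sf.da j) i x hz,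
    da_mul (hsd i j) (sf.da j) i x hz, db_mul (hsd i j) (sf.db j) i x hz]
  simp only [sX, sY, Dx, Dy]
  ring

end two

/-! ## The structures -/

/-- The hypotheses on the tensors. -/
structure Hs (G : Ge α ι E) (s d : ι → ι → α → E → ℝ) : Prop where
  ss : ∀ i j, G.Sm (s i j)
  sd : ∀ i j, G.Sm (d i j)
  ys : ∀ i j x z, s i j x z = s j i x z
  yd : ∀ i j x z, d i j x z = d j i x z
  xy : ∀ x, ∀ z ∈ G.Z x, ∀ i k l, Dx G i (sY s d k l) x z = 0
  yx : ∀ x, ∀ z ∈ G.Z x, ∀ i k l, Dy G i (sX s d k l) x z = 0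

section ok

variable (h : Hs G s d)
include h

theorem Hs.okx (x : α) : (SX G s d x).Ok (G.Z x) fun _ => 1 where
  op := G.op x
  tp _ _ := one_pos
  ts := contDiffOn_const
  rs := contDiffOn_const
  ss i j := (tS_sm h.ss i j x).add (h.sd i j x)
  ks _ := contDiffOn_const
  sy i j z := by
    show tS s i j x z + d i j x z = tS s j i x z + d j i x z
    unfold tS idn
    rw [h.ys, h.yd]
    by_cases e : i = j
    · simp [e]
    · simp [e, Ne.symm e]
  th z _ i := by
    show 1 * fderiv ℝ (fun _ => (1 : ℝ)) z _ + fderiv ℝ (fun _ => (1 : ℝ)) z _ * 1 = 0 * 1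
    simp

theorem Hs.oky (x : α) : (SY G s d x).Ok (G.Z x) fun _ => 1 where
  op := G.op x
  tp _ _ := one_pos
  ts := contDiffOn_const
  rs := contDiffOn_const
  ss i j := (tS_sm h.ss i j x).sub (h.sd i j x)
  ks _ := contDiffOn_const
  sy i j z := by
    show tS s i j x z - d i j x z = tS s j i x z - d j i x z
    unfold tS idn
    rw [h.ys, h.yd]
    by_cases e : i = j
    · simp [e]
    · simp [e, Ne.symm e]
  th z _ i := by
    show 1 * fderiv ℝ (fun _ => (1 : ℝ)) z _ + fderiv ℝ (fun _ => (1 : ℝ)) z _ * 1 = 0 * 1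
    simp

omit [Fintype ι] [DecidableEq ι] h in
theorem fd_symm {U : Set E} (hU : IsOpen U) {f : E → ℝ} (hf : ContDiffOn ℝ ∞ f U) {z : E}
    (hz : z ∈ U) (u v : E) : fderiv ℝ (fun w => fderiv ℝ f w u) z v =
      fderiv ℝ (fun w => fderiv ℝ f w v) z u := by
  have hc : ContDiffAt ℝ ∞ f z := (hf z hz).contDiffAt (hU.mem_nhds hz)
  have hs : IsSymmSndFDerivAt ℝ f z := hc.isSymmSndFDerivAt
    (by rw [minSmoothness_of_isRCLikeNormedField]; exact WithTop.coe_le_coe.2 le_top)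
  have h1 : ContDiffOn ℝ ∞ (fderiv ℝ f) U := hf.fderiv_of_isOpen hU (by norm_num)
  have h2 : DifferentiableAt ℝ (fderiv ℝ f) z :=
    ((h1 z hz).contDiffAt (hU.mem_nhds hz)).differentiableAt (by simp)
  have e : ∀ w, fderiv ℝ (fun y => fderiv ℝ f y w) z = (fderiv ℝ (fderiv ℝ f) z).flip w := by
    intro w
    have := h2.hasFDerivAt.clm_apply (hasFDerivAt_const w z)
    rw [this.fderiv]
    ext v
    simp
  rw [e u, e v]
  exact hs v u

theorem Hs.cm (x : α) : Cm (SX G s d x) (SY G s d x) (G.Z x) where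
  cc f hf z hz i k := by
    show 1 * fderiv ℝ (fun w => 1 * fderiv ℝ f w _) z _ = 1 * fderiv ℝ (fun w => 1 * fderiv ℝ f w _) z _
    simp only [one_mul]
    exact fd_symm (G.op x) hf hz _ _
  s1 z hz i k l := by
    have e : (SX G s d x).D i ((SY G s d x).s k l) = Dx G i (sY s d k l) x := SX_D x i (sY s d k l)
    rw [e]; exact h.xy x z hz i k l
  k1 z hz i k := D_const _ 0 i z
  s2 z hz i k l := by
    have e : (SY G s d x).D i ((SX G s d x).s k l) = Dy G i (sX s d k l) x := SY_D x i (sX s d k l)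
    rw [e]; exact h.yx x z hz i k l
  k2 z hz i k := D_const _ 0 i z

end ok

end Vale.Agent.P088.R2.H464.B
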