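import Vale.Agent.P088.R2.H464.B.Fe

/-!
# P088: the Hessian form, true against model

`Y = X^*a₁ - Y^*a₂`, `P = (X^*a₁ + Y^*a₂)/2`; the form is `W_aa(Y, Y) + 2 W_ab(Y, P) + W_bb(P, P)` and
Christoffel terms.
-/

open Set Filter
open scoped ContDiff Topology

noncomputable section

set_option linter.unusedSectionVars false

namespace Vale.Agent.P088.R2.H464.B

variable {α ι E : Type*} [NormedAddCommGroup E] [NormedSpace ℝ E] [Fintype ι] [DecidableEq ι]
  {G : Ge α ι E}

/-- The bilinear form of the second derivatives. -/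
def Bl (G : Ge α ι E) (V : α → E → ℝ) (Y P Y' P' : ι → α → E → ℝ) : α → E → ℝ := fun x z =>
  ∑ j, ∑ k, (Y j x z * Y' k x z * G.da j (G.da k V) x z + Y j x z * P' k x z * G.da j (G.db k V) x z +
    P j x z * Y' k x z * G.db j (G.da k V) x z + P j x z * P' k x z * G.db j (G.db k V) x z)

theorem Bl_sub₁ (V : α → E → ℝ) (Y P Y₀ P₀ Y' P' : ι → α → E → ℝ) (x : α) (z : E) :
    Bl G V Y P Y' P' x z - Bl G V Y₀ P₀ Y' P' x z =
      Bl G V (fun j x z => Y j x z - Y₀ j x z) (fun j x z => P j x z - P₀ j x z) Y' P' x z := by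
  unfold Bl
  rw [← Finset.sum_sub_distrib]
  refine Finset.sum_congr rfl fun i _ => ?_
  rw [← Finset.sum_sub_distrib]
  exact Finset.sum_congr rfl fun j _ => by ring

theorem Bl_sub₂ (V : α → E → ℝ) (Y P Y₀ P₀ Y' P' : ι → α → E → ℝ) (x : α) (z : E) :
    Bl G V Y' P' Y P x z - Bl G V Y' P' Y₀ P₀ x z =
      Bl G V Y' P' (fun j x z => Y j x z - Y₀ j x z) (fun j x z => P j x z - P₀ j x z) x z := by
  unfold Bl
  rw [← Finset.sum_sub_distrib]
  refine Finset.sum_congr rfl fun i _ => ?_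
  rw [← Finset.sum_sub_distrib]
  exact Finset.sum_congr rfl fun j _ => by ring

theorem Bl_sub_V {V V₀ : α → E → ℝ} (sV : G.Sm V) (sV₀ : G.Sm V₀) (Y P Y' P' : ι → α → E → ℝ) (x : α)
    {z : E} (hz : z ∈ G.Z x) : Bl G V Y P Y' P' x z - Bl G V₀ Y P Y' P' x z =
      Bl G (fun x z => V x z - V₀ x z) Y P Y' P' x z := by
  unfold Bl
  rw [← Finset.sum_sub_distrib]
  refine Finset.sum_congr rfl fun i _ => ?_
  rw [← Finset.sum_sub_distrib]
  refine Finset.sum_congr rfl fun j _ => ?_
  have e1 : G.da i (G.da j fun x z => V x z - V₀ x z) x z =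
      G.da i (G.da j V) x z - G.da i (G.da j V₀) x z := by
    rw [← da_sub (sV.da j) (sV₀.da j) i x hz]
    exact da_congr (fun x z hz => da_sub sV sV₀ j x hz) i x hz
  have e2 : G.da i (G.db j fun x z => V x z - V₀ x z) x z =
      G.da i (G.db j V) x z - G.da i (G.db j V₀) x z := by
    rw [← da_sub (sV.db j) (sV₀.db j) i x hz]
    exact da_congr (fun x z hz => db_sub sV sV₀ j x hz) i x hz
  have e3 : G.db i (G.da j fun x z => V x z - V₀ x z) x z =
      G.db i (G.da j V) x z - G.db i (G.da j V₀) x z := by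
    rw [← db_sub (sV.da j) (sV₀.da j) i x hz]
    exact db_congr (fun x z hz => da_sub sV sV₀ j x hz) i x hz
  have e4 : G.db i (G.db j fun x z => V x z - V₀ x z) x z =
      G.db i (G.db j V) x z - G.db i (G.db j V₀) x z := by
    rw [← db_sub (sV.db j) (sV₀.db j) i x hz]
    exact db_congr (fun x z hz => db_sub sV sV₀ j x hz) i x hz
  rw [e1, e2, e3, e4]
  ring

/-- The size of the bilinear form. -/
theorem Bl_O {V : α → E → ℝ} {g₀ g₁ g₂ y p y' p' : α → E → ℝ} (n0 : G.Nn g₀) (n1 : G.Nn g₁)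
    (n2 : G.Nn g₂) (ny : G.Nn y) (np : G.Nn p) (ny' : G.Nn y') (np' : G.Nn p')
    (h2 : ∀ j k, G.O g₂ (G.da j (G.da k V))) (h1 : ∀ j k, G.O g₁ (G.da j (G.db k V)))
    (h1' : ∀ j k, G.O g₁ (G.db j (G.da k V))) (h0 : ∀ j k, G.O g₀ (G.db j (G.db k V)))
    {Y P Y' P' : ι → α → E → ℝ} (hY : ∀ j, G.O y (Y j)) (hP : ∀ j, G.O p (P j))
    (hY' : ∀ j, G.O y' (Y' j)) (hP' : ∀ j, G.O p' (P' j)) :
    G.O (fun x z => g₂ x z * (y x z * y' x z) + g₁ x z * (y x z * p' x z + p x z * y' x z) +
      g₀ x z * (p x z * p' x z)) (Bl G V Y P Y' P') := by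
  refine Ge.O.sum _ fun j _ => Ge.O.sum _ fun k _ => ?_
  have m1 := (((hY j).mul ny (hY' k)).mul (fun x z hz => mul_nonneg (ny x z hz) (ny' x z hz))
    (h2 j k)).mono (fun x z hz => mul_nonneg (mul_nonneg (ny x z hz) (ny' x z hz)) (n2 x z hz))
    (g' := fun x z => g₂ x z * (y x z * y' x z) + g₁ x z * (y x z * p' x z + p x z * y' x z) +
      g₀ x z * (p x z * p' x z)) (A := 1) fun x z hz => by
      have a1 := ny x z hz; have a2 := np x z hz; have a3 := ny' x z hz; have a4 := np' x z hz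
      have a5 := n0 x z hz; have a6 := n1 x z hz; have a7 := n2 x z hz
      have b1 : 0 ≤ g₁ x z * (y x z * p' x z + p x z * y' x z) := by positivity
      have b2 : 0 ≤ g₀ x z * (p x z * p' x z) := by positivity
      linarith [mul_comm (y x z * y' x z) (g₂ x z)]
  have m2 := (((hY j).mul ny (hP' k)).mul (fun x z hz => mul_nonneg (ny x z hz) (np' x z hz))
    (h1 j k)).mono (fun x z hz => mul_nonneg (mul_nonneg (ny x z hz) (np' x z hz)) (n1 x z hz))
    (g' := fun x z => g₂ x z * (y x z * y' x z) + g₁ x z * (y x z * p' x z + p x z * y' x z) +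
      g₀ x z * (p x z * p' x z)) (A := 1) fun x z hz => by
      have a1 := ny x z hz; have a2 := np x z hz; have a3 := ny' x z hz; have a4 := np' x z hz
      have a5 := n0 x z hz; have a6 := n1 x z hz; have a7 := n2 x z hz
      have b1 : 0 ≤ g₂ x z * (y x z * y' x z) := by positivity
      have b2 : 0 ≤ g₀ x z * (p x z * p' x z) := by positivity
      have b3 : 0 ≤ g₁ x z * (p x z * y' x z) := by positivity
      linarith [mul_comm (y x z * p' x z) (g₁ x z), mul_add (g₁ x z) (y x z * p' x z) (p x z * y' x z)]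
  have m3 := (((hP j).mul np (hY' k)).mul (fun x z hz => mul_nonneg (np x z hz) (ny' x z hz))
    (h1' j k)).mono (fun x z hz => mul_nonneg (mul_nonneg (np x z hz) (ny' x z hz)) (n1 x z hz))
    (g' := fun x z => g₂ x z * (y x z * y' x z) + g₁ x z * (y x z * p' x z + p x z * y' x z) +
      g₀ x z * (p x z * p' x z)) (A := 1) fun x z hz => by
      have a1 := ny x z hz; have a2 := np x z hz; have a3 := ny' x z hz; have a4 := np' x z hz
      have a5 := n0 x z hz; have a6 := n1 x z hz; have a7 := n2 x z hz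
      have b1 : 0 ≤ g₂ x z * (y x z * y' x z) := by positivity
      have b2 : 0 ≤ g₀ x z * (p x z * p' x z) := by positivity
      have b3 : 0 ≤ g₁ x z * (y x z * p' x z) := by positivity
      linarith [mul_comm (p x z * y' x z) (g₁ x z), mul_add (g₁ x z) (y x z * p' x z) (p x z * y' x z)]
  have m4 := (((hP j).mul np (hP' k)).mul (fun x z hz => mul_nonneg (np x z hz) (np' x z hz))
    (h0 j k)).mono (fun x z hz => mul_nonneg (mul_nonneg (np x z hz) (np' x z hz)) (n0 x z hz))
    (g' := fun x z => g₂ x z * (y x z * y' x z) + g₁ x z * (y x z * p' x z + p x z * y' x z) +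
      g₀ x z * (p x z * p' x z)) (A := 1) fun x z hz => by
      have a1 := ny x z hz; have a2 := np x z hz; have a3 := ny' x z hz; have a4 := np' x z hz
      have a5 := n0 x z hz; have a6 := n1 x z hz; have a7 := n2 x z hz
      have b1 : 0 ≤ g₂ x z * (y x z * y' x z) := by positivity
      have b2 : 0 ≤ g₁ x z * (y x z * p' x z + p x z * y' x z) := by positivity
      linarith [mul_comm (p x z * p' x z) (g₀ x z)]
  exact ((m1.add m2).add m3).add m4

end Vale.Agent.P088.R2.H464.B
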