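import Vale.Agent.P088.R2.H464.B.Th2

/-!
# P088: the Hessian form, true against model, II
-/

open Set Filter
open scoped ContDiff Topology

noncomputable section

set_option linter.unusedSectionVars false

namespace Vale.Agent.P088.R2.H464.B

variable {α ι E : Type*} [NormedAddCommGroup E] [NormedSpace ℝ E] [Fintype ι] [DecidableEq ι]
  {G : Ge α ι E} {e r t δ κ : α → E → ℝ} {s d : ι → ι → α → E → ℝ} {W W₀ : α → E → ℝ}

/-- The metric sizes: `s = O(κ)`, `d = κ O(r)`, with first derivatives. -/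
structure Hm (G : Ge α ι E) (r κ : α → E → ℝ) (s d : ι → ι → α → E → ℝ) : Prop where
  k0 : G.Nn κ
  k1 : ∀ x, ∀ z ∈ G.Z x, κ x z ≤ 1
  s0 : ∀ i j, G.O κ (s i j)
  sa : ∀ i j k, G.O (fun x z => κ x z * r x z) (G.da k (s i j))
  sb : ∀ i j k, G.O κ (G.db k (s i j))
  d0 : ∀ i j, G.O (fun x z => κ x z * r x z) (d i j)
  da : ∀ i j k, G.O κ (G.da k (d i j))
  db : ∀ i j k, G.O (fun x z => κ x z * r x z) (G.db k (d i j))

/-- The raised vectors. -/
def Yr (s d : ι → ι → α → E → ℝ) (Y P : ι → α → E → ℝ) (j : ι) : α → E → ℝ := fun x z =>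
  Y j x z + ∑ i, (s i j x z * Y i x z + d i j x z * (2 * P i x z))

/-- The raised vectors. -/
def Pr (s d : ι → ι → α → E → ℝ) (Y P : ι → α → E → ℝ) (j : ι) : α → E → ℝ := fun x z =>
  P j x z + ∑ i, (s i j x z * P i x z + d i j x z * (1 / 2 * Y i x z))

theorem Ge.O.cmul {g f : α → E → ℝ} (hf : G.O g f) (hg : G.Nn g) (c : ℝ) :
    G.O g fun x z => c * f x z := by
  obtain ⟨C, hC0, hC⟩ := hf.nn hg
  refine ⟨|c| * C, fun x z hz => ?_⟩
  rw [abs_mul, mul_assoc]
  exact mul_le_mul_of_nonneg_left (hC x z hz) (abs_nonneg c)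

theorem Ge.O.sub {g f f' : α → E → ℝ} (hf : G.O g f) (hf' : G.O g f') (hg : G.Nn g) :
    G.O g fun x z => f x z - f' x z :=
  (hf.add (hf'.cmul hg (-1))).congr fun x z _ => by ring

section sizes

variable {y p : α → E → ℝ} {Y P : ι → α → E → ℝ}

theorem Yr_sub (hz : Sz G e r t δ) (hm : Hm G r κ s d) (ny : G.Nn y) (np : G.Nn p)
    (hY : ∀ j, G.O y (Y j)) (hP : ∀ j, G.O p (P j)) (j : ι) :
    G.O (fun x z => κ x z * (y x z + r x z * p x z)) (fun x z => Yr s d Y P j x z - Y j x z) ∧
    G.O (fun x z => κ x z * (p x z + r x z * y x z)) (fun x z => Pr s d Y P j x z - P j x z) := by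
  have nr : G.Nn r := fun x z h => (hz.r0 x z h).le
  have nk := hm.k0
  have nkr : G.Nn fun x z => κ x z * r x z := fun x z h => mul_nonneg (nk x z h) (nr x z h)
  constructor
  · have h1 : G.O (fun x z => κ x z * (y x z + r x z * p x z))
        (fun x z => ∑ i, (s i j x z * Y i x z + d i j x z * (2 * P i x z))) := by
      refine Ge.O.sum _ fun i _ => ?_
      have a1 := ((hm.s0 i j).mul nk (hY i)).mono (fun x z h => mul_nonneg (nk x z h) (ny x z h))
        (g' := fun x z => κ x z * (y x z + r x z * p x z)) (A := 1) fun x z h => by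
          have := mul_nonneg (nkr x z h) (np x z h)
          linarith [mul_add (κ x z) (y x z) (r x z * p x z), mul_assoc (κ x z) (r x z) (p x z)]
      have a2 := ((hm.d0 i j).mul nkr ((hP i).cmul np 2)).mono
        (fun x z h => mul_nonneg (nkr x z h) (np x z h))
        (g' := fun x z => κ x z * (y x z + r x z * p x z)) (A := 1) fun x z h => by
          have := mul_nonneg (nk x z h) (ny x z h)
          linarith [mul_add (κ x z) (y x z) (r x z * p x z), mul_assoc (κ x z) (r x z) (p x z)]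
      exact a1.add a2
    exact h1.congr fun x z _ => by simp only [Yr]; ring
  · have h1 : G.O (fun x z => κ x z * (p x z + r x z * y x z))
        (fun x z => ∑ i, (s i j x z * P i x z + d i j x z * (1 / 2 * Y i x z))) := by
      refine Ge.O.sum _ fun i _ => ?_
      have a1 := ((hm.s0 i j).mul nk (hP i)).mono (fun x z h => mul_nonneg (nk x z h) (np x z h))
        (g' := fun x z => κ x z * (p x z + r x z * y x z)) (A := 1) fun x z h => by
          have := mul_nonneg (nkr x z h) (ny x z h)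
          linarith [mul_add (κ x z) (p x z) (r x z * y x z), mul_assoc (κ x z) (r x z) (y x z)]
      have a2 := ((hm.d0 i j).mul nkr ((hY i).cmul ny (1 / 2))).mono
        (fun x z h => mul_nonneg (nkr x z h) (ny x z h))
        (g' := fun x z => κ x z * (p x z + r x z * y x z)) (A := 1) fun x z h => by
          have := mul_nonneg (nk x z h) (np x z h)
          linarith [mul_add (κ x z) (p x z) (r x z * y x z), mul_assoc (κ x z) (r x z) (y x z)]
      exact a1.add a2
    exact h1.congr fun x z _ => by simp only [Pr]; ring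

theorem Yr_O (hz : Sz G e r t δ) (hm : Hm G r κ s d) (ny : G.Nn y) (np : G.Nn p)
    (hY : ∀ j, G.O y (Y j)) (hP : ∀ j, G.O p (P j)) (j : ι) :
    G.O (fun x z => y x z + r x z * p x z) (Yr s d Y P j) ∧
    G.O (fun x z => p x z + r x z * y x z) (Pr s d Y P j) := by
  have nr : G.Nn r := fun x z h => (hz.r0 x z h).le
  obtain ⟨h1, h2⟩ := Yr_sub hz hm ny np hY hP j
  have n1 : G.Nn fun x z => y x z + r x z * p x z := fun x z h =>
    add_nonneg (ny x z h) (mul_nonneg (nr x z h) (np x z h))
  have n2 : G.Nn fun x z => p x z + r x z * y x z := fun x z h =>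
    add_nonneg (np x z h) (mul_nonneg (nr x z h) (ny x z h))
  have b1 := h1.mono (fun x z h => mul_nonneg (hm.k0 x z h) (n1 x z h))
    (g' := fun x z => y x z + r x z * p x z) (A := 1) fun x z h =>
      mul_le_mul_of_nonneg_right (hm.k1 x z h) (n1 x z h)
  have b2 := h2.mono (fun x z h => mul_nonneg (hm.k0 x z h) (n2 x z h))
    (g' := fun x z => p x z + r x z * y x z) (A := 1) fun x z h =>
      mul_le_mul_of_nonneg_right (hm.k1 x z h) (n2 x z h)
  have c1 := (hY j).mono ny (g' := fun x z => y x z + r x z * p x z) (A := 1) fun x z h => by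
    have := mul_nonneg (nr x z h) (np x z h); linarith
  have c2 := (hP j).mono np (g' := fun x z => p x z + r x z * y x z) (A := 1) fun x z h => by
    have := mul_nonneg (nr x z h) (ny x z h); linarith
  exact ⟨(b1.add c1).congr fun x z _ => by ring, (b2.add c2).congr fun x z _ => by ring⟩

end sizes

/-! ## Second derivatives of `W`, `W - W₀`, `W₀` -/

theorem sec_O {K k a : ℕ} {B C : ℕ → ℕ} {V : α → E → ℝ} (hV : G.Gd (K + 1) (ms e r t δ k a B C) V)
    (i j : ι) : G.O (mn e r t δ k a (B 2) (C 2)) (G.da i (G.da j V)) ∧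
    G.O (mn e r t δ k a (B 1) (C 1)) (G.da i (G.db j V)) ∧
    G.O (mn e r t δ k a (B 1) (C 1)) (G.db i (G.da j V)) ∧
    G.O (mn e r t δ k a (B 0) (C 0)) (G.db i (G.db j V)) :=
  ⟨((hV.2.1 j).2.1 i).zero_of, ((hV.2.2 j).2.1 i).zero_of, ((hV.2.1 j).2.2 i).zero_of,
    ((hV.2.2 j).2.2 i).zero_of⟩

theorem mn_val (k a b c : ℕ) (x : α) (z : E) : mn e r t δ k a b c x z =
    δ x z ^ k * e x z ^ a * r x z ^ b * t x z ^ c := rfl

/-- **Metric part.** -/
theorem met_O (H : Hy G e r t δ s d W W₀) (hm : Hm G r κ s d) {y p : α → E → ℝ} {Y P : ι → α → E → ℝ}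
    (ny : G.Nn y) (np : G.Nn p) (hY : ∀ j, G.O y (Y j)) (hP : ∀ j, G.O p (P j)) :
    G.O (fun x z => κ x z * (e x z * (y x z + r x z * p x z) ^ 2 +
      e x z * r x z * t x z * p x z ^ 2))
      (fun x z => Bl G W (Yr s d Y P) (Pr s d Y P) (Yr s d Y P) (Pr s d Y P) x z -
        Bl G W Y P Y P x z) := by
  have nr : G.Nn r := fun x z h => (H.sz.r0 x z h).le
  have nk := hm.k0
  have n1 : G.Nn fun x z => y x z + r x z * p x z := fun x z h =>
    add_nonneg (ny x z h) (mul_nonneg (nr x z h) (np x z h))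
  have n2 : G.Nn fun x z => p x z + r x z * y x z := fun x z h =>
    add_nonneg (np x z h) (mul_nonneg (nr x z h) (ny x z h))
  have nk1 : G.Nn fun x z => κ x z * (y x z + r x z * p x z) := fun x z h =>
    mul_nonneg (nk x z h) (n1 x z h)
  have nk2 : G.Nn fun x z => κ x z * (p x z + r x z * y x z) := fun x z h =>
    mul_nonneg (nk x z h) (n2 x z h)
  have w0 := mn_nn H.sz 0 1 1 1
  have w1 := mn_nn H.sz 0 1 1 0
  have w2 := mn_nn H.sz 0 1 0 0
  have hs : ∀ i j, G.O (mn e r t δ 0 1 0 0) (G.da i (G.da j W)) := fun i j => (sec_O H.hW i j).1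
  have hs1 : ∀ i j, G.O (mn e r t δ 0 1 1 0) (G.da i (G.db j W)) := fun i j => (sec_O H.hW i j).2.1
  have hs2 : ∀ i j, G.O (mn e r t δ 0 1 1 0) (G.db i (G.da j W)) := fun i j => (sec_O H.hW i j).2.2.1
  have hs3 : ∀ i j, G.O (mn e r t δ 0 1 1 1) (G.db i (G.db j W)) := fun i j => (sec_O H.hW i j).2.2.2
  have a1 := Bl_O w0 w1 w2 nk1 nk2 n1 n2 hs hs1 hs2 hs3
    (fun j => (Yr_sub H.sz hm ny np hY hP j).1) (fun j => (Yr_sub H.sz hm ny np hY hP j).2)
    (fun j => (Yr_O H.sz hm ny np hY hP j).1) (fun j => (Yr_O H.sz hm ny np hY hP j).2)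
  have cY : ∀ j, G.O (fun x z => y x z + r x z * p x z) (Y j) := fun j =>
    (hY j).mono ny (A := 1) fun x z h => by have := mul_nonneg (nr x z h) (np x z h); linarith
  have cP : ∀ j, G.O (fun x z => p x z + r x z * y x z) (P j) := fun j =>
    (hP j).mono np (A := 1) fun x z h => by have := mul_nonneg (nr x z h) (ny x z h); linarith
  have a2 := Bl_O w0 w1 w2 n1 n2 nk1 nk2 hs hs1 hs2 hs3 cY cP
    (fun j => (Yr_sub H.sz hm ny np hY hP j).1) (fun j => (Yr_sub H.sz hm ny np hY hP j).2)
  have key : ∀ x, ∀ z ∈ G.Z x, e x z * (y x z + r x z * p x z) ^ 2 +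
      e x z * r x z * (2 * ((y x z + r x z * p x z) * (p x z + r x z * y x z))) +
      e x z * r x z * t x z * (p x z + r x z * y x z) ^ 2 ≤
      5 * (e x z * (y x z + r x z * p x z) ^ 2 + e x z * r x z * t x z * p x z ^ 2) := by
    intro x z h
    have e0 := (H.sz.e0 x z h).le
    have r0 := nr x z h
    have rt := H.sz.rt x z h
    have t1 := H.sz.t1 x z h
    have t0 : 0 ≤ t x z := r0.trans rt
    have r1 : r x z ≤ 1 := rt.trans t1
    have y0 := ny x z h
    have p0 := np x z h
    have u0 := n1 x z h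
    set u := y x z + r x z * p x z with hu
    have b1 : r x z * (p x z + r x z * y x z) ≤ u := by
      have : r x z * (r x z * y x z) ≤ y x z := by
        have h3 : r x z * y x z ≤ y x z := mul_le_of_le_one_left y0 r1
        calc r x z * (r x z * y x z) ≤ r x z * y x z := mul_le_mul_of_nonneg_left h3 r0
          _ ≤ y x z := h3
      rw [mul_add, hu]; linarith
    have b2 : e x z * r x z * (2 * (u * (p x z + r x z * y x z))) ≤ 2 * (e x z * u ^ 2) := by
      have h4 : u * (r x z * (p x z + r x z * y x z)) ≤ u * u := mul_le_mul_of_nonneg_left b1 u0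
      have h5 := mul_le_mul_of_nonneg_left h4 e0
      nlinarith
    have b3 : e x z * r x z * t x z * (p x z + r x z * y x z) ^ 2 ≤
        2 * (e x z * r x z * t x z * p x z ^ 2) + 2 * (e x z * u ^ 2) := by
      have h6 : (p x z + r x z * y x z) ^ 2 ≤ 2 * p x z ^ 2 + 2 * (r x z * y x z) ^ 2 := by
        nlinarith [sq_nonneg (p x z - r x z * y x z)]
      have h7 : r x z * t x z * (r x z * y x z) ^ 2 ≤ u ^ 2 := by
        have h8 : r x z * y x z ≤ u := by
          have h9 : r x z * y x z ≤ y x z := mul_le_of_le_one_left y0 r1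
          have := mul_nonneg r0 p0
          rw [hu]; linarith
        have h10 : (r x z * y x z) ^ 2 ≤ u ^ 2 := pow_le_pow_left₀ (mul_nonneg r0 y0) h8 2
        have h11 : r x z * t x z ≤ 1 := mul_le_one₀ r1 t0 t1
        calc r x z * t x z * (r x z * y x z) ^ 2 ≤ 1 * (r x z * y x z) ^ 2 :=
              mul_le_mul_of_nonneg_right h11 (sq_nonneg _)
          _ ≤ u ^ 2 := by rw [one_mul]; exact h10
      have h12 : 0 ≤ e x z * r x z * t x z := mul_nonneg (mul_nonneg e0 r0) t0
      have h13 := mul_le_mul_of_nonneg_left h6 h12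
      have h14 := mul_le_mul_of_nonneg_left h7 e0
      nlinarith
    have h15 : 0 ≤ e x z * r x z * t x z * p x z ^ 2 :=
      mul_nonneg (mul_nonneg (mul_nonneg e0 r0) t0) (sq_nonneg _)
    linarith
  have m1 := a1.mono (fun x z h => by
      have := w0 x z h; have := w1 x z h; have := w2 x z h; have := nk1 x z h
      have := nk2 x z h; have := n1 x z h; have := n2 x z h
      positivity)
    (g' := fun x z => κ x z * (e x z * (y x z + r x z * p x z) ^ 2 +
      e x z * r x z * t x z * p x z ^ 2)) (A := 5) fun x z h => by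
      have k := mul_le_mul_of_nonneg_left (key x z h) (nk x z h)
      simp only [mn_val, pow_zero, pow_one, one_mul, mul_one]
      nlinarith
  have m2 := a2.mono (fun x z h => by
      have := w0 x z h; have := w1 x z h; have := w2 x z h; have := nk1 x z h
      have := nk2 x z h; have := n1 x z h; have := n2 x z h
      positivity)
    (g' := fun x z => κ x z * (e x z * (y x z + r x z * p x z) ^ 2 +
      e x z * r x z * t x z * p x z ^ 2)) (A := 5) fun x z h => by
      have k := mul_le_mul_of_nonneg_left (key x z h) (nk x z h)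
      simp only [mn_val, pow_zero, pow_one, one_mul, mul_one]
      nlinarith
  refine (m1.add m2).congr fun x z _ => ?_
  rw [← Bl_sub₁, ← Bl_sub₂]
  ring

end Vale.Agent.P088.R2.H464.B
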