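import Vale.Agent.P088.R2.H464.B.Th3

/-!
# P088: the Hessian form, true against model, III: change of `W`, change of the arguments, Christoffel
-/

open Set Filter
open scoped ContDiff Topology

noncomputable section

set_option linter.unusedSectionVars false

namespace Vale.Agent.P088.R2.H464.B

variable {α ι E : Type*} [NormedAddCommGroup E] [NormedSpace ℝ E] [Fintype ι] [DecidableEq ι]
  {G : Ge α ι E} {e r t δ κ : α → E → ℝ} {s d : ι → ι → α → E → ℝ} {W W₀ : α → E → ℝ}

/-- **Change of the weight.** -/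
theorem dW_O (H : Hy G e r t δ s d W W₀) {y p : α → E → ℝ} {Y P : ι → α → E → ℝ}
    (ny : G.Nn y) (np : G.Nn p) (hY : ∀ j, G.O y (Y j)) (hP : ∀ j, G.O p (P j)) :
    G.O (fun x z => δ x z * (e x z * (y x z + r x z * p x z) ^ 2))
      (fun x z => Bl G W Y P Y P x z - Bl G W₀ Y P Y P x z) := by
  have w0 := mn_nn H.sz 1 1 2 0
  have w1 := mn_nn H.sz 1 1 1 0
  have w2 := mn_nn H.sz 1 1 0 0
  have hD : G.Gd (1 + 1) _ _ := H.hD
  have a1 := Bl_O (V := fun x z => W x z - W₀ x z) w0 w1 w2 ny np ny np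
    (fun i j => (sec_O hD i j).1) (fun i j => (sec_O hD i j).2.1) (fun i j => (sec_O hD i j).2.2.1)
    (fun i j => (sec_O hD i j).2.2.2) hY hP hY hP
  have a2 := a1.mono (fun x z h => by
      have := w0 x z h; have := w1 x z h; have := w2 x z h; have := ny x z h; have := np x z h
      positivity)
    (g' := fun x z => δ x z * (e x z * (y x z + r x z * p x z) ^ 2)) (A := 1) fun x z h => by
      simp only [mn_val, pow_zero, pow_one, mul_one]
      exact le_of_eq (by ring)
  exact a2.congr fun x z hz => Bl_sub_V H.sW H.sW₀ _ _ _ _ x hz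

/-- **Change of the arguments**, `b ≥ |β|`, `c ≥ |γ|`. -/
theorem dA_O (H : Hy G e r t δ s d W W₀) {y p b c : α → E → ℝ} {Y P Y₀ P₀ : ι → α → E → ℝ}
    (ny : G.Nn y) (np : G.Nn p) (nb : G.Nn b) (nc : G.Nn c) (hY : ∀ j, G.O y (Y j))
    (hP : ∀ j, G.O p (P j)) (hY₀ : ∀ j, G.O y (Y₀ j)) (hP₀ : ∀ j, G.O p (P₀ j))
    (dY : ∀ j, G.O (fun x z => δ x z * e x z * r x z * (b x z + r x z * c x z))
      fun x z => Y j x z - Y₀ j x z)
    (dP : ∀ j, G.O (fun x z => δ x z * e x z * r x z * (c x z + r x z * b x z))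
      fun x z => P j x z - P₀ j x z) :
    G.O (fun x z => δ x z * (e x z * (y x z + r x z * p x z) ^ 2 +
      e x z ^ 3 * r x z ^ 2 * (b x z ^ 2 + t x z ^ 2 * c x z ^ 2)))
      (fun x z => Bl G W₀ Y P Y P x z - Bl G W₀ Y₀ P₀ Y₀ P₀ x z) := by
  have w0 := mn_nn H.sz 0 1 1 1
  have w1 := mn_nn H.sz 0 1 1 0
  have w2 := mn_nn H.sz 0 1 0 0
  have hW₀ : G.Gd (1 + 1) _ _ := H.gcW₀
  have nr : G.Nn r := fun x z h => (H.sz.r0 x z h).le
  have n1 : G.Nn fun x z => δ x z * e x z * r x z * (b x z + r x z * c x z) := fun x z h => by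
    have := H.sz.d0 x z h; have := H.sz.e0 x z h; have := nr x z h; have := nb x z h
    have := nc x z h
    positivity
  have n2 : G.Nn fun x z => δ x z * e x z * r x z * (c x z + r x z * b x z) := fun x z h => by
    have := H.sz.d0 x z h; have := H.sz.e0 x z h; have := nr x z h; have := nb x z h
    have := nc x z h
    positivity
  have a1 := Bl_O (V := W₀) w0 w1 w2 n1 n2 ny np
    (fun i j => (sec_O hW₀ i j).1) (fun i j => (sec_O hW₀ i j).2.1)
    (fun i j => (sec_O hW₀ i j).2.2.1) (fun i j => (sec_O hW₀ i j).2.2.2) dY dP hY hP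
  have a2 := Bl_O (V := W₀) w0 w1 w2 ny np n1 n2
    (fun i j => (sec_O hW₀ i j).1) (fun i j => (sec_O hW₀ i j).2.1)
    (fun i j => (sec_O hW₀ i j).2.2.1) (fun i j => (sec_O hW₀ i j).2.2.2) hY₀ hP₀ dY dP
  have key : ∀ x, ∀ z ∈ G.Z x,
      e x z * (e x z * r x z * (b x z + r x z * c x z) * y x z) +
      e x z * r x z * (e x z * r x z * (b x z + r x z * c x z) * p x z +
        e x z * r x z * (c x z + r x z * b x z) * y x z) +
      e x z * r x z * t x z * (e x z * r x z * (c x z + r x z * b x z) * p x z) ≤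
      8 * (e x z * (y x z + r x z * p x z) ^ 2 +
      e x z ^ 3 * r x z ^ 2 * (b x z ^ 2 + t x z ^ 2 * c x z ^ 2)) := by
    intro x z h
    have e0 := (H.sz.e0 x z h).le
    have r0 := nr x z h
    have rt := H.sz.rt x z h
    have t1 := H.sz.t1 x z h
    have t0 : 0 ≤ t x z := r0.trans rt
    have r1 : r x z ≤ 1 := rt.trans t1
    have y0 := ny x z h
    have p0 := np x z h
    have b0 := nb x z h
    have c0 := nc x z h
    generalize e x z = e at *
    generalize r x z = r at *
    generalize t x z = t at *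
    generalize y x z = y at *
    generalize p x z = p at *
    generalize b x z = b at *
    generalize c x z = c at *
    -- `u = y + r p`, `v = e r (b + t c)`
    set u := y + r * p with hu
    set v := e * r * (b + t * c) with hv
    have u0 : 0 ≤ u := add_nonneg y0 (mul_nonneg r0 p0)
    have v0 : 0 ≤ v := by rw [hv]; positivity
    have yu : y ≤ u := by rw [hu]; have := mul_nonneg r0 p0; linarith
    have pu : r * p ≤ u := by rw [hu]; linarith
    have v1 : e * r * (b + r * c) ≤ v := by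
      rw [hv]
      have : r * c ≤ t * c := mul_le_mul_of_nonneg_right rt c0
      exact mul_le_mul_of_nonneg_left (by linarith) (mul_nonneg e0 r0)
    have v2 : e * r * (r * (c + r * b)) ≤ v := by
      rw [hv]
      refine mul_le_mul_of_nonneg_left ?_ (mul_nonneg e0 r0)
      have h1 : r * c ≤ t * c := mul_le_mul_of_nonneg_right rt c0
      have h2 : r * (r * b) ≤ b := by
        have h3 : r * b ≤ b := mul_le_of_le_one_left b0 r1
        exact (mul_le_mul_of_nonneg_left h3 r0).trans h3
      rw [mul_add]; linarith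
    have v3 : e * r * (t * (c + r * b)) ≤ v := by
      rw [hv]
      refine mul_le_mul_of_nonneg_left ?_ (mul_nonneg e0 r0)
      have h2 : t * (r * b) ≤ b := by
        have h3 : r * b ≤ b := mul_le_of_le_one_left b0 r1
        have h4 : t * (r * b) ≤ 1 * (r * b) := mul_le_mul_of_nonneg_right t1 (mul_nonneg r0 b0)
        linarith
      rw [mul_add]; linarith
    have uv : ∀ a c : ℝ, 0 ≤ a → a ≤ v → 0 ≤ c → c ≤ u → a * c ≤ u * v := by
      intro a c ha hav hc hcu
      calc a * c ≤ v * u := mul_le_mul hav hcu hc v0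
        _ = u * v := mul_comm _ _
    have k1 : e * r * (b + r * c) * y ≤ u * v := uv _ _ (by positivity) v1 y0 yu
    have k2 : e * r * (b + r * c) * (r * p) ≤ u * v := uv _ _ (by positivity) v1 (by positivity) pu
    have k3 : e * r * (r * (c + r * b)) * y ≤ u * v := uv _ _ (by positivity) v2 y0 yu
    have k4 : e * r * (t * (c + r * b)) * (r * p) ≤ u * v := uv _ _ (by positivity) v3 (by positivity) pu
    have k5 : e * (e * r * (b + r * c) * y) + e * r * (e * r * (b + r * c) * p +
        e * r * (c + r * b) * y) + e * r * t * (e * r * (c + r * b) * p) ≤ e * (4 * (u * v)) := by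
      have l1 := mul_le_mul_of_nonneg_left k1 e0
      have l2 := mul_le_mul_of_nonneg_left k2 e0
      have l3 := mul_le_mul_of_nonneg_left k3 e0
      have l4 := mul_le_mul_of_nonneg_left k4 e0
      nlinarith
    have k6 : e * (4 * (u * v)) ≤ 2 * (e * u ^ 2) + 2 * (e * v ^ 2) := by
      have : 2 * (u * v) ≤ u ^ 2 + v ^ 2 := by nlinarith [sq_nonneg (u - v)]
      have := mul_le_mul_of_nonneg_left this e0
      nlinarith
    have k7 : e * v ^ 2 ≤ 2 * (e ^ 3 * r ^ 2 * (b ^ 2 + t ^ 2 * c ^ 2)) := by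
      have h1 : (b + t * c) ^ 2 ≤ 2 * (b ^ 2 + t ^ 2 * c ^ 2) := by
        nlinarith [sq_nonneg (b - t * c)]
      have h2 : 0 ≤ e ^ 3 * r ^ 2 := by positivity
      have h3 := mul_le_mul_of_nonneg_left h1 h2
      rw [hv]
      nlinarith
    have k8 : 0 ≤ e * u ^ 2 := by positivity
    have k9 : 0 ≤ e ^ 3 * r ^ 2 * (b ^ 2 + t ^ 2 * c ^ 2) := by positivity
    linarith
  have m1 := a1.mono (fun x z h => by
      have := w0 x z h; have := w1 x z h; have := w2 x z h; have := n1 x z h
      have := n2 x z h; have := ny x z h; have := np x z h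
      positivity)
    (g' := fun x z => δ x z * (e x z * (y x z + r x z * p x z) ^ 2 +
      e x z ^ 3 * r x z ^ 2 * (b x z ^ 2 + t x z ^ 2 * c x z ^ 2))) (A := 8) fun x z h => by
      have k := mul_le_mul_of_nonneg_left (key x z h) (H.sz.d0 x z h)
      simp only [mn_val, pow_zero, pow_one, one_mul, mul_one]
      nlinarith
  have m2 := a2.mono (fun x z h => by
      have := w0 x z h; have := w1 x z h; have := w2 x z h; have := n1 x z h
      have := n2 x z h; have := ny x z h; have := np x z h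
      positivity)
    (g' := fun x z => δ x z * (e x z * (y x z + r x z * p x z) ^ 2 +
      e x z ^ 3 * r x z ^ 2 * (b x z ^ 2 + t x z ^ 2 * c x z ^ 2))) (A := 8) fun x z h => by
      have k := mul_le_mul_of_nonneg_left (key x z h) (H.sz.d0 x z h)
      simp only [mn_val, pow_zero, pow_one, one_mul, mul_one]
      nlinarith
  refine (m1.add m2).congr fun x z _ => ?_
  rw [← Bl_sub₁, ← Bl_sub₂]
  ring

/-! ## The Christoffel terms -/

/-- `∂_x`. -/
def Dx (G : Ge α ι E) (j : ι) (f : α → E → ℝ) : α → E → ℝ := fun x z =>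
  G.da j f x z + 1 / 2 * G.db j f x z

/-- `∂_y`. -/
def Dy (G : Ge α ι E) (j : ι) (f : α → E → ℝ) : α → E → ℝ := fun x z =>
  -G.da j f x z + 1 / 2 * G.db j f x z

/-- `s_x`. -/
def sX (s d : ι → ι → α → E → ℝ) (i j : ι) : α → E → ℝ := fun x z => tS s i j x z + d i j x z

/-- `s_y`. -/
def sY (s d : ι → ι → α → E → ℝ) (i j : ι) : α → E → ℝ := fun x z => tS s i j x z - d i j x z

/-- The Christoffel symbols of the first slot. -/
def Cx (G : Ge α ι E) (s d : ι → ι → α → E → ℝ) (i l k : ι) : α → E → ℝ := fun x z =>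
  ∑ j, (1 / 2 * (sX s d i j x z * Dx G j (sX s d k l) x z) +
    1 / 2 * (sX s d l j x z * Dx G j (sX s d k i) x z) -
    1 / 2 * (sX s d k j x z * Dx G j (sX s d i l) x z))

/-- The Christoffel symbols of the second slot. -/
def Cy (G : Ge α ι E) (s d : ι → ι → α → E → ℝ) (i l k : ι) : α → E → ℝ := fun x z =>
  ∑ j, (1 / 2 * (sY s d i j x z * Dy G j (sY s d k l) x z) +
    1 / 2 * (sY s d l j x z * Dy G j (sY s d k i) x z) -
    1 / 2 * (sY s d k j x z * Dy G j (sY s d i l) x z))

/-- The Christoffel terms. -/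
def Ch (G : Ge α ι E) (s d : ι → ι → α → E → ℝ) (W : α → E → ℝ) (A B : ι → α → E → ℝ) : α → E → ℝ :=
  fun x z => ∑ i, ∑ l, ∑ k, (Cx G s d i l k x z * (Dx G k W x z * (A i x z * A l x z)) +
    Cy G s d i l k x z * (Dy G k W x z * (B i x z * B l x z)))


section chr

variable (hss : ∀ i j, G.Sm (s i j)) (hsd : ∀ i j, G.Sm (d i j))

theorem Dx_sX (hss : ∀ i j, G.Sm (s i j)) (hsd : ∀ i j, G.Sm (d i j)) (i j k : ι) (x : α) {z : E}
    (hz : z ∈ G.Z x) :
    Dx G j (sX s d i k) x z = G.da j (s i k) x z + G.da j (d i k) x z +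
      (1 / 2 * G.db j (s i k) x z + 1 / 2 * G.db j (d i k) x z) := by
  have e1 : G.da j (sX s d i k) x z = G.da j (s i k) x z + G.da j (d i k) x z := by
    have h1 : G.da j (sX s d i k) x z = G.da j (tS s i k) x z + G.da j (d i k) x z :=
      da_add (tS_sm hss i k) (hsd i k) j x hz
    have h2 : G.da j (tS s i k) x z = G.da j (idn i k) x z + G.da j (s i k) x z :=
      da_add (sm_idn i k) (hss i k) j x hz
    have h3 : G.da j (idn i k) x z = 0 := by
      show fderiv ℝ (fun _ => (if i = k then (1 : ℝ) else 0)) z _ = 0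
      simp
    rw [h1, h2, h3, zero_add]
  have e2 : G.db j (sX s d i k) x z = G.db j (s i k) x z + G.db j (d i k) x z := by
    have h1 : G.db j (sX s d i k) x z = G.db j (tS s i k) x z + G.db j (d i k) x z :=
      db_add (tS_sm hss i k) (hsd i k) j x hz
    have h2 : G.db j (tS s i k) x z = G.db j (idn i k) x z + G.db j (s i k) x z :=
      db_add (sm_idn i k) (hss i k) j x hz
    have h3 : G.db j (idn i k) x z = 0 := by
      show fderiv ℝ (fun _ => (if i = k then (1 : ℝ) else 0)) z _ = 0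
      simp
    rw [h1, h2, h3, zero_add]
  rw [Dx, e1, e2]
  ring

theorem Dy_sY (hss : ∀ i j, G.Sm (s i j)) (hsd : ∀ i j, G.Sm (d i j)) (i j k : ι) (x : α) {z : E}
    (hz : z ∈ G.Z x) :
    Dy G j (sY s d i k) x z = -G.da j (s i k) x z + G.da j (d i k) x z +
      (1 / 2 * G.db j (s i k) x z - 1 / 2 * G.db j (d i k) x z) := by
  have e1 : G.da j (sY s d i k) x z = G.da j (s i k) x z - G.da j (d i k) x z := by
    have h1 : G.da j (sY s d i k) x z = G.da j (tS s i k) x z - G.da j (d i k) x z :=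
      da_sub (tS_sm hss i k) (hsd i k) j x hz
    have h2 : G.da j (tS s i k) x z = G.da j (idn i k) x z + G.da j (s i k) x z :=
      da_add (sm_idn i k) (hss i k) j x hz
    have h3 : G.da j (idn i k) x z = 0 := by
      show fderiv ℝ (fun _ => (if i = k then (1 : ℝ) else 0)) z _ = 0
      simp
    rw [h1, h2, h3, zero_add]
  have e2 : G.db j (sY s d i k) x z = G.db j (s i k) x z - G.db j (d i k) x z := by
    have h1 : G.db j (sY s d i k) x z = G.db j (tS s i k) x z - G.db j (d i k) x z :=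
      db_sub (tS_sm hss i k) (hsd i k) j x hz
    have h2 : G.db j (tS s i k) x z = G.db j (idn i k) x z + G.db j (s i k) x z :=
      db_add (sm_idn i k) (hss i k) j x hz
    have h3 : G.db j (idn i k) x z = 0 := by
      show fderiv ℝ (fun _ => (if i = k then (1 : ℝ) else 0)) z _ = 0
      simp
    rw [h1, h2, h3, zero_add]
  rw [Dy, e1, e2]
  ring

end chr

end Vale.Agent.P088.R2.H464.B
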