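import Vale.Agent.P088.R2.H464.B.Th4

/-!
# P088: the Hessian form, true against model, IV: the Christoffel terms
-/

open Set Filter
open scoped ContDiff Topology

noncomputable section

set_option linter.unusedSectionVars false

namespace Vale.Agent.P088.R2.H464.B

variable {α ι E : Type*} [NormedAddCommGroup E] [NormedSpace ℝ E] [Fintype ι] [DecidableEq ι]
  {G : Ge α ι E} {e r t δ κ : α → E → ℝ} {s d : ι → ι → α → E → ℝ} {W W₀ : α → E → ℝ}

section sz

variable (hz : Sz G e r t δ) (hm : Hm G r κ s d) (hss : ∀ i j, G.Sm (s i j)) (hsd : ∀ i j, G.Sm (d i j))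
include hz hm

theorem nkr : G.Nn fun x z => κ x z * r x z := fun x z h =>
  mul_nonneg (hm.k0 x z h) (hz.r0 x z h).le

theorem kr_k {f : α → E → ℝ} (hf : G.O (fun x z => κ x z * r x z) f) : G.O κ f :=
  hf.mono (nkr hz hm) (A := 1) fun x z h => by
    rw [one_mul]
    exact mul_le_of_le_one_right (hm.k0 x z h) ((hz.rt x z h).trans (hz.t1 x z h))

theorem k_one {f : α → E → ℝ} (hf : G.O κ f) : G.O (fun _ _ => 1) f :=
  hf.mono hm.k0 (A := 1) fun x z h => by rw [one_mul]; exact hm.k1 x z h

theorem o_idn (i j : ι) : G.O (fun _ _ => 1) (idn i j) := ⟨1, fun x z _ => by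
  unfold idn; split <;> simp⟩

theorem o_tS (i j : ι) : G.O (fun _ _ => 1) (tS s i j) :=
  (o_idn hz hm i j).add (k_one hz hm (hm.s0 i j))

theorem n1' : G.Nn fun _ _ => (1 : ℝ) := fun _ _ _ => zero_le_one

theorem o_sX (i j : ι) : G.O (fun _ _ => 1) (sX s d i j) :=
  (o_tS hz hm i j).add (k_one hz hm (kr_k hz hm (hm.d0 i j)))

theorem o_sY (i j : ι) : G.O (fun _ _ => 1) (sY s d i j) :=
  (o_tS hz hm i j).sub (k_one hz hm (kr_k hz hm (hm.d0 i j))) (n1' hz hm)

include hss hsd

theorem o_DsX (i j k : ι) : G.O κ (Dx G j (sX s d i k)) := by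
  have a1 := kr_k hz hm (hm.sa i k j)
  have a2 := hm.da i k j
  have a3 := (hm.sb i k j).cmul hm.k0 (1 / 2)
  have a4 := (kr_k hz hm (hm.db i k j)).cmul hm.k0 (1 / 2)
  exact ((a1.add a2).add (a3.add a4)).congr fun x z h => Dx_sX hss hsd i j k x h

theorem o_DsY (i j k : ι) : G.O κ (Dy G j (sY s d i k)) := by
  have a1 := kr_k hz hm (hm.sa i k j)
  have a2 := hm.da i k j
  have a3 := (hm.sb i k j).cmul hm.k0 (1 / 2)
  have a4 := (kr_k hz hm (hm.db i k j)).cmul hm.k0 (1 / 2)
  refine (((a1.cmul hm.k0 (-1)).add a2).add (a3.sub a4 hm.k0)).congr fun x z h => ?_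
  rw [Dy_sY hss hsd i j k x h]
  ring

theorem o_Dsd (i j k : ι) : G.O (fun x z => κ x z * r x z)
    fun x z => Dx G j (sX s d i k) x z - Dy G j (sY s d i k) x z := by
  have a1 := (hm.sa i k j).cmul (nkr hz hm) 2
  have a4 := hm.db i k j
  refine (a1.add a4).congr fun x z h => ?_
  rw [Dx_sX hss hsd i j k x h, Dy_sY hss hsd i j k x h]
  ring

theorem o_sd (i j : ι) : G.O (fun x z => κ x z * r x z)
    fun x z => sX s d i j x z - sY s d i j x z := by
  refine ((hm.d0 i j).cmul (nkr hz hm) 2).congr fun x z h => ?_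
  unfold sX sY
  ring

/-- One product. -/
theorem o_pr (i j k l : ι) : G.O κ (fun x z => sX s d i j x z * Dx G j (sX s d k l) x z) ∧
    G.O κ (fun x z => sY s d i j x z * Dy G j (sY s d k l) x z) ∧
    G.O (fun x z => κ x z * r x z) (fun x z => sX s d i j x z * Dx G j (sX s d k l) x z -
      sY s d i j x z * Dy G j (sY s d k l) x z) := by
  have n1 : G.Nn fun _ _ => (1 : ℝ) := fun _ _ _ => zero_le_one
  have e1 : ∀ {g f : α → E → ℝ}, G.O (fun x z => 1 * g x z) f → G.O g f := fun h => by
    simpa only [one_mul] using h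
  refine ⟨e1 ((o_sX hz hm i j).mul n1 (o_DsX hz hm hss hsd k j l)),
    e1 ((o_sY hz hm i j).mul n1 (o_DsY hz hm hss hsd k j l)), ?_⟩
  have a1 := (o_sd hz hm hss hsd i j).mul (nkr hz hm) (k_one hz hm (o_DsX hz hm hss hsd k j l))
  have a2 := (o_sY hz hm i j).mul n1 (o_Dsd hz hm hss hsd k j l)
  simp only [one_mul, mul_one] at a1 a2
  refine (a1.add a2).congr fun x z h => ?_
  ring

theorem o_C (i l k : ι) : G.O κ (Cx G s d i l k) ∧ G.O κ (Cy G s d i l k) ∧
    G.O (fun x z => κ x z * r x z) (fun x z => Cx G s d i l k x z - Cy G s d i l k x z) := by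
  have n := nkr hz hm
  refine ⟨Ge.O.sum _ fun j _ => ?_, Ge.O.sum _ fun j _ => ?_, ?_⟩
  · exact (((o_pr hz hm hss hsd i j k l).1.cmul hm.k0 _).add
      ((o_pr hz hm hss hsd l j k i).1.cmul hm.k0 _)).sub
      ((o_pr hz hm hss hsd k j i l).1.cmul hm.k0 _) hm.k0
  · exact (((o_pr hz hm hss hsd i j k l).2.1.cmul hm.k0 _).add
      ((o_pr hz hm hss hsd l j k i).2.1.cmul hm.k0 _)).sub
      ((o_pr hz hm hss hsd k j i l).2.1.cmul hm.k0 _) hm.k0
  · have h : G.O (fun x z => κ x z * r x z) (fun x z => ∑ j,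
        ((1 / 2 * (sX s d i j x z * Dx G j (sX s d k l) x z -
            sY s d i j x z * Dy G j (sY s d k l) x z) +
          1 / 2 * (sX s d l j x z * Dx G j (sX s d k i) x z -
            sY s d l j x z * Dy G j (sY s d k i) x z)) -
          1 / 2 * (sX s d k j x z * Dx G j (sX s d i l) x z -
            sY s d k j x z * Dy G j (sY s d i l) x z))) := by
      refine Ge.O.sum _ fun j _ => ?_
      exact (((o_pr hz hm hss hsd i j k l).2.2.cmul n _).add
        ((o_pr hz hm hss hsd l j k i).2.2.cmul n _)).sub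
        ((o_pr hz hm hss hsd k j i l).2.2.cmul n _) n
    refine h.congr fun x z _ => ?_
    unfold Cx Cy
    rw [← Finset.sum_sub_distrib]
    exact Finset.sum_congr rfl fun j _ => by ring

end sz

/-- **The Christoffel terms.** -/
theorem Ch_O (H : Hy G e r t δ s d W W₀) (hm : Hm G r κ s d) {y p : α → E → ℝ}
    {Y P : ι → α → E → ℝ} (ny : G.Nn y) (np : G.Nn p) (hY : ∀ j, G.O y (Y j))
    (hP : ∀ j, G.O p (P j)) :
    G.O (fun x z => κ x z * (e x z * (y x z + r x z * p x z) ^ 2 +
      e x z * r x z * t x z * p x z ^ 2))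
      (Ch G s d W (fun i x z => P i x z + 1 / 2 * Y i x z)
        fun i x z => P i x z - 1 / 2 * Y i x z) := by
  have nr : G.Nn r := fun x z h => (H.sz.r0 x z h).le
  have nk := hm.k0
  have nkr := nkr H.sz hm
  have ne : G.Nn e := fun x z h => (H.sz.e0 x z h).le
  have nt : G.Nn t := fun x z h => (nr x z h).trans (H.sz.rt x z h)
  -- first derivatives of `W`
  have wa : ∀ k, G.O (fun x z => e x z * r x z) (G.da k W) := fun k => by
    obtain ⟨C, hC⟩ := (H.hW.2.1 k).zero_of
    exact ⟨C, fun x z h => by simpa [ms, mn, x3] using hC x z h⟩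
  have wb : ∀ k, G.O (fun x z => e x z * r x z * t x z) (G.db k W) := fun k => by
    obtain ⟨C, hC⟩ := (H.hW.2.2 k).zero_of
    exact ⟨C, fun x z h => by simpa [ms, mn, x3] using hC x z h⟩
  have ner : G.Nn fun x z => e x z * r x z := fun x z h => mul_nonneg (ne x z h) (nr x z h)
  have nert : G.Nn fun x z => e x z * r x z * t x z := fun x z h =>
    mul_nonneg (ner x z h) (nt x z h)
  have npp : G.Nn fun x z => p x z * p x z := fun x z h => mul_nonneg (np x z h) (np x z h)
  have nyy : G.Nn fun x z => y x z * y x z := fun x z h => mul_nonneg (ny x z h) (ny x z h)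
  have npy : G.Nn fun x z => p x z * y x z := fun x z h => mul_nonneg (np x z h) (ny x z h)
  have nsq : G.Nn fun x z => p x z * p x z + y x z * y x z := fun x z h =>
    add_nonneg (npp x z h) (nyy x z h)
  -- the products
  have oPY : ∀ i l, G.O (fun x z => p x z * y x z)
      (fun x z => P i x z * Y l x z + Y i x z * P l x z) := fun i l =>
    ((hP i).mul np (hY l)).add (((hP l).mul np (hY i)).congr fun x z _ => by ring)
  have oSq : ∀ i l, G.O (fun x z => p x z * p x z + y x z * y x z)
      (fun x z => 2 * (P i x z * P l x z) + 1 / 2 * (Y i x z * Y l x z)) := fun i l => by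
    have a1 := (((hP i).mul np (hP l)).cmul npp 2).mono npp
      (g' := fun x z => p x z * p x z + y x z * y x z) (A := 1) fun x z h => by
        have := nyy x z h; linarith
    have a2 := (((hY i).mul ny (hY l)).cmul nyy (1 / 2)).mono nyy
      (g' := fun x z => p x z * p x z + y x z * y x z) (A := 1) fun x z h => by
        have := npp x z h; linarith
    exact a1.add a2
  have key : ∀ i l k, G.O (fun x z => κ x z * (e x z * (y x z + r x z * p x z) ^ 2 +
      e x z * r x z * t x z * p x z ^ 2)) (fun x z =>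
      (Cx G s d i l k x z + Cy G s d i l k x z) * (1 / 2 * (G.da k W x z *
        (P i x z * Y l x z + Y i x z * P l x z)) + 1 / 4 * (G.db k W x z *
        (2 * (P i x z * P l x z) + 1 / 2 * (Y i x z * Y l x z)))) +
      (Cx G s d i l k x z - Cy G s d i l k x z) * (1 / 2 * (G.da k W x z *
        (2 * (P i x z * P l x z) + 1 / 2 * (Y i x z * Y l x z))) + 1 / 4 * (G.db k W x z *
        (P i x z * Y l x z + Y i x z * P l x z)))) := by
    intro i l k
    obtain ⟨c1, c2, c3⟩ := o_C H.sz hm H.ss H.sd i l k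
    have t1 := ((wa k).mul ner (oPY i l)).cmul (fun x z h => mul_nonneg (ner x z h) (npy x z h)) (1 / 2)
    have t2 := ((wb k).mul nert (oSq i l)).cmul (fun x z h => mul_nonneg (nert x z h) (nsq x z h)) (1 / 4)
    have t3 := ((wa k).mul ner (oSq i l)).cmul (fun x z h => mul_nonneg (ner x z h) (nsq x z h)) (1 / 2)
    have t4 := ((wb k).mul nert (oPY i l)).cmul (fun x z h => mul_nonneg (nert x z h) (npy x z h)) (1 / 4)
    have u1 := (c1.add c2).mul nk t1
    have u2 := (c1.add c2).mul nk t2
    have u3 := c3.mul nkr t3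
    have u4 := c3.mul nkr t4
    have num : ∀ x, ∀ z ∈ G.Z x, 0 ≤ e x z ∧ 0 ≤ r x z ∧ r x z ≤ 1 ∧ 0 ≤ t x z ∧ t x z ≤ 1 ∧
        0 ≤ y x z ∧ 0 ≤ p x z ∧ 0 ≤ κ x z ∧ r x z ≤ t x z := fun x z h =>
      ⟨ne x z h, nr x z h, (H.sz.rt x z h).trans (H.sz.t1 x z h), nt x z h, H.sz.t1 x z h, ny x z h,
        np x z h, nk x z h, H.sz.rt x z h⟩
    have m1 := u1.mono (fun x z h => mul_nonneg (nk x z h) (mul_nonneg (ner x z h) (npy x z h)))
      (g' := fun x z => κ x z * (e x z * (y x z + r x z * p x z) ^ 2 +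
        e x z * r x z * t x z * p x z ^ 2)) (A := 1) fun x z h => by
        obtain ⟨e0, r0, r1, t0, t1, y0, p0, k0, rt⟩ := num x z h
        rw [one_mul]
        refine mul_le_mul_of_nonneg_left ?_ k0
        have h1 : r x z * (p x z * y x z) ≤ (y x z + r x z * p x z) ^ 2 := by
          nlinarith [mul_nonneg (mul_nonneg r0 p0) y0, sq_nonneg (y x z), sq_nonneg (r x z * p x z)]
        have h2 := mul_le_mul_of_nonneg_left h1 e0
        have h3 : 0 ≤ e x z * r x z * t x z * p x z ^ 2 := by positivity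
        linarith [mul_assoc (e x z) (r x z) (p x z * y x z)]
    have m2 := u2.mono (fun x z h => mul_nonneg (nk x z h) (mul_nonneg (nert x z h) (nsq x z h)))
      (g' := fun x z => κ x z * (e x z * (y x z + r x z * p x z) ^ 2 +
        e x z * r x z * t x z * p x z ^ 2)) (A := 1) fun x z h => by
        obtain ⟨e0, r0, r1, t0, t1, y0, p0, k0, rt⟩ := num x z h
        rw [one_mul]
        refine mul_le_mul_of_nonneg_left ?_ k0
        have h1 : y x z * y x z ≤ (y x z + r x z * p x z) ^ 2 := by
          nlinarith [mul_nonneg (mul_nonneg r0 p0) y0, sq_nonneg (r x z * p x z)]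
        have h2 : r x z * t x z * (y x z * y x z) ≤ y x z * y x z :=
          mul_le_of_le_one_left (mul_nonneg y0 y0) (mul_le_one₀ r1 t0 t1)
        have h3 := mul_le_mul_of_nonneg_left (h2.trans h1) e0
        have h4 : e x z * r x z * t x z * (p x z * p x z + y x z * y x z) =
          e x z * r x z * t x z * p x z ^ 2 + e x z * (r x z * t x z * (y x z * y x z)) := by ring
        linarith
    have m3 := u3.mono (fun x z h => mul_nonneg (nkr x z h) (mul_nonneg (ner x z h) (nsq x z h)))
      (g' := fun x z => κ x z * (e x z * (y x z + r x z * p x z) ^ 2 +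
        e x z * r x z * t x z * p x z ^ 2)) (A := 1) fun x z h => by
        obtain ⟨e0, r0, r1, t0, t1, y0, p0, k0, rt⟩ := num x z h
        rw [one_mul]
        have h1 : r x z * r x z * (p x z * p x z + y x z * y x z) ≤ (y x z + r x z * p x z) ^ 2 := by
          have h2 : r x z * r x z * (y x z * y x z) ≤ y x z * y x z :=
            mul_le_of_le_one_left (mul_nonneg y0 y0) (mul_le_one₀ r1 r0 r1)
          nlinarith [mul_nonneg (mul_nonneg r0 p0) y0, sq_nonneg (r x z * p x z)]
        have h2 := mul_le_mul_of_nonneg_left h1 (mul_nonneg k0 e0)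
        have h3 : 0 ≤ κ x z * (e x z * r x z * t x z * p x z ^ 2) := by positivity
        linarith [mul_add (κ x z) (e x z * (y x z + r x z * p x z) ^ 2)
          (e x z * r x z * t x z * p x z ^ 2)]
    have m4 := u4.mono (fun x z h => mul_nonneg (nkr x z h) (mul_nonneg (nert x z h) (npy x z h)))
      (g' := fun x z => κ x z * (e x z * (y x z + r x z * p x z) ^ 2 +
        e x z * r x z * t x z * p x z ^ 2)) (A := 1) fun x z h => by
        obtain ⟨e0, r0, r1, t0, t1, y0, p0, k0, rt⟩ := num x z h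
        rw [one_mul]
        have h0 : r x z * t x z * (r x z * (p x z * y x z)) ≤ r x z * (p x z * y x z) :=
          mul_le_of_le_one_left (by positivity) (mul_le_one₀ r1 t0 t1)
        have h1 : r x z * (p x z * y x z) ≤ (y x z + r x z * p x z) ^ 2 := by
          nlinarith [mul_nonneg (mul_nonneg r0 p0) y0, sq_nonneg (y x z), sq_nonneg (r x z * p x z)]
        have h2 := mul_le_mul_of_nonneg_left (h0.trans h1) (mul_nonneg k0 e0)
        have h3 : 0 ≤ κ x z * (e x z * r x z * t x z * p x z ^ 2) := by positivity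
        have h4 : κ x z * r x z * (e x z * r x z * t x z * (p x z * y x z)) =
          κ x z * e x z * (r x z * t x z * (r x z * (p x z * y x z))) := by ring
        rw [h4]
        linarith [mul_add (κ x z) (e x z * (y x z + r x z * p x z) ^ 2)
          (e x z * r x z * t x z * p x z ^ 2)]
    refine ((m1.add m2).add (m3.add m4)).congr fun x z _ => ?_
    ring
  refine (Ge.O.sum Finset.univ fun i _ => Ge.O.sum Finset.univ fun l _ =>
    Ge.O.sum Finset.univ fun k _ => key i l k).congr fun x z _ => ?_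
  unfold Ch
  refine Finset.sum_congr rfl fun i _ => Finset.sum_congr rfl fun l _ =>
    Finset.sum_congr rfl fun k _ => ?_
  simp only [Dx, Dy]
  ring

end Vale.Agent.P088.R2.H464.B
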