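import Vale.Agent.P088.R2.H464.B.Slo

/-!
# P088: the Hessian form of a cell in the variables `q`, `p`
-/

open Set Filter
open scoped ContDiff Topology

noncomputable section

set_option linter.unusedSectionVars false

namespace Vale.Agent.P088.R2.H464.B

open Vale.Agent.P088.R2.H961.GW Vale.Agent.P088.R2.H644

variable {α ι E : Type*} [NormedAddCommGroup E] [NormedSpace ℝ E] [Fintype ι] [DecidableEq ι]
  {G : Ge α ι E} {s d : ι → ι → α → E → ℝ} {W f g : α → E → ℝ}

/-- Fourfold sums. -/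
theorem swap4 (f : ι → ι → ι → ι → ℝ) :
    ∑ i, ∑ l, ∑ j, ∑ k, f i l j k = ∑ j, ∑ k, ∑ i, ∑ l, f i l j k := by
  calc ∑ i, ∑ l, ∑ j, ∑ k, f i l j k = ∑ i, ∑ j, ∑ l, ∑ k, f i l j k :=
        Finset.sum_congr rfl fun i _ => Finset.sum_comm
    _ = ∑ j, ∑ i, ∑ l, ∑ k, f i l j k := Finset.sum_comm
    _ = ∑ j, ∑ i, ∑ k, ∑ l, f i l j k :=
        Finset.sum_congr rfl fun j _ => Finset.sum_congr rfl fun i _ => Finset.sum_comm
    _ = ∑ j, ∑ k, ∑ i, ∑ l, f i l j k := Finset.sum_congr rfl fun j _ => Finset.sum_comm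

/-- `∑ A'_j B'_k w_jk`. -/
theorem raise (u v : ι → ι → ℝ) (A B : ι → ℝ) (w : ι → ι → ℝ) :
    ∑ i, ∑ l, ∑ j, ∑ k, u i j * v k l * w j k * A i * B l =
      ∑ j, ∑ k, (∑ i, u i j * A i) * (∑ l, v k l * B l) * w j k := by
  rw [swap4]
  refine Finset.sum_congr rfl fun j _ => Finset.sum_congr rfl fun k _ => ?_
  rw [Finset.sum_mul_sum, Finset.sum_mul]
  refine Finset.sum_congr rfl fun i _ => ?_
  rw [Finset.sum_mul]
  exact Finset.sum_congr rfl fun l _ => by ring

/-- The Hessian of one slot with `ρ = 1`. -/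
theorem Hc_one (σ : Sl E ι) (hρ : ∀ z, σ.ρ z = 1) (W : E → ℝ) (i l : ι) (z : E) :
    σ.Hc W i l z = (∑ j, ∑ k, σ.s i j z * σ.s k l z *
        (1 / 2 * (σ.D j (σ.D k W) z + σ.D k (σ.D j W) z))) +
      ∑ k, (∑ j, (1 / 2 * (σ.s i j z * σ.D j (σ.s k l) z) +
        1 / 2 * (σ.s l j z * σ.D j (σ.s k i) z) -
        1 / 2 * (σ.s k j z * σ.D j (σ.s i l) z))) * σ.D k W z := by
  have hη : ∀ j, σ.η j z = 0 := fun j => by
    have : σ.ρ = fun _ => 1 := funext hρ
    unfold Sl.η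
    rw [this]; simp
  unfold Sl.Hc
  simp only [hη, zero_mul, add_zero, mul_zero, sub_zero]
  have e1 : ∑ k, (∑ j, (1 / 2 * (σ.s i j z * σ.D j (σ.s k l) z) +
        1 / 2 * (σ.s l j z * σ.D j (σ.s k i) z) -
        1 / 2 * (σ.s k j z * σ.D j (σ.s i l) z))) * σ.D k W z =
      (∑ j, ∑ k, (1 / 2 * (σ.s i j z * σ.D j (σ.s k l) z) +
        1 / 2 * (σ.s l j z * σ.D j (σ.s k i) z)) * σ.D k W z) -
      ∑ j, ∑ k, 1 / 2 * (σ.s j k z * σ.D k (σ.s i l) z) * σ.D j W z := by
    rw [Finset.sum_comm (f := fun j k => (1 / 2 * (σ.s i j z * σ.D j (σ.s k l) z) +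
        1 / 2 * (σ.s l j z * σ.D j (σ.s k i) z)) * σ.D k W z), ← Finset.sum_sub_distrib]
    refine Finset.sum_congr rfl fun k _ => ?_
    rw [← Finset.sum_sub_distrib, Finset.sum_mul]
    exact Finset.sum_congr rfl fun j _ => by ring
  rw [e1, ← Finset.sum_sub_distrib, ← Finset.sum_add_distrib, Finset.mul_sum]
  refine Finset.sum_congr rfl fun j _ => ?_
  rw [← Finset.sum_sub_distrib, ← Finset.sum_add_distrib, Finset.mul_sum]
  exact Finset.sum_congr rfl fun k _ => by ring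

/-- The form of one slot. -/
theorem Hc_form (σ : Sl E ι) (hρ : ∀ z, σ.ρ z = 1) (hs : ∀ i j z, σ.s i j z = σ.s j i z) (W : E → ℝ)
    (A : ι → ℝ) (z : E) (hW : ∀ j k, σ.D j (σ.D k W) z = σ.D k (σ.D j W) z) :
    ∑ i, ∑ l, σ.Hc W i l z * A i * A l =
      (∑ j, ∑ k, (∑ i, σ.s i j z * A i) * (∑ i, σ.s i k z * A i) * σ.D j (σ.D k W) z) +
      ∑ i, ∑ l, ∑ k, (∑ j, (1 / 2 * (σ.s i j z * σ.D j (σ.s k l) z) +
        1 / 2 * (σ.s l j z * σ.D j (σ.s k i) z) -
        1 / 2 * (σ.s k j z * σ.D j (σ.s i l) z))) * (σ.D k W z * (A i * A l)) := by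
  have e2 := raise (fun i j => σ.s i j z) (fun k l => σ.s k l z) A A
    (fun j k => 1 / 2 * (σ.D j (σ.D k W) z + σ.D k (σ.D j W) z))
  have e3 : ∑ j, ∑ k, (∑ i, σ.s i j z * A i) * (∑ i, σ.s i k z * A i) * σ.D j (σ.D k W) z =
      ∑ j, ∑ k, (∑ i, σ.s i j z * A i) * (∑ l, σ.s k l z * A l) *
        (1 / 2 * (σ.D j (σ.D k W) z + σ.D k (σ.D j W) z)) := by
    refine Finset.sum_congr rfl fun j _ => Finset.sum_congr rfl fun k _ => ?_
    rw [hW k j]
    have : ∑ i, σ.s i k z * A i = ∑ l, σ.s k l z * A l :=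
      Finset.sum_congr rfl fun i _ => by rw [hs i k z]
    rw [this]; ring
  rw [e3, ← e2, ← Finset.sum_add_distrib]
  refine Finset.sum_congr rfl fun i _ => ?_
  rw [← Finset.sum_add_distrib]
  refine Finset.sum_congr rfl fun l _ => ?_
  rw [Hc_one σ hρ W i l z, add_mul, add_mul, Finset.sum_mul, Finset.sum_mul, Finset.sum_mul,
    Finset.sum_mul]
  congr 1
  · refine Finset.sum_congr rfl fun j _ => ?_
    rw [Finset.sum_mul, Finset.sum_mul]
  · exact Finset.sum_congr rfl fun k _ => by ring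

/-- The mixed form. -/
theorem Mc_form (σ τ : Sl E ι) (ht : ∀ i j z, τ.s i j z = τ.s j i z) (W : E → ℝ) (A B : ι → ℝ)
    (z : E) : ∑ i, ∑ k, Ch.Mc σ τ W i k z * A i * B k =
      ∑ j, ∑ k, (∑ i, σ.s i j z * A i) * (∑ i, τ.s i k z * B i) * σ.D j (τ.D k W) z := by
  have e2 := raise (fun i j => σ.s i j z) (fun k l => τ.s k l z) A B (fun j k => σ.D j (τ.D k W) z)
  have e3 : ∑ j, ∑ k, (∑ i, σ.s i j z * A i) * (∑ i, τ.s i k z * B i) * σ.D j (τ.D k W) z =
      ∑ j, ∑ k, (∑ i, σ.s i j z * A i) * (∑ l, τ.s k l z * B l) * σ.D j (τ.D k W) z := by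
    refine Finset.sum_congr rfl fun j _ => Finset.sum_congr rfl fun k _ => ?_
    have : ∑ i, τ.s i k z * B i = ∑ l, τ.s k l z * B l :=
      Finset.sum_congr rfl fun i _ => by rw [ht i k z]
    rw [this]
  rw [e3, ← e2]
  refine Finset.sum_congr rfl fun i _ => Finset.sum_congr rfl fun l _ => ?_
  unfold Ch.Mc
  rw [Finset.sum_mul, Finset.sum_mul]
  refine Finset.sum_congr rfl fun j _ => ?_
  rw [Finset.sum_mul, Finset.sum_mul]
  refine Finset.sum_congr rfl fun k _ => ?_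
  rw [ht k l z]

section cell

variable (h : Hs G s d) (sW : G.Sm W) (x : α) {z : E} (hz : z ∈ G.Z x)
include h sW hz

omit [DecidableEq ι] h in
theorem da_db (i j : ι) : G.da i (G.db j W) x z = G.db j (G.da i W) x z :=
  fd_symm (G.op x) (sW x) hz _ _

omit [DecidableEq ι] h in
theorem da_da (i j : ι) : G.da i (G.da j W) x z = G.da j (G.da i W) x z :=
  fd_symm (G.op x) (sW x) hz _ _

omit [DecidableEq ι] h in
theorem db_db (i j : ι) : G.db i (G.db j W) x z = G.db j (G.db i W) x z :=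
  fd_symm (G.op x) (sW x) hz _ _

/-- **The Hessian form in the variables `q`, `p`.** -/
theorem TH_qp (Y P : ι → α → E → ℝ) :
    Ch.TH (SX G s d x) (SY G s d x) (W x) z (fun i => P i x z + 1 / 2 * Y i x z)
      (fun i => P i x z - 1 / 2 * Y i x z) =
    Bl G W (Yr s d Y P) (Pr s d Y P) (Yr s d Y P) (Pr s d Y P) x z +
    Ch G s d W (fun i x z => P i x z + 1 / 2 * Y i x z) (fun i x z => P i x z - 1 / 2 * Y i x z)
      x z := by
  have dxx : ∀ j k, (SX G s d x).D j ((SX G s d x).D k (W x)) z = Dx G j (Dx G k W) x z := by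
    intro j k
    rw [SX_D x k W, SX_D x j (Dx G k W)]
  have dyy : ∀ j k, (SY G s d x).D j ((SY G s d x).D k (W x)) z = Dy G j (Dy G k W) x z := by
    intro j k
    rw [SY_D x k W, SY_D x j (Dy G k W)]
  have dxy : ∀ j k, (SX G s d x).D j ((SY G s d x).D k (W x)) z = Dx G j (Dy G k W) x z := by
    intro j k
    rw [SY_D x k W, SX_D x j (Dy G k W)]
  have sxx : ∀ j k, Dx G j (Dx G k W) x z = Dx G k (Dx G j W) x z := by
    intro j k
    rw [Dx_Dx sW x hz, Dx_Dx sW x hz, da_da sW x hz j k, db_db sW x hz j k,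
      da_db sW x hz j k, ← da_db sW x hz k j]
    ring
  have syy : ∀ j k, Dy G j (Dy G k W) x z = Dy G k (Dy G j W) x z := by
    intro j k
    rw [Dy_Dy sW x hz, Dy_Dy sW x hz, da_da sW x hz j k, db_db sW x hz j k,
      da_db sW x hz j k, ← da_db sW x hz k j]
    ring
  have e1 := Hc_form (SX G s d x) (fun _ => rfl) (h.okx x).sy (W x)
    (fun i => P i x z + 1 / 2 * Y i x z) z fun j k => by rw [dxx, dxx, sxx]
  have e2 := Hc_form (SY G s d x) (fun _ => rfl) (h.oky x).sy (W x)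
    (fun i => P i x z - 1 / 2 * Y i x z) z fun j k => by rw [dyy, dyy, syy]
  have e3 := Mc_form (SX G s d x) (SY G s d x) (h.oky x).sy (W x)
    (fun i => P i x z + 1 / 2 * Y i x z) (fun i => P i x z - 1 / 2 * Y i x z) z
  -- the raised vectors
  have rX : ∀ j, ∑ i, (SX G s d x).s i j z * (P i x z + 1 / 2 * Y i x z) =
      Pr s d Y P j x z + 1 / 2 * Yr s d Y P j x z := by
    intro j
    have i1 : ∑ i, idn i j x z * (P i x z + 1 / 2 * Y i x z) = P j x z + 1 / 2 * Y j x z := by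
      unfold idn
      simp
    unfold Pr Yr
    rw [mul_add, Finset.mul_sum, add_add_add_comm, ← i1, ← Finset.sum_add_distrib,
      ← Finset.sum_add_distrib]
    refine Finset.sum_congr rfl fun i _ => ?_
    show sX s d i j x z * _ = _
    unfold sX tS
    ring
  have rY : ∀ j, ∑ i, (SY G s d x).s i j z * (P i x z - 1 / 2 * Y i x z) =
      Pr s d Y P j x z - 1 / 2 * Yr s d Y P j x z := by
    intro j
    have i1 : ∑ i, idn i j x z * (P i x z - 1 / 2 * Y i x z) = P j x z - 1 / 2 * Y j x z := by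
      unfold idn
      simp
    unfold Pr Yr
    rw [mul_add, Finset.mul_sum, add_sub_add_comm, ← i1, ← Finset.sum_sub_distrib,
      ← Finset.sum_add_distrib]
    refine Finset.sum_congr rfl fun i _ => ?_
    show sY s d i j x z * _ = _
    unfold sY tS
    ring
  simp only [rX, rY, dxx, dyy, dxy] at e1 e2 e3
  unfold Ch.TH
  rw [e1, e2, e3]
  -- the mixed term, symmetrized
  have e4 : ∑ j, ∑ k, (Pr s d Y P j x z + 1 / 2 * Yr s d Y P j x z) *
      (Pr s d Y P k x z - 1 / 2 * Yr s d Y P k x z) * Dx G j (Dy G k W) x z =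
      ∑ j, ∑ k, (Pr s d Y P j x z - 1 / 2 * Yr s d Y P j x z) *
      (Pr s d Y P k x z + 1 / 2 * Yr s d Y P k x z) * Dy G j (Dx G k W) x z := by
    rw [Finset.sum_comm]
    refine Finset.sum_congr rfl fun j _ => Finset.sum_congr rfl fun k _ => ?_
    have : Dx G k (Dy G j W) x z = Dy G j (Dx G k W) x z := by
      rw [Dx_Dy sW x hz, Dy_Dx sW x hz, da_da sW x hz j k, db_db sW x hz j k,
        da_db sW x hz j k, ← da_db sW x hz k j]
      ring
    rw [this]; ring
  have e5 : Bl G W (Yr s d Y P) (Pr s d Y P) (Yr s d Y P) (Pr s d Y P) x z =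
      (∑ j, ∑ k, (Pr s d Y P j x z + 1 / 2 * Yr s d Y P j x z) *
        (Pr s d Y P k x z + 1 / 2 * Yr s d Y P k x z) * Dx G j (Dx G k W) x z) +
      (∑ j, ∑ k, (Pr s d Y P j x z + 1 / 2 * Yr s d Y P j x z) *
        (Pr s d Y P k x z - 1 / 2 * Yr s d Y P k x z) * Dx G j (Dy G k W) x z) +
      (∑ j, ∑ k, (Pr s d Y P j x z - 1 / 2 * Yr s d Y P j x z) *
        (Pr s d Y P k x z + 1 / 2 * Yr s d Y P k x z) * Dy G j (Dx G k W) x z) +
      ∑ j, ∑ k, (Pr s d Y P j x z - 1 / 2 * Yr s d Y P j x z) *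
        (Pr s d Y P k x z - 1 / 2 * Yr s d Y P k x z) * Dy G j (Dy G k W) x z := by
    unfold Bl
    rw [← Finset.sum_add_distrib, ← Finset.sum_add_distrib, ← Finset.sum_add_distrib]
    refine Finset.sum_congr rfl fun j _ => ?_
    rw [← Finset.sum_add_distrib, ← Finset.sum_add_distrib, ← Finset.sum_add_distrib]
    refine Finset.sum_congr rfl fun k _ => ?_
    rw [Dx_Dx sW x hz, Dx_Dy sW x hz, Dy_Dx sW x hz, Dy_Dy sW x hz]
    ring
  have e6 : Ch G s d W (fun i x z => P i x z + 1 / 2 * Y i x z)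
      (fun i x z => P i x z - 1 / 2 * Y i x z) x z =
      (∑ i, ∑ l, ∑ k, (∑ j, (1 / 2 * ((SX G s d x).s i j z * (SX G s d x).D j ((SX G s d x).s k l) z) +
        1 / 2 * ((SX G s d x).s l j z * (SX G s d x).D j ((SX G s d x).s k i) z) -
        1 / 2 * ((SX G s d x).s k j z * (SX G s d x).D j ((SX G s d x).s i l) z))) *
        ((SX G s d x).D k (W x) z *
          ((P i x z + 1 / 2 * Y i x z) * (P l x z + 1 / 2 * Y l x z)))) +
      ∑ i, ∑ l, ∑ k, (∑ j, (1 / 2 * ((SY G s d x).s i j z * (SY G s d x).D j ((SY G s d x).s k l) z) +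
        1 / 2 * ((SY G s d x).s l j z * (SY G s d x).D j ((SY G s d x).s k i) z) -
        1 / 2 * ((SY G s d x).s k j z * (SY G s d x).D j ((SY G s d x).s i l) z))) *
        ((SY G s d x).D k (W x) z *
          ((P i x z - 1 / 2 * Y i x z) * (P l x z - 1 / 2 * Y l x z))) := by
    have cx : ∀ i l k, (∑ j, (1 / 2 * ((SX G s d x).s i j z * (SX G s d x).D j ((SX G s d x).s k l) z) +
        1 / 2 * ((SX G s d x).s l j z * (SX G s d x).D j ((SX G s d x).s k i) z) -
        1 / 2 * ((SX G s d x).s k j z * (SX G s d x).D j ((SX G s d x).s i l) z))) =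
        Cx G s d i l k x z := by
      intro i l k
      have e : ∀ j a b, (SX G s d x).D j ((SX G s d x).s a b) z = Dx G j (sX s d a b) x z :=
        fun j a b => congrFun (SX_D x j (sX s d a b)) z
      simp only [e]
      rfl
    have cy : ∀ i l k, (∑ j, (1 / 2 * ((SY G s d x).s i j z * (SY G s d x).D j ((SY G s d x).s k l) z) +
        1 / 2 * ((SY G s d x).s l j z * (SY G s d x).D j ((SY G s d x).s k i) z) -
        1 / 2 * ((SY G s d x).s k j z * (SY G s d x).D j ((SY G s d x).s i l) z))) =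
        Cy G s d i l k x z := by
      intro i l k
      have e : ∀ j a b, (SY G s d x).D j ((SY G s d x).s a b) z = Dy G j (sY s d a b) x z :=
        fun j a b => congrFun (SY_D x j (sY s d a b)) z
      simp only [e]
      rfl
    simp only [cx, cy, SX_D, SY_D]
    unfold Ch
    rw [← Finset.sum_add_distrib]
    refine Finset.sum_congr rfl fun i _ => ?_
    rw [← Finset.sum_add_distrib]
    refine Finset.sum_congr rfl fun l _ => ?_
    rw [← Finset.sum_add_distrib]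
  rw [e5, e6, ← e4]
  ring

end cell

end Vale.Agent.P088.R2.H464.B
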