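import Vale.Agent.P088.R2.H464.B.Cmp

/-!
# P088: the true weight and the model in the graded classes

`W = Φ(λ + v) + e^{λ + v} S(ρ₀ + w)`, `W₀ = Φ(λ) + e^λ ρ₀ / 2`; `v, ρ₀` of size `r²` (profile `r^2, r, 1`),
`w` with the factor `δ ≥ c r`.
-/

open Set Filter
open scoped ContDiff Topology

noncomputable section

set_option linter.unusedSectionVars false

namespace Vale.Agent.P088.R2.H464.B

variable {α ι E : Type*} [NormedAddCommGroup E] [NormedSpace ℝ E] [Fintype ι]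
  {G : Ge α ι E} {e r t δ : α → E → ℝ} {u v f g lam ρ₀ w : α → E → ℝ}

/-- **Composition**, one derivative more. -/
theorem comp1' {K : ℕ} {F : ℕ → α → ℝ → ℝ} (hF : Cn F) (su : G.Sm u)
    (ha : ∀ i, G.Gc K (fun _ _ _ => 1) (G.da i u)) (hb : ∀ i, G.Gc K (fun _ _ _ => 1) (G.db i u))
    (ng : G.Nn g) (hO : ∀ k ≤ K + 1, G.O g fun x z => F k x (u x z)) :
    G.Gc (K + 1) (fun _ => g) fun x z => F 0 x (u x z) := by
  have h1 := comp1 hF.sh su ha hb ng fun k hk => hO (k + 1) (Nat.succ_le_succ hk)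
  have n1 : ∀ j ≤ K, G.Nn fun _ _ => (1 : ℝ) := fun _ _ _ _ _ => zero_le_one
  refine ⟨hO 0 (Nat.zero_le _), fun i => ?_, fun i => ?_⟩
  · have h2 := h1.mulc (ha i) ng n1 (hF.sh.smc su 0) (su.da i) fun _ _ _ _ _ _ _ => le_rfl
    simp only [mul_one] at h2
    exact h2.congr fun x z hz => hF.fd su 0 x hz _
  · have h2 := h1.mulc (hb i) ng n1 (hF.sh.smc su 0) (su.db i) fun _ _ _ _ _ _ _ => le_rfl
    simp only [mul_one] at h2
    exact h2.congr fun x z hz => hF.fd su 0 x hz _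

theorem x3_anti {a b c : ℕ} (hab : b ≤ a) (hbc : c ≤ b) {i j : ℕ} (h : i ≤ j) :
    x3 a b c j ≤ x3 a b c i := by
  match i, j with
  | 0, 0 => exact le_rfl
  | 0, 1 => exact hab
  | 0, _ + 2 => exact hbc.trans hab
  | 1, 1 => exact le_rfl
  | 1, _ + 2 => exact hbc
  | _ + 2, _ + 2 => exact le_rfl
  | _ + 1, 0 => omega
  | _ + 2, 1 => omega

theorem ms_mo (h : Sz G e r t δ) (k a : ℕ) {i j : ℕ} (hij : i ≤ j) : ∀ x, ∀ z ∈ G.Z x,
    ms e r t δ k a (x3 2 1 0) (x3 0 0 0) i x z ≤ ms e r t δ k a (x3 2 1 0) (x3 0 0 0) j x z := by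
  have h0 : ∀ j, x3 0 0 0 j = 0 := fun j => by
    match j with
    | 0 => rfl
    | 1 => rfl
    | _ + 2 => rfl
  have h1 : x3 2 1 0 j ≤ x3 2 1 0 i := x3_anti (by norm_num) (by norm_num) hij
  exact mn_le h le_rfl h1 (by rw [h0, h0]; simpa using h1)

/-- The hypotheses. -/
structure Wc (G : Ge α ι E) (e r t δ lam v ρ₀ w : α → E → ℝ) (F S : ℕ → α → ℝ → ℝ) : Prop where
  sz : Sz G e r t δ
  rd : ∃ A, ∀ x, ∀ z ∈ G.Z x, r x z ≤ A * δ x z
  sl : G.Sm lam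
  sv : G.Sm v
  sρ : G.Sm ρ₀
  sw : G.Sm w
  la : ∀ i, ∀ x, ∀ z ∈ G.Z x, G.da i lam x z = 0
  lb : ∀ i, G.Gc 3 (fun _ _ _ => 1) (G.db i lam)
  he : ∀ x, ∀ z ∈ G.Z x, e x z = Real.exp (lam x z)
  hv : G.Gc 4 (ms e r t δ 0 0 (x3 2 1 0) (x3 0 0 0)) v
  hρ : G.Gc 4 (ms e r t δ 0 0 (x3 2 1 0) (x3 0 0 0)) ρ₀
  hw : G.Gc 4 (ms e r t δ 1 0 (x3 2 1 0) (x3 0 0 0)) w
  cF : Cn F
  cS : Cn S
  hF : ∀ k ≤ 3, ∃ C, ∀ x, ∀ z ∈ G.Z x, ∀ s ∈ Icc (0 : ℝ) 1,
    |F (k + 1) x (lam x z + s * v x z)| ≤ C * (e x z * r x z * t x z)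
  hS : ∀ k ≤ 5, ∃ C, ∀ x, ∀ z ∈ G.Z x, ∀ s ∈ Icc (0 : ℝ) 1,
    |S k x (s * (ρ₀ x z + w x z))| ≤ C
  S0 : ∀ x, S 0 x 0 = 0
  S1 : ∀ x, S 1 x 0 = 1 / 2

/-- Mean value. -/
theorem mv_le {f f' : ℝ → ℝ} (hf : ∀ s, HasDerivAt f (f' s) s) {a C : ℝ}
    (h : ∀ s ∈ Icc (0 : ℝ) 1, |f' (s * a)| ≤ C) : |f a - f 0| ≤ C * |a| := by
  have h1 : ∀ s ∈ Icc (0 : ℝ) 1, HasDerivWithinAt (fun s => f (s * a)) (f' (s * a) * a)
      (Icc (0 : ℝ) 1) s := fun s _ => by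
    have h2 : HasDerivAt (fun s : ℝ => s * a) a s := by
      simpa using (hasDerivAt_id s).mul_const a
    exact ((hf _).comp s h2).hasDerivWithinAt
  have h3 := (convex_Icc (0 : ℝ) 1).norm_image_sub_le_of_norm_hasDerivWithin_le h1
    (C := C * |a|) (fun s hs => by
      rw [Real.norm_eq_abs, abs_mul]
      exact mul_le_mul_of_nonneg_right (h s hs) (abs_nonneg _))
    (left_mem_Icc.2 zero_le_one) (right_mem_Icc.2 zero_le_one)
  simpa using h3

namespace Wc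

variable {F S : ℕ → α → ℝ → ℝ} (H : Wc G e r t δ lam v ρ₀ w F S)
include H

theorem n1 : G.Nn fun _ _ => (1 : ℝ) := fun _ _ _ => zero_le_one

theorem ne : G.Nn e := fun x z h => (H.sz.e0 x z h).le

theorem nert : G.Nn fun x z => e x z * r x z * t x z := fun x z h =>
  mul_nonneg (mul_nonneg (H.ne x z h) (H.sz.r0 x z h).le)
    ((H.sz.r0 x z h).le.trans (H.sz.rt x z h))

theorem p_le {k : ℕ} (j : ℕ) : ∀ x, ∀ z ∈ G.Z x,
    ms e r t δ k 0 (x3 2 1 0) (x3 0 0 0) j x z ≤ 1 := fun x z hz => by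
  have h := mn_le H.sz (k := k) (a := 0) (b := x3 2 1 0 j) (c := x3 0 0 0 j) (k' := 0) (b' := 0)
    (c' := 0) (Nat.zero_le _) (Nat.zero_le _) (Nat.zero_le _) x z hz
  refine h.trans (le_of_eq ?_)
  simp [mn]

/-- Constant profile. -/
theorem to1 {K k : ℕ} {f : α → E → ℝ} (hf : G.Gc K (ms e r t δ k 0 (x3 2 1 0) (x3 0 0 0)) f) :
    G.Gc K (fun _ _ _ => 1) f :=
  hf.mono (fun j _ => ms_nn H.sz _ _ _ _ _) fun j _ => ⟨1, fun x z hz => by
    rw [mul_one]; exact H.p_le j x z hz⟩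

theorem lam_a : ∀ i, G.Gc 3 (fun _ _ _ => 1) (G.da i lam) := fun i =>
  (Ge.Gc.zero 3 _).congr fun x z hz => H.la i x z hz

/-- `e`. -/
theorem hE : G.Gc 4 (fun _ => e) e := by
  have h := comp1' (K := 3) (g := e) cn_exp H.sl H.lam_a H.lb H.ne fun _ _ =>
    ⟨1, fun x z hz => by rw [one_mul, H.he x z hz, abs_of_pos (Real.exp_pos _)]⟩
  exact h.congr fun x z hz => H.he x z hz

theorem sE : G.Sm e := (cn_exp.smc H.sl 0).congr fun x z hz => H.he x z hz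

theorem sum_a : ∀ i, G.Gc 3 (fun _ _ _ => 1) (G.da i fun x z => lam x z + v x z) := fun i =>
  ((H.lam_a i).add ((H.to1 H.hv).2.1 i) (H.sl.da i) (H.sv.da i)).congr fun x _ hz =>
    da_add H.sl H.sv i x hz

theorem sum_b : ∀ i, G.Gc 3 (fun _ _ _ => 1) (G.db i fun x z => lam x z + v x z) := fun i =>
  ((H.lb i).add ((H.to1 H.hv).2.2 i) (H.sl.db i) (H.sv.db i)).congr fun x _ hz =>
    db_add H.sl H.sv i x hz

theorem slv : G.Sm fun x z => lam x z + v x z := H.sl.add H.sv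

/-- `exp v`. -/
theorem expv : G.Gc 4 (fun _ _ _ => 1) fun x z => Real.exp (v x z) := by
  obtain ⟨C, hC⟩ := H.hv.zero_of
  have hb : G.O (fun _ _ => 1) fun x z => Real.exp (v x z) := by
    refine ⟨Real.exp |C|, fun x z hz => ?_⟩
    rw [mul_one, abs_of_pos (Real.exp_pos _)]
    refine Real.exp_le_exp.2 ((le_abs_self _).trans ((hC x z hz).trans ?_))
    have h1 := H.p_le (k := 0) 0 x z hz
    have h0 := ms_nn H.sz 0 0 (x3 2 1 0) (x3 0 0 0) 0 x z hz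
    calc C * ms e r t δ 0 0 (x3 2 1 0) (x3 0 0 0) 0 x z
        ≤ |C| * ms e r t δ 0 0 (x3 2 1 0) (x3 0 0 0) 0 x z :=
          mul_le_mul_of_nonneg_right (le_abs_self C) h0
      _ ≤ |C| * 1 := mul_le_mul_of_nonneg_left h1 (abs_nonneg C)
      _ = |C| := mul_one _
  exact comp2 (K := 3) cn_exp H.sv (H.to1 H.hv) (fun _ _ => H.n1) (fun _ _ _ _ _ _ _ => le_rfl)
    ⟨1, fun _ _ _ => le_rfl⟩ hb fun _ _ => hb

/-- The chain of `exp - 1`. -/
theorem cn_em : Cn (α := α) fun k _ s => if k = 0 then Real.exp s - 1 else Real.exp s :=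
  ⟨fun k _ => by
    by_cases hk : k = 0
    · simp only [hk, if_true]; exact Real.contDiff_exp.sub contDiff_const
    · simp only [hk, if_false]; exact Real.contDiff_exp,
  fun k _ s => by
    by_cases hk : k = 0
    · simp only [hk, if_true, Nat.zero_add, one_ne_zero, if_false]
      exact (Real.hasDerivAt_exp s).sub_const 1
    · simp only [hk, if_false, Nat.succ_ne_zero]
      exact Real.hasDerivAt_exp s⟩

/-- `exp v - 1`. -/
theorem expm : G.Gc 4 (ms e r t δ 0 0 (x3 2 1 0) (x3 0 0 0)) fun x z => Real.exp (v x z) - 1 := by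
  obtain ⟨C, hC0, hC⟩ := Ge.O.nn H.hv.zero_of (ms_nn H.sz _ _ _ _ _)
  have hb := H.expv.zero_of
  have h0 : G.O (ms e r t δ 0 0 (x3 2 1 0) (x3 0 0 0) 0) fun x z => Real.exp (v x z) - 1 := by
    refine ⟨Real.exp C * C, fun x z hz => ?_⟩
    have h1 := mv_le (f := Real.exp) (f' := Real.exp) Real.hasDerivAt_exp (a := v x z)
      (C := Real.exp C) fun s hs => by
        rw [abs_of_pos (Real.exp_pos _)]
        refine Real.exp_le_exp.2 ((le_abs_self _).trans ?_)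
        rw [abs_mul, abs_of_nonneg hs.1]
        have h2 : |v x z| ≤ C := (hC x z hz).trans
          (mul_le_of_le_one_right hC0 (H.p_le (k := 0) 0 x z hz))
        calc s * |v x z| ≤ 1 * C := mul_le_mul hs.2 h2 (abs_nonneg _) zero_le_one
          _ = C := one_mul _
    rw [Real.exp_zero] at h1
    refine h1.trans ?_
    rw [mul_assoc]
    exact mul_le_mul_of_nonneg_left (hC x z hz) (Real.exp_pos _).le
  have h := comp2 (K := 3) H.cn_em H.sv H.hv (fun _ _ => ms_nn H.sz _ _ _ _ _)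
    (fun i j hij _ => ms_mo H.sz 0 0 hij) ⟨1, fun x z hz => H.p_le _ x z hz⟩
    (by simpa using h0) fun k _ => by simpa using hb
  simpa using h

/-- `ρ = ρ₀ + w`. -/
theorem sρw : G.Sm fun x z => ρ₀ x z + w x z := H.sρ.add H.sw

theorem hρw : G.Gc 4 (ms e r t δ 0 0 (x3 2 1 0) (x3 0 0 0)) fun x z => ρ₀ x z + w x z :=
  H.hρ.add (H.hw.monom H.sz (Nat.zero_le _) fun _ _ => ⟨le_rfl, le_rfl⟩) H.sρ H.sw

theorem hS' (k : ℕ) (hk : k ≤ 5) : G.O (fun _ _ => 1) fun x z => S k x (ρ₀ x z + w x z) := by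
  obtain ⟨C, hC⟩ := H.hS k hk
  refine ⟨C, fun x z hz => ?_⟩
  have := hC x z hz 1 (right_mem_Icc.2 zero_le_one)
  rwa [one_mul, ← mul_one C] at this

theorem S_O0 : G.O (ms e r t δ 0 0 (x3 2 1 0) (x3 0 0 0) 0) fun x z => S 0 x (ρ₀ x z + w x z) := by
  obtain ⟨C, hC⟩ := H.hS 1 (by norm_num)
  obtain ⟨C', hC0', hC'⟩ := Ge.O.nn H.hρw.zero_of (ms_nn H.sz _ _ _ _ _)
  refine ⟨|C| * C', fun x z hz => ?_⟩
  have h := mv_le (H.cS.dv 0 x) fun s hs => (hC x z hz s hs).trans (le_abs_self C)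
  rw [H.S0, sub_zero] at h
  refine h.trans ?_
  rw [mul_assoc]
  exact mul_le_mul_of_nonneg_left (hC' x z hz) (abs_nonneg C)

theorem S_O1 : G.O (ms e r t δ 0 0 (x3 2 1 0) (x3 0 0 0) 0)
    fun x z => S 1 x (ρ₀ x z + w x z) - 1 / 2 := by
  obtain ⟨C, hC⟩ := H.hS 2 (by norm_num)
  obtain ⟨C', hC0', hC'⟩ := Ge.O.nn H.hρw.zero_of (ms_nn H.sz _ _ _ _ _)
  refine ⟨|C| * C', fun x z hz => ?_⟩
  have h := mv_le (H.cS.dv 1 x) fun s hs => (hC x z hz s hs).trans (le_abs_self C)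
  rw [H.S1] at h
  refine h.trans ?_
  rw [mul_assoc]
  exact mul_le_mul_of_nonneg_left (hC' x z hz) (abs_nonneg C)

/-- `S(ρ) - ρ / 2 = O(r⁴)`. -/
theorem S_O2 : G.O (fun x z => r x z ^ 4)
    fun x z => S 0 x (ρ₀ x z + w x z) - 1 / 2 * (ρ₀ x z + w x z) := by
  obtain ⟨C, hC⟩ := H.hS 2 (by norm_num)
  obtain ⟨C', hC0', hC'⟩ := Ge.O.nn H.hρw.zero_of (ms_nn H.sz _ _ _ _ _)
  refine ⟨|C| * C' ^ 2, fun x z hz => ?_⟩
  set a := ρ₀ x z + w x z with ha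
  have ha' : |a| ≤ C' * r x z ^ 2 := by simpa [ms, mn, x3] using hC' x z hz
  have h1 : ∀ s ∈ Icc (0 : ℝ) 1, |S 1 x (s * a) - 1 / 2| ≤ |C| * |a| := by
    intro s hs
    have h := mv_le (H.cS.dv 1 x) (a := s * a) (C := |C|) fun s' hs' => by
      have := hC x z hz (s' * s) ⟨mul_nonneg hs'.1 hs.1, mul_le_one₀ hs'.2 hs.1 hs.2⟩
      rw [mul_assoc] at this
      exact this.trans (le_abs_self C)
    rw [H.S1] at h
    refine h.trans (mul_le_mul_of_nonneg_left ?_ (abs_nonneg C))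
    rw [abs_mul, abs_of_nonneg hs.1]
    exact mul_le_of_le_one_left (abs_nonneg _) hs.2
  have h2 := mv_le (f := fun s => S 0 x s - 1 / 2 * s) (f' := fun s => S 1 x s - 1 / 2)
    (fun s => by
      have h3 : HasDerivAt (fun s : ℝ => 1 / 2 * s) (1 / 2) s := by
        simpa using (hasDerivAt_id s).const_mul (1 / 2 : ℝ)
      exact (H.cS.dv 0 x s).sub h3) (a := a) h1
  simp only [H.S0, mul_zero, sub_zero] at h2
  refine h2.trans ?_
  calc |C| * |a| * |a| = |C| * (|a| * |a|) := by ring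
    _ ≤ |C| * ((C' * r x z ^ 2) * (C' * r x z ^ 2)) :=
        mul_le_mul_of_nonneg_left (mul_le_mul ha' ha' (abs_nonneg _)
          (mul_nonneg hC0' (sq_nonneg _))) (abs_nonneg C)
    _ = |C| * C' ^ 2 * r x z ^ 4 := by ring

/-- `S(ρ)`. -/
theorem hSρ : G.Gc 4 (ms e r t δ 0 0 (x3 2 1 0) (x3 0 0 0)) fun x z => S 0 x (ρ₀ x z + w x z) :=
  comp2 (K := 3) H.cS H.sρw H.hρw (fun _ _ => ms_nn H.sz _ _ _ _ _)
    (fun i j hij _ => ms_mo H.sz 0 0 hij) ⟨1, fun x z hz => H.p_le _ x z hz⟩ H.S_O0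
    fun k hk => H.hS' (k + 1) (by omega)

omit H in
theorem cn_sub (hS : Cn S) : Cn fun k x s => if k = 0 then S 1 x s - 1 / 2 else S (k + 1) x s :=
  ⟨fun k x => by
    by_cases hk : k = 0
    · simp only [hk, if_true]; exact (hS.sm 1 x).sub contDiff_const
    · simp only [hk, if_false]; exact hS.sm (k + 1) x,
  fun k x s => by
    by_cases hk : k = 0
    · simp only [hk, if_true, Nat.zero_add, one_ne_zero, if_false]
      exact (hS.dv 1 x s).sub_const _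
    · simp only [hk, if_false, Nat.succ_ne_zero]
      exact hS.dv (k + 1) x s⟩

/-- `S'(ρ) - 1 / 2`. -/
theorem hS1 : G.Gc 2 (ms e r t δ 0 0 (x3 2 1 0) (x3 0 0 0))
    fun x z => S 1 x (ρ₀ x z + w x z) - 1 / 2 := by
  have h := comp2 (K := 1) (cn_sub H.cS) H.sρw (H.hρw.le (by norm_num))
    (fun _ _ => ms_nn H.sz _ _ _ _ _) (fun i j hij _ => ms_mo H.sz 0 0 hij)
    ⟨1, fun x z hz => H.p_le _ x z hz⟩ (by simpa using H.S_O1)
    fun k hk => by simpa using H.hS' (k + 1 + 1) (by omega)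
  simpa using h

theorem sT : G.Sm fun x z => S 0 x (ρ₀ x z + w x z) - 1 / 2 * (ρ₀ x z + w x z) :=
  (H.cS.smc H.sρw 0).sub ((Ge.Sm.const _).mul H.sρw)

/-- A product of two is better by one factor. -/
theorem cvd : ∀ j ≤ 3, ∃ C, ∀ x, ∀ z ∈ G.Z x,
    cv (ms e r t δ 0 0 (x3 2 1 0) (x3 0 0 0)) (ms e r t δ 0 0 (x3 2 1 0) (x3 0 0 0)) j x z ≤
      C * ms e r t δ 1 0 (x3 2 1 0) (x3 0 0 0) j x z := by
  obtain ⟨A, hA⟩ := H.rd
  intro j hj
  refine ⟨4 * |A|, fun x z hz => ?_⟩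
  have r0 := (H.sz.r0 x z hz).le
  have r1 := (H.sz.rt x z hz).trans (H.sz.t1 x z hz)
  have d0 := H.sz.d0 x z hz
  have rA : r x z ≤ |A| * δ x z := (hA x z hz).trans (mul_le_mul_of_nonneg_right (le_abs_self A) d0)
  have h2 : r x z ^ 2 ≤ |A| * δ x z := by
    calc r x z ^ 2 = r x z * r x z := sq _
      _ ≤ 1 * (|A| * δ x z) := mul_le_mul r1 rA r0 zero_le_one
      _ = |A| * δ x z := one_mul _
  have hA0 := mul_nonneg (abs_nonneg A) d0
  match j, hj with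
  | 0, _ =>
    have e1 : cv (ms e r t δ 0 0 (x3 2 1 0) (x3 0 0 0))
        (ms e r t δ 0 0 (x3 2 1 0) (x3 0 0 0)) 0 x z
        = r x z ^ 2 * r x z ^ 2 := by
      simp [cv, ms, mn, x3]
    have e2 : ms e r t δ 1 0 (x3 2 1 0) (x3 0 0 0) 0 x z = δ x z * r x z ^ 2 := by
      simp [ms, mn, x3]
    rw [e1, e2]
    nlinarith [mul_le_mul_of_nonneg_right h2 (sq_nonneg (r x z)),
      mul_nonneg hA0 (sq_nonneg (r x z))]
  | 1, _ =>
    have e1 : cv (ms e r t δ 0 0 (x3 2 1 0) (x3 0 0 0))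
        (ms e r t δ 0 0 (x3 2 1 0) (x3 0 0 0)) 1 x z
        = r x z ^ 2 * r x z + r x z * r x z ^ 2 := by
      simp [cv, ms, mn, x3, Finset.sum_range_succ]
    have e2 : ms e r t δ 1 0 (x3 2 1 0) (x3 0 0 0) 1 x z = δ x z * r x z := by
      simp [ms, mn, x3]
    rw [e1, e2]
    nlinarith [mul_le_mul_of_nonneg_right h2 r0, mul_nonneg hA0 r0]
  | 2, _ =>
    have e1 : cv (ms e r t δ 0 0 (x3 2 1 0) (x3 0 0 0))
        (ms e r t δ 0 0 (x3 2 1 0) (x3 0 0 0)) 2 x z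
        = r x z ^ 2 + r x z * r x z + r x z ^ 2 := by
      simp [cv, ms, mn, x3, Finset.sum_range_succ]
    have e2 : ms e r t δ 1 0 (x3 2 1 0) (x3 0 0 0) 2 x z = δ x z := by
      simp [ms, mn, x3]
    rw [e1, e2]
    nlinarith
  | 3, _ =>
    have e1 : cv (ms e r t δ 0 0 (x3 2 1 0) (x3 0 0 0))
        (ms e r t δ 0 0 (x3 2 1 0) (x3 0 0 0)) 3 x z
        = r x z ^ 2 + r x z + r x z + r x z ^ 2 := by
      simp [cv, ms, mn, x3, Finset.sum_range_succ]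
    have e2 : ms e r t δ 1 0 (x3 2 1 0) (x3 0 0 0) 3 x z = δ x z := by
      simp [ms, mn, x3]
    rw [e1, e2]
    nlinarith
  | j + 4, hj => omega

/-- **`S(ρ) - ρ / 2`.** -/
theorem hT : G.Gc 3 (ms e r t δ 1 0 (x3 2 1 0) (x3 0 0 0))
    fun x z => S 0 x (ρ₀ x z + w x z) - 1 / 2 * (ρ₀ x z + w x z) := by
  obtain ⟨A, hA⟩ := H.rd
  have nr : ∀ x, ∀ z ∈ G.Z x, 0 ≤ r x z ∧ r x z ≤ 1 ∧ 0 ≤ δ x z ∧ r x z ≤ |A| * δ x z :=
    fun x z hz => ⟨(H.sz.r0 x z hz).le, (H.sz.rt x z hz).trans (H.sz.t1 x z hz), H.sz.d0 x z hz,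
      (hA x z hz).trans (mul_le_mul_of_nonneg_right (le_abs_self A) (H.sz.d0 x z hz))⟩
  have s1 : G.Sm fun x z => S 1 x (ρ₀ x z + w x z) - 1 / 2 :=
    (H.cS.smc H.sρw 1).sub (Ge.Sm.const _)
  have nn : ∀ k, ∀ j ≤ 2, G.Nn (ms e r t δ k 0 (x3 2 1 0) (x3 0 0 0) j) := fun k j _ =>
    ms_nn H.sz _ _ _ _ _
  have nn' : ∀ j ≤ 2, G.Nn (ms e r t δ 0 0 (x3 2 1 0) (x3 0 0 0) (j + 1)) := fun j _ =>
    ms_nn H.sz _ _ _ _ _
  have fdT : ∀ x, ∀ z ∈ G.Z x, ∀ y : E,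
      fderiv ℝ (fun z => S 0 x (ρ₀ x z + w x z) - 1 / 2 * (ρ₀ x z + w x z)) z y =
      (S 1 x (ρ₀ x z + w x z) - 1 / 2) * fderiv ℝ (fun z => ρ₀ x z + w x z) z y := by
    intro x z hz y
    rw [fderiv_fun_sub ((H.cS.smc H.sρw 0).at x hz) (((Ge.Sm.const fun _ => 1 / 2).mul H.sρw).at x hz),
      _root_.sub_apply, H.cS.fd H.sρw 0 x hz, fderiv_const_mul (H.sρw.at x hz)]
    simp only [_root_.smul_apply, smul_eq_mul]
    ring
  refine ⟨?_, fun i => ?_, fun i => ?_⟩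
  · obtain ⟨C, hC⟩ := H.S_O2
    refine ⟨|C| * |A|, fun x z hz => (hC x z hz).trans ?_⟩
    obtain ⟨r0, r1, d0, rA⟩ := nr x z hz
    have h1 : r x z ^ 4 ≤ |A| * (δ x z * r x z ^ 2) := by
      have h2 : r x z ^ 2 ≤ |A| * δ x z := by
        calc r x z ^ 2 = r x z * r x z := sq _
          _ ≤ 1 * (|A| * δ x z) := mul_le_mul r1 rA r0 zero_le_one
          _ = |A| * δ x z := one_mul _
      calc r x z ^ 4 = r x z ^ 2 * r x z ^ 2 := by ring
        _ ≤ (|A| * δ x z) * r x z ^ 2 := mul_le_mul_of_nonneg_right h2 (sq_nonneg _)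
        _ = |A| * (δ x z * r x z ^ 2) := by ring
    have h2 : ms e r t δ 1 0 (x3 2 1 0) (x3 0 0 0) 0 x z = δ x z * r x z ^ 2 := by
      simp [ms, mn, x3]
    rw [h2]
    calc C * r x z ^ 4 ≤ |C| * r x z ^ 4 :=
          mul_le_mul_of_nonneg_right (le_abs_self C) (by positivity)
      _ ≤ |C| * (|A| * (δ x z * r x z ^ 2)) := mul_le_mul_of_nonneg_left h1 (abs_nonneg C)
      _ = |C| * |A| * (δ x z * r x z ^ 2) := by ring
  · have h := (H.hS1.mul ((H.hρw.le (by norm_num : 3 ≤ 4)).2.1 i) (nn 0) nn' s1 (H.sρw.da i)).mono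
      (cv_nn (nn 0) nn') (p' := fun j => ms e r t δ 1 0 (x3 2 1 0) (x3 0 0 0) (j + 1))
      fun j hj => ⟨3 * |A|, fun x z hz => by
        obtain ⟨r0, r1, d0, rA⟩ := nr x z hz
        have h2 : r x z ^ 2 ≤ |A| * δ x z := by
          calc r x z ^ 2 = r x z * r x z := sq _
            _ ≤ 1 * (|A| * δ x z) := mul_le_mul r1 rA r0 zero_le_one
            _ = |A| * δ x z := one_mul _
        have hA0 := mul_nonneg (abs_nonneg A) d0
        match j, hj with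
        | 0, _ =>
          have e1 : cv (ms e r t δ 0 0 (x3 2 1 0) (x3 0 0 0))
              (fun j => ms e r t δ 0 0 (x3 2 1 0) (x3 0 0 0) (j + 1)) 0 x z
              = r x z ^ 2 * r x z := by
            simp [cv, ms, mn, x3]
          have e2 : ms e r t δ 1 0 (x3 2 1 0) (x3 0 0 0) (0 + 1) x z = δ x z * r x z := by
            simp [ms, mn, x3]
          rw [e1, e2]
          nlinarith [mul_le_mul_of_nonneg_right h2 r0, mul_nonneg hA0 r0]
        | 1, _ =>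
          have e1 : cv (ms e r t δ 0 0 (x3 2 1 0) (x3 0 0 0))
              (fun j => ms e r t δ 0 0 (x3 2 1 0) (x3 0 0 0) (j + 1)) 1 x z
              = r x z ^ 2 + r x z * r x z := by
            simp [cv, ms, mn, x3, Finset.sum_range_succ]
          have e2 : ms e r t δ 1 0 (x3 2 1 0) (x3 0 0 0) (1 + 1) x z = δ x z := by
            simp [ms, mn, x3]
          rw [e1, e2]
          nlinarith
        | 2, _ =>
          have e1 : cv (ms e r t δ 0 0 (x3 2 1 0) (x3 0 0 0))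
              (fun j => ms e r t δ 0 0 (x3 2 1 0) (x3 0 0 0) (j + 1)) 2 x z
              = r x z ^ 2 + r x z + r x z := by
            simp [cv, ms, mn, x3, Finset.sum_range_succ]
          have e2 : ms e r t δ 1 0 (x3 2 1 0) (x3 0 0 0) (2 + 1) x z = δ x z := by
            simp [ms, mn, x3]
          rw [e1, e2]
          nlinarith
        | j + 3, hj => omega⟩
    exact h.congr fun x z hz => fdT x z hz _
  · have h := (H.hS1.mul ((H.hρw.le (by norm_num : 3 ≤ 4)).2.2 i) (nn 0) (nn 0) s1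
      (H.sρw.db i)).mono (cv_nn (nn 0) (nn 0)) fun j hj => H.cvd j (hj.trans (by norm_num))
    exact h.congr fun x z hz => fdT x z hz _

/-- Factors `e`. -/
theorem mulE {K k : ℕ} (hK : K ≤ 4) {f : α → E → ℝ}
    (hf : G.Gc K (ms e r t δ k 0 (x3 2 1 0) (x3 0 0 0)) f) (sf : G.Sm f) :
    G.Gc K (ms e r t δ k 1 (x3 2 1 0) (x3 0 0 0)) fun x z => e x z * f x z := by
  refine ((H.hE.le hK).mulc hf H.ne (fun _ _ => ms_nn H.sz _ _ _ _ _) H.sE sf
    fun i j hij _ => ms_mo H.sz k 0 hij).mono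
    (fun j _ x z hz => mul_nonneg (H.ne x z hz) (ms_nn H.sz _ _ _ _ _ x z hz))
    fun j _ => ⟨1, fun x z hz => le_of_eq ?_⟩
  simp only [ms, mn]
  ring

/-- The true weight. -/
def WW (_ : Wc G e r t δ lam v ρ₀ w F S) : α → E → ℝ := fun x z =>
  F 0 x (lam x z + v x z) + Real.exp (lam x z + v x z) * S 0 x (ρ₀ x z + w x z)

/-- The model. -/
def W0 (_ : Wc G e r t δ lam v ρ₀ w F S) : α → E → ℝ := fun x z =>
  F 0 x (lam x z) + e x z * (1 / 2 * ρ₀ x z)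

theorem sexpv : G.Sm fun x z => Real.exp (v x z) := cn_exp.smc H.sv 0

theorem sS : G.Sm fun x z => S 0 x (ρ₀ x z + w x z) := H.cS.smc H.sρw 0

theorem sWW : G.Sm H.WW :=
  (H.cF.smc H.slv 0).add ((cn_exp.smc H.slv 0).mul H.sS)

theorem sW0 : G.Sm H.W0 :=
  (H.cF.smc H.sl 0).add (H.sE.mul ((Ge.Sm.const fun _ => 1 / 2).mul H.sρ))

theorem WW_eq (x : α) {z : E} (hz : z ∈ G.Z x) : H.WW x z =
    F 0 x (lam x z + v x z) + e x z * (Real.exp (v x z) * S 0 x (ρ₀ x z + w x z)) := by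
  unfold WW
  rw [Real.exp_add, H.he x z hz]
  ring

/-- `F'(λ + s v)`, `s = 0, 1`. -/
theorem f1 {s : ℝ} (hs : s = 0 ∨ s = 1) :
    G.Gc 3 (fun _ x z => e x z * r x z * t x z) fun x z => F 1 x (lam x z + s * v x z) := by
  have hs' : s ∈ Icc (0 : ℝ) 1 := by
    rcases hs with rfl | rfl
    · exact ⟨le_rfl, zero_le_one⟩
    · exact ⟨zero_le_one, le_rfl⟩
  have hO : ∀ k ≤ 3, G.O (fun x z => e x z * r x z * t x z)
      fun x z => F (k + 1) x (lam x z + s * v x z) := fun k hk => by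
    obtain ⟨C, hC⟩ := H.hF k hk
    exact ⟨C, fun x z hz => hC x z hz s hs'⟩
  rcases hs with rfl | rfl
  · simp only [zero_mul, add_zero] at hO ⊢
    exact comp1 H.cF.sh H.sl H.lam_a H.lb H.nert hO
  · simp only [one_mul] at hO ⊢
    exact comp1 H.cF.sh H.slv H.sum_a H.sum_b H.nert hO

theorem w1 {f : α → E → ℝ} (hf : G.Gc 3 (fun _ x z => e x z * r x z * t x z) f) :
    G.Gc 3 (ms e r t δ 0 1 (x3 1 1 0) (x3 1 0 0)) f :=
  hf.mono (fun _ _ => H.nert) fun j _ => ⟨1, fun x z hz => by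
    rw [one_mul]
    have h := mn_le H.sz (k := 0) (a := 1) (b := 1) (c := 1) (k' := 0) (b' := x3 1 1 0 j)
      (c' := x3 1 0 0 j) le_rfl (by match j with
        | 0 => exact le_rfl
        | 1 => exact le_rfl
        | _ + 2 => exact Nat.zero_le _) (by match j with
        | 0 => exact le_rfl
        | 1 => exact Nat.le_succ _
        | _ + 2 => exact Nat.zero_le _) x z hz
    refine le_trans (le_of_eq ?_) h
    simp [mn]⟩

/-- The part `Φ` of the weight. -/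
theorem hΦ : G.Gd 3 (ms e r t δ 0 1 (x3 1 1 0) (x3 1 0 0)) fun x z => F 0 x (lam x z + v x z) := by
  have hf1 := H.f1 (s := 1) (Or.inr rfl)
  simp only [one_mul] at hf1
  have sf1 : G.Sm fun x z => F 1 x (lam x z + v x z) := H.cF.smc H.slv 1
  refine ⟨trivial, fun i => ?_, fun i => ?_⟩
  · have h2 := hf1.mulc (H.hv.2.1 i) H.nert (fun _ _ => ms_nn H.sz _ _ _ _ _) sf1 (H.sv.da i)
      fun a b hab _ => ms_mo H.sz 0 0 (Nat.succ_le_succ hab)
    refine (h2.mono (fun j _ x z hz => mul_nonneg (H.nert x z hz) (ms_nn H.sz _ _ _ _ _ x z hz))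
      (p' := fun j => ms e r t δ 0 1 (x3 1 1 0) (x3 1 0 0) (j + 1))
      fun j _ => ⟨1, fun x z hz => ?_⟩).congr fun x z hz => ?_
    · rw [one_mul]
      have h := mn_le H.sz (k := 0) (a := 1) (b := 1 + x3 2 1 0 (j + 1)) (c := 1 + x3 0 0 0 (j + 1))
        (k' := 0) (b' := x3 1 1 0 (j + 1)) (c' := x3 1 0 0 (j + 1)) (Nat.zero_le _) (by
          match j with
          | 0 => show 1 ≤ 1 + 1; omega
          | _ + 1 => exact Nat.zero_le _) (by
          match j with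
          | 0 => show 1 + 0 ≤ 1 + 1 + (1 + 0); omega
          | _ + 1 => exact Nat.zero_le _) x z hz
      refine le_trans (le_of_eq ?_) h
      simp only [ms, mn]
      ring
    · show fderiv ℝ (fun z => F 0 x (lam x z + v x z)) z _ = _
      rw [H.cF.fd H.slv 0 x hz, fderiv_fun_add (H.sl.at x hz) (H.sv.at x hz), _root_.add_apply]
      have := H.la i x z hz
      unfold Ge.da at this ⊢
      rw [this]
      ring
  · have h2 := hf1.mulc (H.sum_b i) H.nert (fun _ _ => H.n1) sf1 (H.slv.db i)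
      fun _ _ _ _ _ _ _ => le_rfl
    simp only [mul_one] at h2
    exact (H.w1 h2).congr fun x z hz => H.cF.fd H.slv 0 x hz _

/-- The part `Φ` of the model. -/
theorem hΦ0 : G.Gd 3 (ms e r t δ 0 1 (x3 1 1 0) (x3 1 0 0)) fun x z => F 0 x (lam x z) := by
  have hf1 := H.f1 (s := 0) (Or.inl rfl)
  simp only [zero_mul, add_zero] at hf1
  have sf1 : G.Sm fun x z => F 1 x (lam x z) := H.cF.smc H.sl 1
  refine ⟨trivial, fun i => ?_, fun i => ?_⟩
  · refine (Ge.Gc.zero 3 _).congr fun x z hz => ?_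
    show fderiv ℝ (fun z => F 0 x (lam x z)) z _ = _
    rw [H.cF.fd H.sl 0 x hz]
    have := H.la i x z hz
    unfold Ge.da at this
    rw [this, mul_zero]
  · have h2 := hf1.mulc (H.lb i) H.nert (fun _ _ => H.n1) sf1 (H.sl.db i)
      fun _ _ _ _ _ _ _ => le_rfl
    simp only [mul_one] at h2
    exact (H.w1 h2).congr fun x z hz => H.cF.fd H.sl 0 x hz _

theorem cx {j : ℕ} : x3 1 1 0 j ≤ x3 2 1 0 j ∧ x3 1 1 0 j + x3 1 0 0 j ≤ x3 2 1 0 j + x3 0 0 0 j := by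
  match j with
  | 0 => exact ⟨by decide, by decide⟩
  | 1 => exact ⟨by decide, by decide⟩
  | _ + 2 => exact ⟨le_rfl, le_rfl⟩

/-- `exp v · S(ρ)`. -/
theorem hvS : G.Gc 4 (ms e r t δ 0 0 (x3 2 1 0) (x3 0 0 0))
    fun x z => Real.exp (v x z) * S 0 x (ρ₀ x z + w x z) := by
  have h := H.expv.mulc H.hSρ H.n1 (fun _ _ => ms_nn H.sz _ _ _ _ _) H.sexpv H.sS
    fun i j hij _ => ms_mo H.sz 0 0 hij
  simpa only [one_mul] using h

/-- **The true weight.** -/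
theorem hW_of : G.Gd 3 (ms e r t δ 0 1 (x3 1 1 0) (x3 1 0 0)) H.WW := by
  have h1 := (H.mulE le_rfl H.hvS (H.sexpv.mul H.sS)).gd.monom H.sz (κ := 0) (B := x3 1 1 0)
    (C := x3 1 0 0) le_rfl fun j _ => H.cx
  exact (H.hΦ.add h1 (H.cF.smc H.slv 0) (H.sE.mul (H.sexpv.mul H.sS))).congr fun x z hz =>
    H.WW_eq x hz

/-- **The model.** -/
theorem hW0_of : G.Gd 3 (ms e r t δ 0 1 (x3 1 1 0) (x3 1 0 0)) H.W0 := by
  have h1 := (H.mulE le_rfl (H.hρ.cmul H.sρ (fun _ _ => ms_nn H.sz _ _ _ _ _) (1 / 2))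
    ((Ge.Sm.const fun _ => 1 / 2).mul H.sρ)).gd.monom H.sz (κ := 0) (B := x3 1 1 0)
    (C := x3 1 0 0) le_rfl fun j _ => H.cx
  exact H.hΦ0.add h1 (H.cF.smc H.sl 0) (H.sE.mul ((Ge.Sm.const fun _ => 1 / 2).mul H.sρ))

/-- **The difference.** -/
theorem hD_of : G.Gd 2 (ms e r t δ 1 1 (x3 2 1 0) (x3 0 0 0)) fun x z => H.WW x z - H.W0 x z := by
  have nn : ∀ k : ℕ, ∀ j ≤ 3, G.Nn (ms e r t δ k 0 (x3 2 1 0) (x3 0 0 0) j) := fun k j _ =>
    ms_nn H.sz _ _ _ _ _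
  have se : G.Sm fun x z => Real.exp (v x z) - 1 := H.sexpv.sub (Ge.Sm.const _)
  -- `Φ`
  have h1 : G.Gc 3 (ms e r t δ 1 1 (x3 2 1 0) (x3 0 0 0))
      fun x z => F 0 x (lam x z + v x z) - F 0 x (lam x z) := by
    obtain ⟨A, hA⟩ := H.rd
    refine (comp3 (K := 3) H.cF H.sl H.sv H.lam_a H.lb (H.hv.le (by norm_num)) (nn 0)
      (fun i j hij _ => ms_mo H.sz 0 0 hij) ⟨1, fun x z hz => H.p_le _ x z hz⟩ H.nert
      H.hF).mono (fun j hj x z hz => mul_nonneg (H.nert x z hz) (nn 0 j hj x z hz))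
      fun j hj => ⟨|A|, fun x z hz => ?_⟩
    have r0 := (H.sz.r0 x z hz).le
    have t0 : 0 ≤ t x z := r0.trans (H.sz.rt x z hz)
    have h0 : r x z * t x z ≤ |A| * δ x z := by
      calc r x z * t x z ≤ (|A| * δ x z) * 1 :=
            mul_le_mul ((hA x z hz).trans (mul_le_mul_of_nonneg_right (le_abs_self A)
              (H.sz.d0 x z hz))) (H.sz.t1 x z hz) t0
              (mul_nonneg (abs_nonneg A) (H.sz.d0 x z hz))
        _ = |A| * δ x z := mul_one _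
    have e1 : ms e r t δ 1 1 (x3 2 1 0) (x3 0 0 0) j x z =
        δ x z * (e x z * ms e r t δ 0 0 (x3 2 1 0) (x3 0 0 0) j x z) := by
      simp only [ms, mn]
      ring
    rw [e1]
    calc e x z * r x z * t x z * ms e r t δ 0 0 (x3 2 1 0) (x3 0 0 0) j x z
        = (r x z * t x z) * (e x z * ms e r t δ 0 0 (x3 2 1 0) (x3 0 0 0) j x z) := by ring
      _ ≤ (|A| * δ x z) * (e x z * ms e r t δ 0 0 (x3 2 1 0) (x3 0 0 0) j x z) :=
          mul_le_mul_of_nonneg_right h0 (mul_nonneg (H.ne x z hz) (nn 0 j hj x z hz))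
      _ = |A| * (δ x z * (e x z * ms e r t δ 0 0 (x3 2 1 0) (x3 0 0 0) j x z)) := by ring
  -- the stiff part
  have h2 : G.Gc 3 (ms e r t δ 1 0 (x3 2 1 0) (x3 0 0 0))
      fun x z => (Real.exp (v x z) - 1) * S 0 x (ρ₀ x z + w x z) :=
    ((H.expm.le (by norm_num)).mul (H.hSρ.le (by norm_num)) (nn 0) (nn 0) se H.sS).mono
      (cv_nn (nn 0) (nn 0)) H.cvd
  have h3 : G.Gc 3 (ms e r t δ 1 0 (x3 2 1 0) (x3 0 0 0)) fun x z => 1 / 2 * w x z :=
    (H.hw.le (by norm_num)).cmul H.sw (nn 1) _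
  have h4 := (h2.add H.hT (se.mul H.sS) H.sT).add h3 ((se.mul H.sS).add H.sT)
    ((Ge.Sm.const fun _ => 1 / 2).mul H.sw)
  have h5 := H.mulE (by norm_num) h4 (((se.mul H.sS).add H.sT).add
    ((Ge.Sm.const fun _ => 1 / 2).mul H.sw))
  refine ((h1.add h5 ((H.cF.smc H.slv 0).sub (H.cF.smc H.sl 0)) (H.sE.mul
    (((se.mul H.sS).add H.sT).add ((Ge.Sm.const fun _ => 1 / 2).mul H.sw)))).gd).congr
    fun x z hz => ?_
  rw [H.WW_eq x hz]
  unfold W0
  ring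

end Wc

end Vale.Agent.P088.R2.H464.B
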